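import Vale.Agent.P162.Swap

/-! Contraction of the conditional law for a direction chosen off a hyperplane. -/

namespace Vale.Agent.P162

open Equiv

variable {V : Type} [AddCommGroup V] [Module (ZMod 2) V] [DecidableEq V] [Fintype V]

/-- the sign of a bit -/
def sg (b : ZMod 2) : ℝ := if b = 0 then 1 else -1

lemma sg_add (a b : ZMod 2) : sg (a + b) = sg a * sg b := by
  rcases z2cases a with rfl | rfl <;> rcases z2cases b with rfl | rfl <;> simp [sg, z2]

lemma sg_ind (a b : ZMod 2) : (if a + b = 1 then (1 : ℝ) else 0) = (1 - sg a * sg b) / 2 := by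
  rcases z2cases a with rfl | rfl <;> rcases z2cases b with rfl | rfl <;> simp [sg, z2]

lemma sg_zero : sg 0 = 1 := if_pos rfl

lemma sg_one : sg 1 = -1 := if_neg one_ne_zero

lemma sum_z2 (f : ZMod 2 → ℝ) : ∑ b, f b = f 0 + f 1 := Fin.sum_univ_two f

lemma sg_cases (a : ZMod 2) : sg a = 1 ∨ sg a = -1 := by
  unfold sg; split_ifs <;> simp

/-- indicator of free sites -/
noncomputable def fr (S : Finset V) (h : Perm V) (y : V) : ℝ := if h⁻¹ y ∈ S then 0 else 1

/-- imbalance of the free set -/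
noncomputable def Zs (S : Finset V) (φ : V →ₗ[ZMod 2] ZMod 2) (h : Perm V) : ℝ :=
  ∑ y, fr S h y * sg (φ y)

/-- penalty for imbalance -/
noncomputable def Gs (S : Finset V) (φ : V →ₗ[ZMod 2] ZMod 2) (c : ℝ) (h : Perm V) : ℝ :=
  Real.exp (-(4 * c ^ 2 * Fintype.card V)) *
    (Real.exp (2 * c * Zs S φ h) + Real.exp (-(2 * c) * Zs S φ h))

omit [AddCommGroup V] [Module (ZMod 2) V] in
lemma sum_fr (S : Finset V) (h : Perm V) : ∑ y, fr S h y = Fintype.card V - S.card := by
  rw [← Equiv.sum_comp h]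
  have : ∀ x, fr S h (h x) = 1 - if x ∈ S then 1 else 0 := by
    intro x; by_cases hx : x ∈ S <;> simp [fr, hx]
  simp [this]

omit [DecidableEq V] in
lemma sum_dir (φ : V →ₗ[ZMod 2] ZMod 2) (y : V) (f : V → ℝ) :
    ∑ K ∈ Finset.univ.filter (fun K => φ K = 1), f (y + K) =
      ∑ z, (1 - sg (φ y) * sg (φ z)) / 2 * f z := by
  rw [Finset.sum_filter, ← Equiv.sum_comp (Equiv.addLeft y) fun z => _ * f z]
  refine Finset.sum_congr rfl fun K _ => ?_
  simp only [Equiv.coe_addLeft]
  rw [← sg_ind, map_add, ← add_assoc, z2, zero_add]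
  split_ifs <;> simp

omit [DecidableEq V] in
lemma card_dir (φ : V →ₗ[ZMod 2] ZMod 2) :
    2 * ((Finset.univ.filter (fun K => φ K = 1)).card : ℝ) ≤ Fintype.card V := by
  rcases (Finset.univ.filter (fun K => φ K = 1)).eq_empty_or_nonempty with h | ⟨k, hk⟩
  · rw [h]; simp
  have hk1 : φ k = 1 := (Finset.mem_filter.1 hk).2
  have h1 : (Finset.univ.filter (fun K => φ K = 1)).card ≤
      (Finset.univ.filter (fun K => ¬ φ K = 1)).card := by
    refine Finset.card_le_card_of_injOn (fun K => K + k) (fun K hK => ?_) fun a _ b _ h => ?_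
    · have := (Finset.mem_filter.1 hK).2
      simp [this, hk1, z2]
    · exact add_right_cancel h
  have h2 := Finset.card_filter_add_card_filter_not (s := Finset.univ) (fun K => φ K = 1)
  rw [Finset.card_univ] at h2
  have : 2 * (Finset.univ.filter (fun K => φ K = 1)).card ≤ Fintype.card V := by omega
  exact_mod_cast this

lemma contract {S : Finset V} {s : Perm V × (V → ℝ)} (hs : Good S s) (φ : V →ₗ[ZMod 2] ZMod 2)
    {c : ℝ} (hc : 0 ≤ c) (hS : 4 * c * Fintype.card V ≤ Fintype.card V - S.card) :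
    ∑ K ∈ Finset.univ.filter (fun K => φ K = 1), av (fun b => ∑ y, (upd S K b s).2 y ^ 2) ≤
      ∑ _K ∈ Finset.univ.filter (fun K => φ K = 1),
        ((1 - c) * ∑ y, s.2 y ^ 2 + c * Gs S φ c s.1) := by
  have hG : 0 ≤ Gs S φ c s.1 := by unfold Gs; positivity
  by_cases hb : |Zs S φ s.1| ≤ (Fintype.card V - S.card) / 2
  swap
  · refine Finset.sum_le_sum fun K _ => ?_
    have h1 : av (fun b => ∑ y, (upd S K b s).2 y ^ 2) ≤ ∑ y, s.2 y ^ 2 :=
      (av_mono fun b => sq_upd_le K b s).trans (av_const _).le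
    have h2 : 1 ≤ Gs S φ c s.1 := by
      have h3 : 4 * c ^ 2 * Fintype.card V ≤ 2 * c * |Zs S φ s.1| := by nlinarith
      have h4 : Real.exp (2 * c * |Zs S φ s.1|) ≤
          Real.exp (2 * c * Zs S φ s.1) + Real.exp (-(2 * c) * Zs S φ s.1) := by
        rcases abs_cases (Zs S φ s.1) with h | h <;> rw [h.1]
        · linarith [Real.exp_pos (-(2 * c) * Zs S φ s.1)]
        · rw [show 2 * c * -Zs S φ s.1 = -(2 * c) * Zs S φ s.1 by ring]
          linarith [Real.exp_pos (2 * c * Zs S φ s.1)]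
      refine le_trans ?_ (mul_le_mul_of_nonneg_left h4 (Real.exp_pos _).le)
      rw [← Real.exp_add]
      exact Real.one_le_exp (by linarith)
    have := hs.2.2
    nlinarith
  set A := Finset.univ.filter (fun K => φ K = 1) with hA
  have e1 : ∀ K, av (fun b => ∑ y, (upd S K b s).2 y ^ 2) = ∑ y, s.2 y ^ 2 -
      (∑ y, s.2 y ^ 2 * fr S s.1 (y + K)) / 2 + (∑ y, s.2 y * s.2 (y + K)) / 2 := by
    intro K
    simp only [sq_upd, av_const]
    congr 3
    · refine Finset.sum_congr rfl fun y _ => ?_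
      by_cases h1 : s.1⁻¹ y ∈ S
      · simp [hs.1 y h1]
      · by_cases h2 : s.1⁻¹ (y + K) ∈ S <;> simp only [FF, fr, h1, h2] <;> simp
    · funext y
      by_cases h1 : s.1⁻¹ y ∈ S
      · simp [hs.1 y h1]
      · by_cases h2 : s.1⁻¹ (y + K) ∈ S
        · simp [hs.1 _ h2]
        · simp only [FF, h1, h2]; simp
  have e2 : ∑ K ∈ A, ∑ y, s.2 y * s.2 (y + K) = -(∑ y, s.2 y * sg (φ y)) ^ 2 / 2 := by
    rw [Finset.sum_comm]
    simp only [← Finset.mul_sum, hA, sum_dir]
    have : ∀ y, ∑ z, (1 - sg (φ y) * sg (φ z)) / 2 * s.2 z =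
        -(sg (φ y) * ∑ z, s.2 z * sg (φ z)) / 2 := by
      intro y
      have h0 := hs.2.1
      have : ∑ z, (1 - sg (φ y) * sg (φ z)) / 2 * s.2 z =
          (∑ z, s.2 z) / 2 - (sg (φ y) * ∑ z, s.2 z * sg (φ z)) / 2 := by
        rw [Finset.mul_sum, Finset.sum_div, Finset.sum_div, ← Finset.sum_sub_distrib]
        exact Finset.sum_congr rfl fun z _ => by ring
      rw [this, h0]; ring
    simp only [this]
    rw [sq, Finset.sum_mul, ← Finset.sum_neg_distrib, Finset.sum_div]
    exact Finset.sum_congr rfl fun y _ => by ring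
  have e3 : c * Fintype.card V * ∑ y, s.2 y ^ 2 ≤ ∑ K ∈ A, ∑ y, s.2 y ^ 2 * fr S s.1 (y + K) := by
    rw [Finset.sum_comm, Finset.mul_sum]
    refine Finset.sum_le_sum fun y _ => ?_
    rw [← Finset.mul_sum, hA, sum_dir, mul_comm]
    refine mul_le_mul_of_nonneg_left ?_ (sq_nonneg _)
    have : ∑ z, (1 - sg (φ y) * sg (φ z)) / 2 * fr S s.1 z =
        (∑ z, fr S s.1 z) / 2 - (sg (φ y) * Zs S φ s.1) / 2 := by
      rw [Zs, Finset.mul_sum, Finset.sum_div, Finset.sum_div, ← Finset.sum_sub_distrib]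
      exact Finset.sum_congr rfl fun z _ => by ring
    rw [this, sum_fr]
    have h1 := le_abs_self (Zs S φ s.1)
    have h2 := neg_abs_le (Zs S φ s.1)
    rcases sg_cases (φ y) with h | h <;> rw [h] <;> linarith
  have e4 := card_dir φ
  rw [← hA] at e4
  simp only [e1, Finset.sum_add_distrib, Finset.sum_sub_distrib, Finset.sum_const, nsmul_eq_mul,
    ← Finset.sum_div, e2]
  have h5 : 0 ≤ ∑ y, s.2 y ^ 2 := Finset.sum_nonneg fun y _ => sq_nonneg _
  have h6 := mul_le_mul_of_nonneg_right e4 (mul_nonneg hc h5)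
  have h7 : 0 ≤ (A.card : ℝ) * (c * Gs S φ c s.1) := by positivity
  nlinarith [sq_nonneg (∑ y, s.2 y * sg (φ y))]

lemma Zs_sw (S : Finset V) (φ : V →ₗ[ZMod 2] ZMod 2) (h : Perm V) (K : V) (c : V → ZMod 2) :
    Zs S φ (sw K c * h) = ∑ y, fr S h y * sg (φ (sw K c y)) := by
  rw [Zs, ← Equiv.sum_comp (sw K c)]
  refine Finset.sum_congr rfl fun y _ => ?_
  simp [fr]

lemma Zs_sw_zero (S : Finset V) {φ : V →ₗ[ZMod 2] ZMod 2} (h : Perm V) {K : V} (hK : φ K = 0)
    (c : V → ZMod 2) : Zs S φ (sw K c * h) = Zs S φ h := by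
  rw [Zs_sw, Zs]
  simp [sw_apply, hK]

lemma av_exp_le (S : Finset V) {φ : V →ₗ[ZMod 2] ZMod 2} (h : Perm V) {K : V} (hK : φ K = 1)
    (θ : ℝ) : av (fun c => Real.exp (θ * Zs S φ (sw K c * h))) ≤
      Real.exp (θ ^ 2 / 2 * Fintype.card V) := by
  let T : (V → ZMod 2) → V → ZMod 2 := fun c y => c y + if φ y = 0 then c (y + K) else 0
  have hφ : ∀ y, φ (y + K) = 0 ↔ ¬ φ y = 0 := by
    intro y; rw [map_add, hK]; rcases z2cases (φ y) with e | e <;> simp [e, z2]
  have hT : Function.Involutive T := by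
    intro c; funext y
    by_cases hy : φ y = 0
    · have hy' : ¬ φ (y + K) = 0 := fun h => (hφ y).1 h hy
      simp only [T, if_pos hy, if_neg hy', add_zero, add_assoc, z2]
    · simp only [T, if_neg hy, add_zero]
  let w : V → ℝ := fun y => if φ y = 0 then fr S h y - fr S h (y + K) else 0
  have hw : ∀ y, w y ^ 2 ≤ 1 := by
    intro y; simp only [w, fr]; split_ifs <;> norm_num
  have h1 : ∀ c, Zs S φ (sw K (T c) * h) = ∑ y, w y * sg (c y) := by
    intro c
    rw [Zs_sw]
    have a1 : ∀ y, fr S h y * sg (φ (sw K (T c) y)) =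
        (if φ y = 0 then fr S h y * sg (c y) else 0) -
        (if φ (y + K) = 0 then fr S h (y + K + K) * sg (c (y + K)) else 0) := by
      intro y
      rw [sw_apply, map_add, map_smul, hK, smul_eq_mul, mul_one, sg_add, vKK]
      by_cases hy : φ y = 0
      · have hy' : ¬ φ (y + K) = 0 := fun h => (hφ y).1 h hy
        simp only [T, if_pos hy, if_neg hy', add_zero, add_assoc, z2]
        rw [hy, sg_zero]; ring
      · have : c y + (c (y + K) + c y) = c (y + K) := by
          rw [add_comm (c (y + K)), ← add_assoc, z2, zero_add]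
        have hy' : φ (y + K) = 0 := (hφ y).2 hy
        simp only [T, if_neg hy, if_pos hy', add_zero, vKK, this]
        rw [(z2cases (φ y)).resolve_left hy, sg_one]; ring
    have a2 : ∑ y, (if φ (y + K) = 0 then fr S h (y + K + K) * sg (c (y + K)) else 0) =
        ∑ z, if φ z = 0 then fr S h (z + K) * sg (c z) else 0 := Equiv.sum_comp (Equiv.addRight K)
      fun z => if φ z = 0 then fr S h (z + K) * sg (c z) else 0
    simp only [a1, Finset.sum_sub_distrib]
    rw [a2, ← Finset.sum_sub_distrib]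
    refine Finset.sum_congr rfl fun y _ => ?_
    simp only [w]; split_ifs <;> ring
  rw [← av_equiv hT.toPerm]
  simp only [Function.Involutive.coe_toPerm, h1, Finset.mul_sum, Real.exp_sum]
  unfold av
  rw [← Fintype.piFinset_univ, ← Finset.prod_univ_sum (fun _ => Finset.univ)
    fun y b => Real.exp (θ * (w y * sg b)), div_le_iff₀ (by exact_mod_cast Fintype.card_pos)]
  calc ∏ y, ∑ b : ZMod 2, Real.exp (θ * (w y * sg b)) ≤ ∏ y : V, Real.exp (θ ^ 2 / 2) * 2 := by
        refine Finset.prod_le_prod (fun y _ => Finset.sum_nonneg fun b _ => (Real.exp_pos _).le)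
          fun y _ => ?_
        have a1 : ∑ b : ZMod 2, Real.exp (θ * (w y * sg b)) = Real.cosh (θ * w y) * 2 := by
          rw [Real.cosh_eq, sum_z2, sg_zero, sg_one]; simp
        rw [a1]
        refine mul_le_mul_of_nonneg_right ((Real.cosh_le_exp_half_sq _).trans
          (Real.exp_le_exp.2 ?_)) (by norm_num)
        have := mul_le_mul_of_nonneg_left (hw y) (sq_nonneg θ)
        rw [mul_pow]; linarith
    _ = _ := by
        rw [Finset.prod_const, mul_pow, ← Real.exp_nat_mul]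
        simp [mul_comm]

lemma av_Gs_le (S : Finset V) {φ : V →ₗ[ZMod 2] ZMod 2} (h : Perm V) {K : V} (hK : φ K = 1)
    (c : ℝ) : av (fun b => Gs S φ c (sw K b * h)) ≤
      2 * Real.exp (-(2 * c ^ 2 * Fintype.card V)) := by
  simp only [Gs, av_mul, av_add]
  have h1 := av_exp_le S h hK (2 * c)
  have h2 := av_exp_le S h hK (-(2 * c))
  rw [neg_sq] at h2
  refine (mul_le_mul_of_nonneg_left (add_le_add h1 h2) (Real.exp_pos _).le).trans (le_of_eq ?_)
  rw [← two_mul, mul_left_comm, ← Real.exp_add]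
  congr 2; ring

lemma EX_Gs_le (S : Finset V) {φ : V →ₗ[ZMod 2] ZMod 2} {K : ℕ → V} {t : ℕ} (hK : φ (K t) = 1)
    (c : ℝ) (r : ℕ) (hr : ∀ s, t < s → s ≤ t + r → φ (K s) = 0) :
    EX K (t + r + 1) (Gs S φ c) ≤ 2 * Real.exp (-(2 * c ^ 2 * Fintype.card V)) := by
  induction r with
  | zero => exact (EX_mono t fun g => av_Gs_le S g hK c).trans (EX_const _ _).le
  | succ r ih =>
    refine le_trans (le_of_eq ?_) (ih fun s h1 h2 => hr s h1 (by omega))
    rw [show t + (r + 1) + 1 = (t + r + 1) + 1 from rfl, EX]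
    congr 1; funext g
    have := hr (t + r + 1) (by omega) (by omega)
    simp only [Gs, Zs_sw_zero S g this]
    exact av_const _

end Vale.Agent.P162
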