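import Vale.Agent.P162.Reg

/-! From bounded coset densities to operator norm bounds on bands of representations. -/

namespace Vale.Agent.P162

open Module
open scoped InnerProductSpace

variable {G : Type*} [Group G] [Fintype G] {E : Type*} [NormedAddCommGroup E]
  [InnerProductSpace ℂ E] [FiniteDimensional ℂ E]

/-- the operator of a real weight function -/
noncomputable def op (ρ : G →* End ℂ E) (μ : G → ℝ) : End ℂ E := ∑ g, (μ g : ℂ) • ρ g

omit [FiniteDimensional ℂ E] in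
lemma op_apply (ρ : G →* End ℂ E) (μ : G → ℝ) (v : E) : op ρ μ v = ∑ g, (μ g : ℂ) • ρ g v := by
  simp [op, LinearMap.sum_apply]

omit [FiniteDimensional ℂ E] in
lemma Inv.op_mem {ρ : G →* End ℂ E} {U : Submodule ℂ E} (h : Inv ρ U) (μ : G → ℝ) {v : E}
    (hv : v ∈ U) : op ρ μ v ∈ U := by
  rw [op_apply]; exact U.sum_mem fun g _ => U.smul_mem _ (h g v hv)

lemma fourier_block {H : Type*} [Group H] [Fintype H] {ρ : G →* End ℂ E} (hρ : IsU ρ)
    (ι : H →* G) (μ : G → ℝ) (hμ0 : ∀ g, 0 ≤ μ g) (hμ1 : ∑ g, μ g ≤ 1) (D : ℝ)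
    (hD : ∀ g, Fintype.card G * ∑ h, μ (g * ι h) ≤ D * Fintype.card H) (y y' : ℕ) {v : E}
    (hv : v ∈ low (ρ.comp ι) y') (hv' : v ∈ (low ρ y)ᗮ) :
    ((y : ℝ) + 1) * ‖op ρ μ v‖ ^ 2 ≤ D * R H y' * ‖v‖ ^ 2 := by
  classical
  set w := op ρ μ v with hw
  set φ : G → ℝ := fun g => ‖⟪w, ρ g v⟫_ℂ‖ with hφ
  have hG : (0 : ℝ) < Fintype.card G := by exact_mod_cast Fintype.card_pos
  have hH : (0 : ℝ) < Fintype.card H := by exact_mod_cast Fintype.card_pos
  have hD0 : 0 ≤ D := by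
    have h1 : 0 ≤ Fintype.card G * ∑ h, μ (1 * ι h) :=
      mul_nonneg hG.le (Finset.sum_nonneg fun h _ => hμ0 _)
    exact nonneg_of_mul_nonneg_left (h1.trans (hD 1)) hH |> fun h => by
      by_contra hc
      push Not at hc
      have := (h1.trans (hD 1)); nlinarith
  have h1 : ‖w‖ ^ 2 ≤ ∑ g, μ g * φ g := by
    have : ‖w‖ ^ 2 = ‖⟪w, w⟫_ℂ‖ := by rw [inner_self_eq_norm_sq_to_K]; simp
    rw [this]
    nth_rewrite 2 [hw]
    rw [op_apply, inner_sum]
    refine (norm_sum_le _ _).trans (Finset.sum_le_sum fun g _ => ?_)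
    rw [inner_smul_right, norm_mul, Complex.norm_real, Real.norm_of_nonneg (hμ0 g)]
  have h2 : (∑ g, μ g * φ g) ^ 2 ≤ ∑ g, μ g * φ g ^ 2 := by
    have := Finset.sum_sq_le_sum_mul_sum_of_sq_le_mul Finset.univ (r := fun g => μ g * φ g)
      (f := μ) (g := fun g => μ g * φ g ^ 2) (fun g _ => hμ0 g)
      (fun g _ => mul_nonneg (hμ0 g) (sq_nonneg _)) (fun g _ => le_of_eq (by ring))
    refine this.trans (mul_le_of_le_one_left ?_ hμ1)
    exact Finset.sum_nonneg fun g _ => mul_nonneg (hμ0 g) (sq_nonneg _)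
  have h3 : ∀ g, Fintype.card H * φ g ^ 2 ≤ R H y' * ∑ h, φ (g * ι h⁻¹) ^ 2 := by
    intro g
    let Λ : E →ₗ[ℂ] EuclideanSpace ℂ H :=
      { toFun := fun x => WithLp.toLp 2 fun h => ⟪w, ρ (g * ι h⁻¹) x⟫_ℂ
        map_add' := fun a b => by ext h; simp
        map_smul' := fun c a => by ext h; simp }
    have hΛ : ∀ x h, Λ x h = ⟪w, ρ (g * ι h⁻¹) x⟫_ℂ := fun _ _ => rfl
    have hm := low_map (ρ := ρ.comp ι) (ρ' := reg H) Λ (by
      intro k x; ext h
      rw [reg_apply, hΛ, hΛ, MonoidHom.comp_apply, ← rho_mul]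
      simp [mul_assoc]) y' hv
    have := eval_le (low_inv (reg H) y') hm 1
    simpa [hΛ, R, hφ] using this
  have h4 : Fintype.card G * ∑ g, μ g * φ g ^ 2 ≤ D * R H y' * ∑ g, φ g ^ 2 := by
    have e1 : ∑ g, μ g * ∑ h, φ (g * ι h⁻¹) ^ 2 = ∑ g, (∑ h, μ (g * ι h)) * φ g ^ 2 := by
      simp_rw [Finset.mul_sum, Finset.sum_mul]
      rw [Finset.sum_comm, Finset.sum_comm (f := fun g h => μ (g * ι h) * φ g ^ 2)]
      refine Finset.sum_congr rfl fun h _ => ?_
      rw [← Equiv.sum_comp (Equiv.mulRight (ι h))]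
      simp
    have e2 : Fintype.card H * ∑ g, μ g * φ g ^ 2 ≤
        R H y' * ∑ g, (∑ h, μ (g * ι h)) * φ g ^ 2 := by
      rw [← e1, Finset.mul_sum, Finset.mul_sum]
      refine Finset.sum_le_sum fun g _ => ?_
      have := mul_le_mul_of_nonneg_left (h3 g) (hμ0 g)
      linarith
    have e3 : Fintype.card G * ∑ g, (∑ h, μ (g * ι h)) * φ g ^ 2 ≤
        D * Fintype.card H * ∑ g, φ g ^ 2 := by
      rw [Finset.mul_sum, Finset.mul_sum]
      refine Finset.sum_le_sum fun g _ => ?_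
      rw [← mul_assoc]
      exact mul_le_mul_of_nonneg_right (hD g) (sq_nonneg _)
    have hR : (0 : ℝ) ≤ R H y' := Nat.cast_nonneg _
    refine le_of_mul_le_mul_left ?_ hH
    have a1 := mul_le_mul_of_nonneg_left e2 hG.le
    have a2 := mul_le_mul_of_nonneg_left e3 hR
    nlinarith
  have h5 := avg_coeff_le hρ y hv' w
  have hDR : 0 ≤ D * R H y' := mul_nonneg hD0 (Nat.cast_nonneg _)
  have h6 : ((y : ℝ) + 1) * (‖w‖ ^ 2) ^ 2 ≤ D * R H y' * (‖v‖ ^ 2 * ‖w‖ ^ 2) := by
    refine le_of_mul_le_mul_left ?_ hG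
    have a1 : (‖w‖ ^ 2) ^ 2 ≤ ∑ g, μ g * φ g ^ 2 := (pow_le_pow_left₀ (by positivity) h1 2).trans h2
    have a2 := mul_le_mul_of_nonneg_left h5 hDR
    have a3 := mul_le_mul_of_nonneg_left h4 (by positivity : (0 : ℝ) ≤ (y : ℝ) + 1)
    have a4 := mul_le_mul_of_nonneg_left a1
      (by positivity : (0 : ℝ) ≤ Fintype.card G * ((y : ℝ) + 1))
    simp only [hφ] at a3 a4
    nlinarith
  rcases eq_or_lt_of_le (sq_nonneg ‖w‖) with h0 | h0
  · rw [← h0, mul_zero]; positivity
  · refine le_of_mul_le_mul_right ?_ h0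
    nlinarith

omit [Fintype G] in
lemma tp_bound {κ : Type*} [Fintype κ] {H : Type*} [Group H] {ρ : G →* End ℂ E} (hρ : IsU ρ)
    (ι : κ → H →* G) (hι : ∀ i j, i ≠ j → ∀ g h, Commute (ι i g) (ι j h)) (M : End ℂ E) (γ : ℝ)
    (hγ : 0 ≤ γ) (y y' f : ℕ) (hf : f < (y' + 1) ^ Fintype.card κ)
    (hM : ∀ i, ∀ v ∈ low (ρ.comp (ι i)) y', v ∈ (low ρ y)ᗮ → ‖M v‖ ≤ γ * ‖v‖)
    {v : E} (hv : v ∈ low ρ f) (hv' : v ∈ (low ρ y)ᗮ) : ‖M v‖ ≤ Fintype.card κ * γ * ‖v‖ := by
  classical
  have hc : ∀ i j, i ≠ j → ∀ g h v, (ρ.comp (ι i)) g ((ρ.comp (ι j)) h v) =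
      (ρ.comp (ι j)) h ((ρ.comp (ι i)) g v) := by
    intro i j hij g h v
    simp only [MonoidHom.comp_apply, ← rho_mul, (hι i j hij g h).eq]
  have key : ∀ s : Finset κ, ∀ U : Submodule ℂ E, U ≤ low ρ f ⊓ (low ρ y)ᗮ →
      (∀ i, Inv (ρ.comp (ι i)) U) →
      (∀ i ∉ s, ∀ W ≤ U, Inv (ρ.comp (ι i)) W → W ≠ ⊥ → y' + 1 ≤ finrank ℂ W) →
      ∀ v ∈ U, ‖M v‖ ≤ s.card * γ * ‖v‖ := by
    intro s
    induction s using Finset.induction_on with
    | empty =>
      intro U hU hUi hW v hv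
      have : U = ⊥ := by
        by_contra h0
        obtain ⟨U0, hU0, hy0, hne⟩ := exists_gen (hU.trans inf_le_left) h0
        have := pow_le_finrank (fun i => ρ.comp (ι i)) (fun i => hρ.comp _) hc (y' + 1)
          Finset.univ _ hne (fun i _ => (hU0.comp _).map_proj (hρ.comp _) (hUi i))
          (fun i _ W hWU => hW i (Finset.notMem_empty i) W (hWU.trans (map_proj_le _ _)))
        have h2 := (Submodule.finrank_map_le (U.starProjection : E →ₗ[ℂ] E) U0).trans hy0
        rw [Finset.card_univ] at this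
        omega
      subst this
      rw [(Submodule.mem_bot ℂ).1 hv]; simp
    | insert i s his ih =>
      intro U hU hUi hW v hv
      set S := U ⊓ low (ρ.comp (ι i)) y' with hS
      have hSi : ∀ j, Inv (ρ.comp (ι j)) S := by
        intro j
        refine (hUi j).inf ?_
        by_cases hij : j = i
        · subst hij; exact low_inv _ _
        · exact low_inv' (fun g h v => hc j i hij h g v) y'
      have h1 := ih (U ⊓ Sᗮ) (inf_le_left.trans hU) (fun j => (hUi j).inf ((hSi j).orth (hρ.comp _)))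
        (by
          intro j hj W hWU hWi hW0
          by_cases hij : j = i
          · subst hij
            by_contra hlt
            apply hW0
            rw [eq_bot_iff]
            intro x hx
            exact inf_orth_eq_zero (U := S) ⟨(hWU hx).1, le_low hWi (by omega) hx⟩ (hWU hx).2
          · exact hW j (by simp [hij, hj]) W (hWU.trans inf_le_left) hWi hW0)
        (v - S.starProjection v)
        ⟨U.sub_mem hv (S.starProjection_apply_mem v).1, S.sub_starProjection_mem_orthogonal v⟩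
      have h2 := hM i _ (S.starProjection_apply_mem v).2 (hU (S.starProjection_apply_mem v).1).2
      have h3 : ‖S.starProjection v‖ ≤ ‖v‖ := S.norm_starProjection_apply_le v
      have h4 : ‖v - S.starProjection v‖ ≤ ‖v‖ := by
        rw [← S.starProjection_orthogonal_val]; exact Sᗮ.norm_starProjection_apply_le v
      have h5 : M v = M (S.starProjection v) + M (v - S.starProjection v) := by
        rw [← map_add]; simp
      rw [Finset.card_insert_of_notMem his, h5]
      refine (norm_add_le _ _).trans ?_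
      push_cast
      have a1 := mul_le_mul_of_nonneg_left h3 hγ
      have a2 := mul_le_mul_of_nonneg_left h4 (by positivity : 0 ≤ (s.card : ℝ) * γ)
      linarith
  exact key Finset.univ _ le_rfl (fun i => ((low_inv ρ f).inf ((low_inv ρ y).orth hρ)).comp _)
    (fun i hi => absurd (Finset.mem_univ i) hi) v ⟨hv, hv'⟩

omit [Fintype G] [FiniteDimensional ℂ E] in
lemma pow_bound {U : Submodule ℂ E} (M : End ℂ E) (hM : ∀ v ∈ U, M v ∈ U) {θ : ℝ} (hθ : 0 ≤ θ)
    (h : ∀ v ∈ U, ‖M v‖ ≤ θ * ‖v‖) (k : ℕ) : ∀ v ∈ U, ‖(M ^ k) v‖ ≤ θ ^ k * ‖v‖ := by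
  induction k with
  | zero => intro v _; simp
  | succ k ih =>
    intro v hv
    rw [pow_succ, End.mul_apply, pow_succ, mul_assoc]
    exact (ih _ (hM v hv)).trans (mul_le_mul_of_nonneg_left (h v hv) (pow_nonneg hθ k))

omit [Fintype G] in
lemma band_sum (W : ℕ → Submodule ℂ E) (hW : ∀ j, W j ≤ W (j + 1)) (N : End ℂ E) (a : ℕ → ℝ)
    (ha : ∀ j, 0 ≤ a j) (h : ∀ j, ∀ v ∈ W (j + 1), v ∈ (W j)ᗮ → ‖N v‖ ≤ a j * ‖v‖) {ψ : E}
    (hψ : ψ ∈ (W 0)ᗮ) (J : ℕ) : ‖N ((W J).starProjection ψ)‖ ≤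
      ∑ j ∈ Finset.range J, a j * ‖(W (j + 1)).starProjection ψ‖ := by
  induction J with
  | zero => rw [(Submodule.starProjection_apply_eq_zero_iff _).2 hψ]; simp
  | succ J ih =>
    rw [Finset.sum_range_succ]
    set p := (W (J + 1)).starProjection ψ with hp
    have e1 : (W J).starProjection p = (W J).starProjection ψ := by
      have := congrArg (fun T => T ψ) (Submodule.starProjection_comp_starProjection_of_le (hW J))
      simpa using this
    have h1 := h J (p - (W J).starProjection p)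
      ((W (J + 1)).sub_mem ((W (J + 1)).starProjection_apply_mem _)
        (hW J ((W J).starProjection_apply_mem _))) ((W J).sub_starProjection_mem_orthogonal p)
    have h4 : ‖p - (W J).starProjection p‖ ≤ ‖p‖ := by
      rw [← (W J).starProjection_orthogonal_val]; exact (W J)ᗮ.norm_starProjection_apply_le p
    have h5 : N p = N ((W J).starProjection ψ) + N (p - (W J).starProjection p) := by
      rw [← map_add, e1]; simp
    rw [h5]
    refine (norm_add_le _ _).trans (add_le_add ih (h1.trans ?_))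
    exact mul_le_mul_of_nonneg_left h4 (ha J)

end Vale.Agent.P162
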