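import Vale.Agent.P162.Defs
import Vale.Agent.P162.Fourier

/-! Convolution algebra. -/

namespace Vale.Agent.P162

open Module
open scoped InnerProductSpace

variable {G : Type} [Group G] [Fintype G]

lemma sum_conv (μ ν Φ : G → ℝ) : ∑ g, conv μ ν g * Φ g = ∑ b, ν b * ∑ a, μ a * Φ (a * b) := by
  simp only [conv, Finset.sum_mul, Finset.mul_sum]
  rw [Finset.sum_comm, Finset.sum_comm (f := fun b a => ν b * (μ a * Φ (a * b)))]
  refine Finset.sum_congr rfl fun a _ => ?_
  rw [← Equiv.sum_comp (Equiv.mulLeft a)]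
  refine Finset.sum_congr rfl fun b _ => ?_
  simp; ring

lemma conv_assoc (μ ν f : G → ℝ) : conv (conv μ ν) f = conv μ (conv ν f) := by
  funext g
  change ∑ a, conv μ ν a * f (a⁻¹ * g) = _
  rw [sum_conv]
  simp only [conv, Finset.mul_sum]
  rw [Finset.sum_comm]
  refine Finset.sum_congr rfl fun a _ => Finset.sum_congr rfl fun b _ => ?_
  rw [mul_inv_rev, mul_assoc b⁻¹]; ring

lemma l1_conv (μ f : G → ℝ) : ∑ g, |conv μ f g| ≤ (∑ g, |μ g|) * ∑ g, |f g| := by
  calc ∑ g, |conv μ f g| ≤ ∑ g, conv (fun a => |μ a|) (fun a => |f a|) g * 1 := by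
        refine Finset.sum_le_sum fun g _ => ?_
        rw [mul_one]
        refine (Finset.abs_sum_le_sum_abs _ _).trans (le_of_eq ?_)
        simp only [conv, abs_mul]
    _ = _ := by rw [sum_conv]; simp only [mul_one]; rw [← Finset.sum_mul, mul_comm]

lemma l1_iter {μ : G → ℝ} (h0 : ∀ g, 0 ≤ μ g) (h1 : ∑ g, μ g ≤ 1) (f : G → ℝ) (k : ℕ) :
    ∑ g, |(conv μ)^[k] f g| ≤ ∑ g, |f g| := by
  induction k with
  | zero => exact le_rfl
  | succ k ih =>
    rw [Function.iterate_succ_apply']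
    refine (l1_conv _ _).trans (le_trans ?_ ih)
    refine mul_le_of_le_one_left (Finset.sum_nonneg fun g _ => abs_nonneg _) ?_
    simpa only [abs_of_nonneg (h0 _)] using h1

lemma l1_iter_sub {μ μ' : G → ℝ} (h0 : ∀ g, 0 ≤ μ' g) (hle : ∀ g, μ' g ≤ μ g) (h1 : ∑ g, μ g ≤ 1)
    {η : ℝ} (hη : ∑ g, (μ g - μ' g) ≤ η) (f : G → ℝ) (k : ℕ) :
    ∑ g, |(conv μ)^[k] f g - (conv μ')^[k] f g| ≤ k * η * ∑ g, |f g| := by
  induction k with
  | zero => simp
  | succ k ih =>
    rw [Function.iterate_succ_apply', Function.iterate_succ_apply']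
    have e : ∀ g, conv μ ((conv μ)^[k] f) g - conv μ' ((conv μ')^[k] f) g =
        conv μ (fun a => (conv μ)^[k] f a - (conv μ')^[k] f a) g +
        conv (fun a => μ a - μ' a) ((conv μ')^[k] f) g := by
      intro g
      simp only [conv, ← Finset.sum_add_distrib, ← Finset.sum_sub_distrib]
      exact Finset.sum_congr rfl fun a _ => by ring
    have a1 := l1_conv μ fun a => (conv μ)^[k] f a - (conv μ')^[k] f a
    have a2 := l1_conv (fun a => μ a - μ' a) ((conv μ')^[k] f)
    have a3 := l1_iter h0 ((Finset.sum_le_sum fun g _ => hle g).trans h1) f k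
    simp only [abs_of_nonneg ((h0 _).trans (hle _))] at a1
    simp only [abs_of_nonneg (sub_nonneg.2 (hle _))] at a2
    have b1 : 0 ≤ ∑ g, |(conv μ)^[k] f g - (conv μ')^[k] f g| :=
      Finset.sum_nonneg fun g _ => abs_nonneg _
    have b2 : 0 ≤ ∑ g, |(conv μ')^[k] f g| := Finset.sum_nonneg fun g _ => abs_nonneg _
    have b3 : 0 ≤ η := (Finset.sum_nonneg fun g _ => sub_nonneg.2 (hle g)).trans hη
    have a4 := mul_le_mul hη a3 b2 b3
    have a5 := mul_le_of_le_one_left b1 h1
    simp only [e]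
    refine (Finset.sum_le_sum fun g _ => abs_add_le _ _).trans ?_
    rw [Finset.sum_add_distrib]
    push_cast
    linarith

variable [DecidableEq G]

lemma cpow_add (μ : G → ℝ) (s t : ℕ) : conv (cpow μ s) (cpow μ t) = cpow μ (s + t) := by
  induction s with
  | zero => funext g; simp [conv, cpow]
  | succ s ih => rw [cpow, conv_assoc, ih, Nat.succ_add, cpow]

lemma cpow_one (μ : G → ℝ) : cpow μ 1 = μ := by
  funext g
  simp [cpow, conv, inv_mul_eq_one]

lemma cpow_nonneg {μ : G → ℝ} (h : ∀ g, 0 ≤ μ g) (t : ℕ) : ∀ g, 0 ≤ cpow μ t g := by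
  induction t with
  | zero => intro g; simp only [cpow]; split_ifs <;> simp
  | succ t ih => exact fun g => Finset.sum_nonneg fun a _ => mul_nonneg (h a) (ih _)

lemma cpow_sum {μ : G → ℝ} (h : ∑ g, μ g = 1) (t : ℕ) : ∑ g, cpow μ t g = 1 := by
  induction t with
  | zero => simp [cpow]
  | succ t ih =>
    have := sum_conv μ (cpow μ t) fun _ => 1
    simp only [mul_one, h, ih] at this
    exact this

lemma iter_cpow {μ : G → ℝ} (h : ∑ g, μ g = 1) (T k : ℕ) (u : ℝ) :
    (conv (cpow μ T))^[k] (fun g => μ g - u) = fun g => cpow μ (k * T + 1) g - u := by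
  induction k with
  | zero => simp [cpow_one]
  | succ k ih =>
    rw [Function.iterate_succ_apply', ih, show (k + 1) * T + 1 = T + (k * T + 1) by ring,
      ← cpow_add μ T]
    funext g
    simp only [conv, mul_sub, Finset.sum_sub_distrib, ← Finset.sum_mul, cpow_sum h, one_mul]

/-- a real function as a vector -/
def toV (f : G → ℝ) : EuclideanSpace ℂ G := WithLp.toLp 2 fun g => (f g : ℂ)

omit [DecidableEq G] in
lemma op_toV (μ f : G → ℝ) : op (reg G) μ (toV f) = toV (conv μ f) := by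
  ext g
  simp [op_apply, toV, conv]

omit [DecidableEq G] in
lemma op_pow_toV (μ f : G → ℝ) (k : ℕ) : (op (reg G) μ ^ k) (toV f) = toV ((conv μ)^[k] f) := by
  induction k with
  | zero => rfl
  | succ k ih => rw [pow_succ', End.mul_apply, ih, op_toV, Function.iterate_succ_apply']

omit [DecidableEq G] [Group G] in
lemma l1_le_l2 (f : G → ℝ) : ∑ g, |f g| ≤ √(Fintype.card G) * ‖toV f‖ := by
  rw [EuclideanSpace.norm_eq, ← Real.sqrt_mul (Nat.cast_nonneg _)]
  refine Real.le_sqrt_of_sq_le ?_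
  have := sq_sum_le_card_mul_sum_sq (s := Finset.univ) (f := fun g => |f g|)
  simpa [toV] using this

lemma proj_toV_le {U : Submodule ℂ (EuclideanSpace ℂ G)} (hU : Inv (reg G) U) {B : ℝ} (hB : 0 ≤ B)
    (h : (finrank ℂ U : ℝ) ≤ B ^ 2) (f : G → ℝ) :
    √(Fintype.card G) * ‖U.starProjection (toV f)‖ ≤ B * ∑ g, |f g| := by
  have e : toV f = ∑ g, (f g : ℂ) • dl g := by
    ext x; simp [toV, dl, Pi.single_apply]
  rw [e, map_sum]
  refine (mul_le_mul_of_nonneg_left (norm_sum_le _ _) (Real.sqrt_nonneg _)).trans ?_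
  rw [Finset.mul_sum, Finset.mul_sum]
  refine Finset.sum_le_sum fun g _ => ?_
  rw [map_smul, norm_smul, Complex.norm_real, Real.norm_eq_abs, mul_left_comm, mul_comm B]
  refine mul_le_mul_of_nonneg_left ?_ (abs_nonneg _)
  refine le_of_sq_le_sq ?_ hB
  rw [mul_pow, Real.sq_sqrt (Nat.cast_nonneg _), norm_proj_dl hU]; exact h

end Vale.Agent.P162
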