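import Vale.Agent.P162.Frames

/-! Mixing of the positions of a long list of cards. -/

namespace Vale.Agent.P162

open Equiv

variable {d : ℕ}

lemma TH_const (T : ℕ) (a : ℝ) : TH d T (fun _ => a) = a := by
  induction T with
  | zero => rfl
  | succ T ih => simp only [TH, av_const, ih]

lemma one_more {S : Finset (Cb d)} {x : Cb d} (hx : x ∉ S) {c : ℝ} (hc : 0 ≤ c) (hc1 : c ≤ 1)
    (hS : 4 * c * Fintype.card (Cb d) ≤ Fintype.card (Cb d) - S.card) (t : ℕ) {η : ℝ} (hη : 0 < η)
    (hη' : Fintype.card (Cb d) * ((1 - c) ^ t +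
      2 * Real.exp (-(2 * c ^ 2 * Fintype.card (Cb d)))) ≤ η ^ 2)
    (Φ : Perm (Cb d) → ℝ) (hΦ1 : ∀ g, |Φ g| ≤ 1)
    (hΦ : ∀ g g' : Perm (Cb d), (∀ s ∈ insert x S, g s = g' s) → Φ g = Φ g') :
    TH d (t + (d + 1)) Φ ≤
      TH d (t + (d + 1)) (fun g => (∑ y ∈ Sᶜ, Φ (g * swap x y)) / (Sᶜ).card) + η := by
  have hm : (0 : ℝ) < (Sᶜ).card := by
    exact_mod_cast Finset.card_pos.2 ⟨x, Finset.mem_compl.2 hx⟩
  have hm1 : (1 : ℝ) ≤ (Sᶜ).card := by
    exact_mod_cast Finset.card_pos.2 ⟨x, Finset.mem_compl.2 hx⟩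
  have hn : (0 : ℝ) < Fintype.card (Cb d) := by exact_mod_cast Fintype.card_pos
  set m : ℝ := ((Sᶜ).card : ℝ) with hmdef
  let p : Cb d → ℝ := fun y => (if y = x then 1 else 0) - (if y ∈ Sᶜ then 1 else 0) / m
  have hps : ∀ f : Cb d → ℝ, ∑ y, p y * f y = f x - (∑ y ∈ Sᶜ, f y) / m := by
    intro f
    simp only [p, sub_mul, Finset.sum_sub_distrib, div_mul_eq_mul_div, ← Finset.sum_div, ite_mul,
      one_mul, zero_mul, Finset.sum_ite_eq', Finset.mem_univ, if_true, Finset.sum_ite_mem,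
      Finset.univ_inter]
  have hp0 : ∑ y, p y = 0 := by
    have := hps fun _ => 1
    simp only [mul_one, Finset.sum_const, nsmul_eq_mul] at this
    rw [this, ← hmdef, div_self hm.ne', sub_self]
  have hpS : ∀ y ∈ S, p y = 0 := by
    intro y hy
    have : y ≠ x := fun h => hx (h ▸ hy)
    simp [p, this, hy]
  have hp : Good S (1, p) := by
    refine ⟨hpS, hp0, ?_⟩
    have h1 := hps p
    have h2 : ∑ y ∈ Sᶜ, p y = 0 := by
      rw [← hp0, ← Finset.sum_compl_add_sum S, Finset.sum_eq_zero hpS, add_zero]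
    simp only [sq]
    rw [h1, h2]
    have : 0 ≤ 1 / m := by positivity
    simp only [p, if_true, Finset.mem_compl.2 hx, zero_div]
    linarith
  obtain ⟨K, φ, hA, hb⟩ := greedy hp hc hc1 hS (t + (d + 1))
  obtain ⟨A, -, hAΦ⟩ := compat hA (t + (d + 1)) le_rfl
  set T := t + (d + 1) with hT
  have hK : ∀ s < T, K s ≠ 0 := by
    intro s hs h0
    have := hA.one s (by omega)
    rw [h0, map_zero] at this
    exact zero_ne_one this
  let Ψ : Perm (Cb d) → Cb d → ℝ := fun g z => if g⁻¹ z ∈ S then 0 else Φ (A * (swap (g x) z * g))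
  have hcl := cond_law (p := p) T hK Ψ (by
    intro g g' h
    funext z
    have h1 : g⁻¹ z ∈ S ↔ g'⁻¹ z ∈ S := by
      constructor
      · intro hz
        have := h _ hz
        rw [show g'⁻¹ z = g⁻¹ z from Perm.inv_eq_iff_eq.2 (by rw [← this]; simp)]; exact hz
      · intro hz
        have := h _ hz
        rw [show g⁻¹ z = g'⁻¹ z from Perm.inv_eq_iff_eq.2 (by rw [this]; simp)]; exact hz
    by_cases hz : g⁻¹ z ∈ S
    · simp only [Ψ, hz, h1.1 hz, if_true]
    · have hz' : g'⁻¹ z ∉ S := fun h => hz (h1.2 h)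
      simp only [Ψ, hz, hz', if_false]
      refine hΦ _ _ fun s hs => ?_
      simp only [Perm.mul_apply]
      rcases Finset.mem_insert.1 hs with rfl | hs
      · simp
      · have hsx : s ≠ x := fun e => hx (e ▸ hs)
        rw [swap_apply_of_ne_of_ne (g.injective.ne hsx) (by rintro rfl; exact hz (by simpa using hs)),
          swap_apply_of_ne_of_ne (g'.injective.ne hsx) (by rintro rfl; exact hz' (by simpa using hs)),
          h s hs])
  have e1 : ∀ h : Perm (Cb d), ∑ y, p y * Ψ h (h y) =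
      Φ (A * h) + (-1) * ((∑ y ∈ Sᶜ, Φ (A * h * swap x y)) / m) := by
    intro h
    rw [hps]
    have : ∀ y ∈ Sᶜ, Ψ h (h y) = Φ (A * h * swap x y) := by
      intro y hy
      have hy' : h⁻¹ (h y) ∉ S := by simpa using hy
      simp only [Ψ, hy', if_false]
      rw [mul_assoc, Equiv.mul_swap_eq_swap_mul]
    rw [Finset.sum_congr rfl this, this x (Finset.mem_compl.2 hx)]
    simp [sub_eq_add_neg, Perm.one_def.symm]
  simp only [e1] at hcl
  rw [← ES_fst (S := S) (p := p), ES_add, ES_mul, ES_fst T fun h => Φ (A * h),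
    ES_fst T fun h => (∑ y ∈ Sᶜ, Φ (A * h * swap x y)) / m] at hcl
  rw [hAΦ, hAΦ]
  have e2 : ES S K p T (fun s => ∑ y, s.2 y * Ψ s.1 y) ≤ ES S K p T
      fun s => η / 2 + Fintype.card (Cb d) / (2 * η) * ∑ y, s.2 y ^ 2 := by
    refine ES_mono hp T fun s _ => ?_
    have : η / 2 = ∑ _y : Cb d, η / (2 * Fintype.card (Cb d)) := by
      rw [Finset.sum_const, Finset.card_univ, nsmul_eq_mul]; field_simp
    rw [this, Finset.mul_sum, ← Finset.sum_add_distrib]
    refine Finset.sum_le_sum fun y _ => ?_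
    have h1 : |Ψ s.1 y| ≤ 1 := by
      simp only [Ψ]; split_ifs
      · simp
      · exact hΦ1 _
    have h2 : s.2 y * Ψ s.1 y ≤ |s.2 y| := by
      refine (le_abs_self _).trans ?_
      rw [abs_mul]; exact mul_le_of_le_one_right (abs_nonneg _) h1
    refine h2.trans ?_
    rw [← sq_abs]
    generalize |s.2 y| = a
    generalize (Fintype.card (Cb d) : ℝ) = n at hn
    have : η / (2 * n) + n / (2 * η) * a ^ 2 - a = (η - n * a) ^ 2 / (2 * n * η) := by
      field_simp; ring
    have h3 : 0 ≤ (η - n * a) ^ 2 / (2 * n * η) := by positivity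
    linarith
  rw [ES_add, ES_const, ES_mul] at e2
  have e3 := mul_le_mul_of_nonneg_left (hb t (by omega))
    (by positivity : 0 ≤ Fintype.card (Cb d) / (2 * η))
  have e4 : Fintype.card (Cb d) / (2 * η) * ((1 - c) ^ t +
      2 * Real.exp (-(2 * c ^ 2 * Fintype.card (Cb d)))) ≤ η / 2 := by
    rw [div_mul_eq_mul_div, div_le_iff₀ (by positivity)]
    nlinarith
  linarith

theorem list_mix {c : ℝ} (hc : 0 ≤ c) (hc1 : c ≤ 1) (t : ℕ) {η : ℝ} (hη : 0 < η)
    (hη' : Fintype.card (Cb d) * ((1 - c) ^ t +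
      2 * Real.exp (-(2 * c ^ 2 * Fintype.card (Cb d)))) ≤ η ^ 2) (S : Finset (Cb d)) :
    4 * c * Fintype.card (Cb d) ≤ Fintype.card (Cb d) - S.card →
    ∀ (Φ : Perm (Cb d) → ℝ), (∀ g, |Φ g| ≤ 1) →
      (∀ g g' : Perm (Cb d), (∀ s ∈ S, g s = g' s) → Φ g = Φ g') →
      TH d (t + (d + 1)) Φ ≤ av Φ + S.card * η := by
  induction S using Finset.induction_on with
  | empty =>
    intro _ Φ _ hΦ
    have : Φ = fun _ => Φ 1 := funext fun g => hΦ _ _ (by simp)
    rw [this, TH_const, av_const]; simp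
  | insert x S hx ih =>
    intro hS Φ hΦ1 hΦ
    rw [Finset.card_insert_of_notMem hx] at hS ⊢
    push_cast at hS ⊢
    have hm : (0 : ℝ) < (Sᶜ).card := by
      exact_mod_cast Finset.card_pos.2 ⟨x, Finset.mem_compl.2 hx⟩
    have h1 := one_more hx hc hc1 (by linarith) t hη hη' Φ hΦ1 hΦ
    have h2 := ih (by linarith) (fun g => (∑ y ∈ Sᶜ, Φ (g * swap x y)) / (Sᶜ).card) (by
      intro g
      rw [abs_div, abs_of_pos hm, div_le_one hm]
      refine (Finset.abs_sum_le_sum_abs _ _).trans ?_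
      refine (Finset.sum_le_sum fun y _ => hΦ1 _).trans (by simp)) (by
      intro g g' h
      congr 1
      have hmem : ∀ y, y ∈ Sᶜ ↔ (g'⁻¹ * g) y ∈ Sᶜ := by
        intro y
        simp only [Finset.mem_compl, not_iff_not, Perm.mul_apply]
        constructor
        · intro hy; rw [h y hy]; simpa using hy
        · intro hy
          have := h _ hy
          simp only [Perm.coe_inv, Equiv.apply_symm_apply] at this
          rw [← g.injective this]; exact hy
      refine Finset.sum_equiv (g'⁻¹ * g) hmem fun y hy => hΦ _ _ fun s hs => ?_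
      rcases Finset.mem_insert.1 hs with rfl | hs
      · simp
      · have hsx : s ≠ x := fun e => hx (e ▸ hs)
        have a1 : s ≠ y := fun e => Finset.mem_compl.1 hy (e ▸ hs)
        have a2 : s ≠ (g'⁻¹ * g) y := fun e => Finset.mem_compl.1 ((hmem y).1 hy) (e ▸ hs)
        rw [Perm.mul_apply, Perm.mul_apply, swap_apply_of_ne_of_ne hsx a1,
          swap_apply_of_ne_of_ne hsx a2, h s hs])
    have h3 : av (fun g : Perm (Cb d) => (∑ y ∈ Sᶜ, Φ (g * swap x y)) / (Sᶜ).card) = av Φ := by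
      simp only [div_eq_inv_mul, av_mul, av_sum]
      have : ∀ y, av (fun g : Perm (Cb d) => Φ (g * swap x y)) = av Φ := fun y =>
        av_equiv (Equiv.mulRight (swap x y)) Φ
      simp only [this, Finset.sum_const, nsmul_eq_mul]
      field_simp
    linarith

end Vale.Agent.P162
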