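import Vale.Agent.P162.Mix
import Vale.Agent.P162.Lists

/-! The upper bound in binary coordinates. -/

namespace Vale.Agent.P162

open Equiv Equiv.Perm

variable {d : ℕ}

/-- law of one shuffle in binary coordinates -/
noncomputable def qV (d : ℕ) (g : Perm (Cb d)) : ℝ := av fun c => if th c = g then 1 else 0

lemma sum_qV (Φ : Perm (Cb d) → ℝ) : ∑ g, qV d g * Φ g = av fun c => Φ (th c) := by
  simp only [qV, mul_comm _ (Φ _), ← av_mul, ← av_sum]
  simp

lemma qV_nonneg (g : Perm (Cb d)) : 0 ≤ qV d g :=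
  (av_const (C := Cb d → ZMod 2) 0).ge.trans (av_mono fun c => by split_ifs <;> simp)

lemma qV_sum : ∑ g, qV d g = 1 := by
  have := sum_qV (d := d) fun _ => 1
  simpa [av_const] using this

lemma TH_eq (T : ℕ) (Φ : Perm (Cb d) → ℝ) : ∑ g, cpow (qV d) T g * Φ g = TH d T Φ := by
  induction T generalizing Φ with
  | zero => simp [cpow, TH]
  | succ T ih =>
    rw [cpow, sum_conv, TH, ← ih]
    refine Finset.sum_congr rfl fun b _ => ?_
    rw [sum_qV fun a => Φ (a * b)]

lemma sw_flip {V : Type} [AddCommGroup V] [Module (ZMod 2) V] [DecidableEq V] {K : V} (hK : K ≠ 0)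
    (c : V → ZMod 2) : sw K (c + Pi.single 0 1) = sw K c * swap 0 K := by
  ext x
  rw [Perm.mul_apply]
  by_cases h0 : x = 0
  · subst h0
    simp only [swap_apply_left, sw_apply, Pi.add_apply, zero_add, Pi.single_eq_same,
      Pi.single_eq_of_ne hK, add_zero, vv]
    rw [add_right_comm, add_smul, one_smul, add_comm, add_comm (c 0)]
  · by_cases h1 : x = K
    · subst h1
      simp only [swap_apply_right, sw_apply, Pi.add_apply, zero_add, Pi.single_eq_same,
        Pi.single_eq_of_ne hK, add_zero, vv]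
      rw [← add_assoc, add_smul, one_smul, add_comm _ x, ← add_assoc, vv, zero_add, add_comm]
    · have h2 : x + K ≠ 0 := by
        intro h; apply h1; rw [← vKK x K, h, zero_add]
      simp [swap_apply_of_ne_of_ne h0 h1, sw_apply, h0, h2]

lemma qV_sign : ∑ g, qV d g * ((sign g : ℤ) : ℝ) = 0 := by
  rw [sum_qV]
  have hK : (Pi.single 0 1 : Cb d) ≠ 0 := by simp
  have h1 := av_equiv (Equiv.addRight (Pi.single 0 1 : Cb d → ZMod 2))
    fun c => ((sign (th c) : ℤ) : ℝ)
  have h2 : ∀ c : Cb d → ZMod 2, ((sign (th (c + Pi.single 0 1)) : ℤ) : ℝ) =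
      (-1) * ((sign (th c) : ℤ) : ℝ) := by
    intro c
    rw [th, sw_flip hK, ← mul_assoc, map_mul, sign_swap hK.symm]
    simp [th]
  simp only [Equiv.coe_addRight, h2, av_mul] at h1
  linarith

lemma card_Cb : Fintype.card (Cb d) = 2 ^ (d + 1) := by simp

lemma num_bound {n : ℝ} {t : ℕ} (hn : 10 ^ 16 * (1 + 48 / (2 * (1 / 16064) ^ 2) ^ 4) ≤ n)
    (ht : (1 / 2 : ℝ) ^ t = 1 / n) : n * ((1 - 1 / 16064) ^ (16064 * (4 * t)) +
      2 * Real.exp (-(2 * (1 / 16064) ^ 2 * n))) ≤ (1 / 10 ^ 8 / n) ^ 2 := by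
  set a : ℝ := 2 * (1 / 16064) ^ 2 with ha
  have ha0 : 0 < a := by positivity
  clear_value a
  have hn0 : 0 < n := lt_of_lt_of_le (by positivity) hn
  have h1 : (1 - 1 / 16064 : ℝ) ^ (16064 * (4 * t)) ≤ (1 / n) ^ 4 := by
    rw [← ht, ← pow_mul, pow_mul, mul_comm t]
    refine pow_le_pow_left₀ (pow_nonneg (by norm_num) _) ?_ _
    have h2 : (1 - 1 / 16064 : ℝ) ≤ Real.exp (-(1 / 16064)) := by
      have := Real.add_one_le_exp (-(1 / 16064 : ℝ)); linarith
    refine (pow_le_pow_left₀ (by norm_num) h2 _).trans ?_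
    rw [← Real.exp_nat_mul, show ((16064 : ℕ) : ℝ) * -(1 / 16064) = -1 by norm_num, Real.exp_neg,
      one_div]
    refine inv_anti₀ (by norm_num) ?_
    have := Real.add_one_le_exp (1 : ℝ); linarith
  have h3 : Real.exp (-(a * n)) ≤ 24 / a ^ 4 * (1 / n) ^ 4 := by
    have := Real.pow_div_factorial_le_exp (a * n) (by positivity) 4
    rw [Real.exp_neg]
    refine (inv_anti₀ (by positivity) this).trans (le_of_eq ?_)
    norm_num [Nat.factorial]; field_simp
  calc _ ≤ n * ((1 / n) ^ 4 + 2 * (24 / a ^ 4 * (1 / n) ^ 4)) := by gcongr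
    _ = (1 + 48 / a ^ 4) / n * (1 / n) ^ 2 := by field_simp; ring
    _ ≤ 1 / 10 ^ 16 * (1 / n) ^ 2 := by
        refine mul_le_mul_of_nonneg_right ?_ (by positivity)
        rw [div_le_div_iff₀ hn0 (by positivity)]
        linarith
    _ = _ := by field_simp

theorem cube_mix {w k : ℕ} (hw : w = 2) (hk : k = 1507)
    (h1 : 6 * 2 ^ (2008 * (0 + w)) ≤ 2 ^ (d + 1))
    (h2 : 10 ^ 16 * (1 + 48 / (2 * (1 / 16064 : ℝ) ^ 2) ^ 4) ≤ 2 ^ (d + 1)) (h3 : 2008 ≤ 2 ^ (d + 1)) :
    tvUnif (cpow (qV d) (k * (16064 * (4 * (d + 1)) + (d + 1)) + 1)) ≤ 1 / 4 := by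
  set n := Fintype.card (Cb d) with hn
  have hn' : n = 2 ^ (d + 1) := card_Cb
  have hnR : (n : ℝ) = 2 ^ (d + 1) := by rw [hn']; push_cast; rfl
  have hn0 : (0 : ℝ) < n := by rw [hnR]; positivity
  obtain ⟨j⟩ := exists_grid (Cb d) 2008 (n / 2008) (Nat.mul_div_le n 2008)
  refine mix_of_lists j hw (by rw [card_Cb]; exact h1) qV_nonneg qV_sum qV_sign _ le_rfl ?_ hk
  intro i Φ hΦ1 hΦ
  rw [TH_eq]
  have hcard : ((Finset.univ.map (blk j i))ᶜ).card = n - n / 2008 := by
    rw [Finset.card_compl]; simp [hn]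
  have := list_mix (d := d) (c := 1 / 16064) (by norm_num) (by norm_num) (16064 * (4 * (d + 1)))
    (η := 1 / 10 ^ 8 / n) (by positivity)
    (num_bound (by rw [← hn, hnR]; exact h2) (by rw [← hn, hnR]; simp))
    (Finset.univ.map (blk j i))ᶜ (by
      rw [hcard, ← hn, Nat.cast_sub (Nat.div_le_self _ _)]
      have : n ≤ 4016 * (n / 2008) := by omega
      have : (n : ℝ) ≤ 4016 * ((n / 2008 : ℕ) : ℝ) := by exact_mod_cast this
      linarith) Φ hΦ1 (fun g g' h => hΦ g g' fun s hs => h s (by simpa using hs))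
  refine this.trans (add_le_add_right ?_ _)
  have h4 : (((Finset.univ.map (blk j i))ᶜ).card : ℝ) ≤ n := by
    rw [hcard]; exact_mod_cast Nat.sub_le _ _
  refine (mul_le_mul_of_nonneg_right h4 (by positivity)).trans (le_of_eq ?_)
  field_simp

end Vale.Agent.P162
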