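import Mathlib

/-! Definitions: the Thorp shuffle, convolution powers, total variation, mixing time. -/

namespace Vale.Agent.P162

/-- `g` (old position ↦ new position, positions numbered from `0`) is the Thorp shuffle with
coins `ε`: the cards in positions `i` and `n/2 + i` go to positions `2i` and `2i+1`,
in the order decided by `ε i`. -/
def IsThorp (n : ℕ) (ε : Fin (n / 2) → Bool) (g : Equiv.Perm (Fin n)) : Prop :=
  ∀ (i : Fin (n / 2)) (x : Fin n),
    ((x : ℕ) = i → (g x : ℕ) = 2 * i + (if ε i then 1 else 0)) ∧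
    ((x : ℕ) = n / 2 + i → (g x : ℕ) = 2 * i + (if ε i then 0 else 1))

/-- the law of one Thorp shuffle: `n/2` independent fair coins -/
noncomputable def thorpLaw (n : ℕ) (g : Equiv.Perm (Fin n)) : ℝ :=
  (Nat.card {ε : Fin (n / 2) → Bool // IsThorp n ε g} : ℝ) / 2 ^ (n / 2)

/-- convolution on a finite group: the law of `a * b` for independent `a ∼ μ`, `b ∼ ν` -/
noncomputable def conv {G : Type} [Group G] [Fintype G] (μ ν : G → ℝ) (g : G) : ℝ :=
  ∑ a, μ a * ν (a⁻¹ * g)

/-- convolution powers -/
noncomputable def cpow {G : Type} [Group G] [Fintype G] [DecidableEq G] (μ : G → ℝ) :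
    ℕ → G → ℝ
  | 0 => fun g => if g = 1 then 1 else 0
  | t + 1 => conv μ (cpow μ t)

/-- total variation distance to the uniform law -/
noncomputable def tvUnif {G : Type} [Fintype G] (μ : G → ℝ) : ℝ :=
  1 / 2 * ∑ g, |μ g - 1 / (Fintype.card G : ℝ)|

/-- the mixing time of the Thorp shuffle -/
noncomputable def tmix (n : ℕ) : ℕ := sInf {t : ℕ | tvUnif (cpow (thorpLaw n) t) ≤ 1 / 4}

end Vale.Agent.P162
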