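import Vale.Agent.P162.Cube

/-! Transport to positions `0, …, 2^d - 1`, the lower bound, and the final statement. -/

namespace Vale.Agent.P162

open Equiv Equiv.Perm

variable {d : ℕ}

lemma av_comm {C D : Type*} [Fintype C] [Fintype D] (f : C → D → ℝ) :
    av (fun c => av fun e => f c e) = av fun e => av fun c => f c e := by
  simp only [av, ← Finset.sum_div]
  rw [Finset.sum_comm, div_right_comm]

lemma av_equiv' {C D : Type*} [Fintype C] [Fintype D] (e : C ≃ D) (f : D → ℝ) :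
    av (fun c => f (e c)) = av f := by
  simp [av, Equiv.sum_comp e f, Fintype.card_congr e]

lemma av_hom {C D : Type*} [Fintype C] [Fintype D] [AddGroup C] [AddGroup D] (π : C → D)
    (hπ : ∀ a b, π (a + b) = π a + π b) (hs : Function.Surjective π) (F : D → ℝ) :
    av (fun c => F (π c)) = av F := by
  have h1 : ∀ e, av (fun c => F (π c + e)) = av fun c => F (π c) := by
    intro e
    obtain ⟨s, rfl⟩ := hs e
    simpa [hπ] using av_equiv (Equiv.addRight s) fun c => F (π c)
  have h2 : ∀ c, av (fun e => F (π c + e)) = av F := fun c => av_equiv (Equiv.addLeft (π c)) F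
  have := av_comm fun c e => F (π c + e)
  simp only [h1, h2, av_const] at this
  exact this.symm

/-- binary expansion, most significant bit first -/
def bin (d : ℕ) : Cb d ≃ Fin (2 ^ (d + 1)) :=
  (Equiv.arrowCongr Fin.revPerm (Equiv.refl (Fin 2))).trans finFunctionFinEquiv

/-- the value of the lower bits -/
def lowv (x : Cb d) : ℕ := ∑ j : Fin d, (x (Fin.rev j).succ).val * 2 ^ (j : ℕ)

lemma bin_val (x : Cb d) : (bin d x : ℕ) = ∑ i : Fin (d + 1), (x (Fin.rev i)).val * 2 ^ (i : ℕ) :=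
  finFunctionFinEquiv_apply _

lemma lowv_lt (x : Cb d) : lowv x < 2 ^ d :=
  (finFunctionFinEquiv_apply (m := 2) fun j : Fin d => x (Fin.rev j).succ).symm.trans_lt
    (Fin.is_lt _)

lemma bin_top (x : Cb d) : (bin d x : ℕ) = lowv x + (x 0).val * 2 ^ d := by
  rw [bin_val, Fin.sum_univ_castSucc]
  simp [lowv, Fin.rev_castSucc]

lemma bin_th (c : Cb d → ZMod 2) (x : Cb d) :
    (bin d (th c x) : ℕ) = 2 * lowv x + (x 0 + (c x + c (x + Pi.single 0 1))).val := by
  rw [bin_val, Fin.sum_univ_succ, lowv, Finset.mul_sum, add_comm]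
  simp only [Fin.rev_zero, th_last, Fin.val_zero, pow_zero, mul_one, Fin.rev_succ, th_cast,
    Fin.val_succ, pow_succ]
  congr 1
  exact Finset.sum_congr rfl fun j _ => by ring

lemma lowv_flip (x : Cb d) : lowv (x + Pi.single 0 1) = lowv x := by simp [lowv]

lemma half_eq (d : ℕ) : 2 ^ (d + 1) / 2 = 2 ^ d := by rw [pow_succ]; simp

/-- the site of the `i`-th card of the top half -/
def site (i : Fin (2 ^ (d + 1) / 2)) : Cb d :=
  (bin d).symm ⟨i, lt_of_lt_of_le i.2 (Nat.div_le_self _ _)⟩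

lemma bin_site (i : Fin (2 ^ (d + 1) / 2)) : (bin d (site i) : ℕ) = i := by simp [site]

lemma val_cases (a : ZMod 2) : a = 0 ∧ a.val = 0 ∨ a = 1 ∧ a.val = 1 := by revert a; decide

lemma site_spec (i : Fin (2 ^ (d + 1) / 2)) : site i 0 = 0 ∧ lowv (site i) = i := by
  have h1 := bin_top (site i)
  have h2 := i.2.trans_eq (half_eq d)
  rw [bin_site] at h1
  rcases val_cases (site i 0) with h | h <;> rw [h.2] at h1
  · exact ⟨h.1, by omega⟩
  · omega

lemma bin_site_flip (i : Fin (2 ^ (d + 1) / 2)) :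
    (bin d (site i + Pi.single 0 1) : ℕ) = 2 ^ (d + 1) / 2 + i := by
  rw [bin_top, lowv_flip, (site_spec i).2, Pi.add_apply, (site_spec i).1]
  have : (0 + (Pi.single 0 1 : Cb d) 0).val = 1 := by simp; rfl
  rw [this]
  have := half_eq d
  omega

/-- the coins of the pairs -/
def coins (c : Cb d → ZMod 2) (i : Fin (2 ^ (d + 1) / 2)) : ZMod 2 :=
  c (site i) + c (site i + Pi.single 0 1)

/-- bits as booleans -/
def bb : ZMod 2 ≃ Bool := finTwoEquiv

lemma bb0 : ∀ u : ZMod 2, (0 + u).val = if bb u then 1 else 0 := by decide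

lemma bb1 : ∀ u : ZMod 2, (0 + 1 + u).val = if bb u then 0 else 1 := by decide

lemma isThorp_th (c : Cb d → ZMod 2) :
    IsThorp (2 ^ (d + 1)) (fun i => bb (coins c i)) ((bin d).permCongr (th c)) := by
  intro i x
  obtain ⟨x, rfl⟩ := (bin d).surjective x
  simp only [Equiv.permCongr_apply, Equiv.symm_apply_apply, bin_th]
  constructor
  · intro h
    obtain rfl : x = site i := (bin d).injective (Fin.ext (h.trans (bin_site i).symm))
    rw [(site_spec i).1, (site_spec i).2]
    exact congrArg _ (bb0 _)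
  · intro h
    obtain rfl : x = site i + Pi.single 0 1 :=
      (bin d).injective (Fin.ext (h.trans (bin_site_flip i).symm))
    rw [lowv_flip, (site_spec i).2, Pi.add_apply, (site_spec i).1, vKK, Pi.single_eq_same,
      add_comm (c (site i + Pi.single 0 1))]
    exact congrArg _ (bb1 _)

lemma isThorp_unique {ε : Fin (2 ^ (d + 1) / 2) → Bool} {g g' : Perm (Fin (2 ^ (d + 1)))}
    (h : IsThorp _ ε g) (h' : IsThorp _ ε g') : g = g' := by
  ext x
  have h1 := half_eq d
  have h2 : (x : ℕ) < 2 * 2 ^ d := x.2.trans_eq (by ring)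
  by_cases hx : (x : ℕ) < 2 ^ (d + 1) / 2
  · rw [(h ⟨x, hx⟩ x).1 rfl, (h' ⟨x, hx⟩ x).1 rfl]
  · have hx' : (x : ℕ) - 2 ^ (d + 1) / 2 < 2 ^ (d + 1) / 2 := by omega
    rw [(h ⟨_, hx'⟩ x).2 (by simp only; omega), (h' ⟨_, hx'⟩ x).2 (by simp only; omega)]

lemma coins_surj : Function.Surjective (coins (d := d)) := by
  intro e
  refine ⟨fun x => if h : (bin d x : ℕ) < 2 ^ (d + 1) / 2 then e ⟨_, h⟩ else 0, funext fun i => ?_⟩
  have h1 : (bin d (site i) : ℕ) < 2 ^ (d + 1) / 2 := by rw [bin_site]; exact i.2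
  have h2 : ¬ (bin d (site i + Pi.single 0 1) : ℕ) < 2 ^ (d + 1) / 2 := by
    rw [bin_site_flip]; omega
  simp only [coins, h1, h2, dif_pos, dif_neg, not_false_eq_true, add_zero]
  congr 1
  exact Fin.ext (bin_site i)

lemma law_eq (g : Perm (Cb d)) : thorpLaw (2 ^ (d + 1)) ((bin d).permCongr g) = qV d g := by
  classical
  let F : (Fin (2 ^ (d + 1) / 2) → Bool) → ℝ := fun ε =>
    if IsThorp _ ε ((bin d).permCongr g) then 1 else 0
  have h1 : thorpLaw (2 ^ (d + 1)) ((bin d).permCongr g) = av F := by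
    simp [thorpLaw, av, F, Fintype.card_subtype]
  have h2 := av_equiv' (Equiv.arrowCongr (Equiv.refl (Fin (2 ^ (d + 1) / 2))) bb) F
  have h3 := av_hom coins (fun a b => funext fun i => by simp only [coins, Pi.add_apply]; abel)
    (coins_surj (d := d)) fun e => F (Equiv.arrowCongr (Equiv.refl _) bb e)
  rw [h1, ← h2, ← h3, qV]
  congr 1; funext c
  have : IsThorp _ (Equiv.arrowCongr (Equiv.refl _) bb (coins c)) ((bin d).permCongr g) ↔
      th c = g := by
    constructor
    · intro h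
      exact (bin d).permCongr.injective (isThorp_unique (isThorp_th c) h)
    · rintro rfl; exact isThorp_th c
  simp only [F, this]

lemma cpow_transport {G G' : Type} [Group G] [Group G'] [Fintype G] [Fintype G'] [DecidableEq G]
    [DecidableEq G'] (e : G ≃* G') {μ : G → ℝ} {μ' : G' → ℝ} (h : ∀ g, μ' (e g) = μ g) (t : ℕ) :
    ∀ g, cpow μ' t (e g) = cpow μ t g := by
  induction t with
  | zero => intro g; simp [cpow]
  | succ t ih =>
    intro g
    simp only [cpow, conv]
    rw [← Equiv.sum_comp e.toEquiv]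
    refine Finset.sum_congr rfl fun a _ => ?_
    rw [← h, ← ih]; simp

lemma tv_eq (t : ℕ) : tvUnif (cpow (thorpLaw (2 ^ (d + 1))) t) = tvUnif (cpow (qV d) t) := by
  have := cpow_transport (bin d).permCongrHom (μ := qV d) (μ' := thorpLaw (2 ^ (d + 1))) law_eq t
  unfold tvUnif
  rw [← Equiv.sum_comp (bin d).permCongr, Fintype.card_congr (bin d).permCongr]
  congr 1
  exact Finset.sum_congr rfl fun g _ => by rw [← this]; rfl

lemma supp_cpow {G : Type} [Group G] [Fintype G] [DecidableEq G] {μ : G → ℝ} {s : Finset G}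
    (hs : ∀ g ∉ s, μ g = 0) (t : ℕ) :
    ∃ u : Finset G, u.card ≤ s.card ^ t ∧ ∀ g ∉ u, cpow μ t g = 0 := by
  induction t with
  | zero => exact ⟨{1}, by simp, fun g hg => if_neg (by simpa using hg)⟩
  | succ t ih =>
    obtain ⟨u, h1, h2⟩ := ih
    refine ⟨Finset.image₂ (· * ·) s u, ?_, fun g hg => Finset.sum_eq_zero fun a _ => ?_⟩
    · rw [pow_succ']; exact (Finset.card_image₂_le _ _ _).trans (Nat.mul_le_mul_left _ h1)
    · by_cases ha : a ∈ s
      · rw [h2 _ fun h => hg ?_, mul_zero]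
        exact Finset.mem_image₂.2 ⟨a, ha, _, h, by simp⟩
      · rw [hs a ha, zero_mul]

lemma tv_lower {G : Type} [Fintype G] [DecidableEq G] [Nonempty G] {μ : G → ℝ} (h1 : ∑ g, μ g = 1)
    {u : Finset G} (hu : ∀ g ∉ u, μ g = 0) : 1 - (u.card : ℝ) / Fintype.card G ≤ tvUnif μ := by
  have hN : (0 : ℝ) < Fintype.card G := by exact_mod_cast Fintype.card_pos
  unfold tvUnif
  rw [← Finset.sum_add_sum_compl u] at h1 ⊢
  rw [Finset.sum_eq_zero fun g hg => hu g (Finset.mem_compl.1 hg), add_zero] at h1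
  have a1 : 1 - (u.card : ℝ) / Fintype.card G ≤ ∑ g ∈ u, |μ g - 1 / Fintype.card G| := by
    refine le_trans (le_of_eq ?_) (Finset.sum_le_sum fun g _ => le_abs_self _)
    rw [Finset.sum_sub_distrib, h1, Finset.sum_const, nsmul_eq_mul, mul_one_div]
  have a2 : 1 - (u.card : ℝ) / Fintype.card G = ∑ g ∈ uᶜ, |μ g - 1 / Fintype.card G| := by
    rw [Finset.sum_congr rfl fun g hg => by
      rw [hu g (Finset.mem_compl.1 hg), zero_sub, abs_neg, abs_of_pos (one_div_pos.2 hN)],
      Finset.sum_const, nsmul_eq_mul, Finset.card_compl, Nat.cast_sub (Finset.card_le_univ u)]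
    field_simp
  linarith

lemma lower {t : ℕ} (h : tvUnif (cpow (thorpLaw (2 ^ (d + 1))) t) ≤ 1 / 4) : d ≤ t := by
  classical
  set n := 2 ^ (d + 1) with hn
  let s : Finset (Perm (Fin n)) := Finset.univ.filter fun g => ∃ ε, IsThorp n ε g
  have hs : ∀ g ∉ s, thorpLaw n g = 0 := by
    intro g hg
    have : IsEmpty {ε : Fin (n / 2) → Bool // IsThorp n ε g} :=
      ⟨fun ε => hg (Finset.mem_filter.2 ⟨Finset.mem_univ _, ε.1, ε.2⟩)⟩
    simp [thorpLaw]
  have hcard : s.card ≤ 2 ^ 2 ^ d := by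
    have := Finset.card_le_card_of_injOn (s := s) (t := Finset.univ)
      (fun g => if h : ∃ ε, IsThorp n ε g then h.choose else fun _ => true) (by simp) (by
        intro g hg g' hg' e
        have a1 := (Finset.mem_filter.1 hg).2
        have a2 := (Finset.mem_filter.1 hg').2
        simp only [a1, a2, dif_pos] at e
        exact isThorp_unique a1.choose_spec (e ▸ a2.choose_spec))
    simpa [hn, half_eq] using this
  obtain ⟨u, hu1, hu2⟩ := supp_cpow hs t
  have hsum : ∑ g, thorpLaw n g = 1 := by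
    rw [← Equiv.sum_comp (bin d).permCongr]
    exact (Finset.sum_congr rfl fun g _ => law_eq g).trans qV_sum
  have h1 := (tv_lower (cpow_sum hsum t) hu2).trans h
  have hN : (0 : ℝ) < Fintype.card (Perm (Fin n)) := by exact_mod_cast Fintype.card_pos
  have h2 : 3 * (Fintype.card (Perm (Fin n)) : ℝ) ≤ 4 * u.card := by
    have : 3 / 4 ≤ (u.card : ℝ) / Fintype.card (Perm (Fin n)) := by linarith
    rw [le_div_iff₀ hN] at this
    linarith
  have h3 : 3 * Fintype.card (Perm (Fin n)) ≤ 4 * u.card := by exact_mod_cast h2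
  rw [Fintype.card_perm, Fintype.card_fin] at h3
  have h4 : (2 ^ d) ^ 2 ^ d ≤ n.factorial := by
    have := Nat.factorial_mul_pow_le_factorial (m := 2 ^ d) (n := 2 ^ d)
    rw [← two_mul, ← pow_succ'] at this
    exact ((Nat.pow_le_pow_left (Nat.le_succ _) _).trans
      (Nat.le_mul_of_pos_left _ (Nat.factorial_pos _))).trans this
  by_contra hlt
  have h5 : u.card * 2 ≤ (2 ^ d) ^ 2 ^ d := by
    calc u.card * 2 ≤ (2 ^ 2 ^ d) ^ t * 2 ^ 2 ^ d :=
          Nat.mul_le_mul (hu1.trans (Nat.pow_le_pow_left hcard t))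
            (Nat.le_self_pow (by positivity) 2)
      _ = (2 ^ (t + 1)) ^ 2 ^ d := by rw [← pow_succ, ← pow_mul, ← pow_mul, mul_comm]
      _ ≤ _ := Nat.pow_le_pow_left (Nat.pow_le_pow_right (by norm_num) (by omega)) _
  have := Nat.factorial_pos n
  omega

theorem upper : ∃ d0 : ℕ, ∀ d ≥ d0,
    tvUnif (cpow (thorpLaw (2 ^ (d + 1))) (1507 * (16064 * (4 * (d + 1)) + (d + 1)) + 1)) ≤ 1 / 4 := by
  obtain ⟨w, hw⟩ : ∃ w : ℕ, w = 2 := ⟨2, rfl⟩
  obtain ⟨k, hk⟩ : ∃ k : ℕ, k = 1507 := ⟨_, rfl⟩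
  obtain ⟨M, hM⟩ := exists_nat_ge (10 ^ 16 * (1 + 48 / (2 * (1 / 16064 : ℝ) ^ 2) ^ 4))
  refine ⟨6 * 2 ^ (2008 * (0 + w)) + M + 2008, fun d hd => ?_⟩
  have h1 : d + 1 < 2 ^ (d + 1) := Nat.lt_two_pow_self
  rw [tv_eq, ← hk]
  refine cube_mix hw hk (by omega) (hM.trans ?_) (by omega)
  have : M ≤ 2 ^ (d + 1) := by omega
  exact_mod_cast this

end Vale.Agent.P162
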