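import Vale.Agent.P162.Contract

/-! Moving frames: the Thorp shuffle is a swap process along any admissible directions. -/

namespace Vale.Agent.P162

open Equiv

/-- the hypercube of dimension `d + 1` -/
abbrev Cb (d : ℕ) : Type := Fin (d + 1) → ZMod 2

variable {d : ℕ}

/-- cyclic shift of coordinates -/
def rot (d : ℕ) : Perm (Cb d) := Equiv.arrowCongr (finRotate (d + 1)).symm (Equiv.refl _)

lemma rot_apply (x : Cb d) (i : Fin (d + 1)) : rot d x i = x (finRotate (d + 1) i) := rfl

lemma rot_last (x : Cb d) : rot d x (Fin.last d) = x 0 := by rw [rot_apply, finRotate_last]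

lemma rot_cast (x : Cb d) (i : Fin d) : rot d x i.castSucc = x i.succ := by
  rw [rot_apply]; congr 1; exact finRotate_of_lt i.2

/-- one Thorp shuffle in binary coordinates -/
def th (c : Cb d → ZMod 2) : Perm (Cb d) := rot d * sw (Pi.single 0 1) c

lemma th_last (c : Cb d → ZMod 2) (x : Cb d) :
    th c x (Fin.last d) = x 0 + (c x + c (x + Pi.single 0 1)) := by
  simp [th, rot_last, sw_apply]

lemma th_cast (c : Cb d → ZMod 2) (x : Cb d) (i : Fin d) : th c x i.castSucc = x i.succ := by
  simp [th, rot_cast, sw_apply]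

/-- expectation after `T` Thorp shuffles -/
noncomputable def TH (d : ℕ) : ℕ → (Perm (Cb d) → ℝ) → ℝ
  | 0, Φ => Φ 1
  | T + 1, Φ => TH d T fun g => av fun c => Φ (th c * g)

/-- admissible directions and hyperplanes up to time `N` -/
structure Adm (N : ℕ) (K : ℕ → Cb d) (φ : ℕ → Cb d →ₗ[ZMod 2] ZMod 2) : Prop where
  one : ∀ t < N, φ t (K t) = 1
  zero : ∀ t < N, ∀ s < t, t < s + (d + 1) → φ t (K s) = 0
  back : ∀ t, t + (d + 1) < N → φ (t + (d + 1)) (K t) = 1
  init : ∀ (i : Fin (d + 1)) x, φ i x = x i

lemma compat {N : ℕ} {K : ℕ → Cb d} {φ : ℕ → Cb d →ₗ[ZMod 2] ZMod 2} (h : Adm N K φ) (T : ℕ)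
    (hT : T + (d + 1) ≤ N) : ∃ A : Perm (Cb d), (∀ x (i : Fin (d + 1)), A x i = φ (T + i) x) ∧
      ∀ Φ, TH d T Φ = EX K T fun g => Φ (A * g) := by
  induction T with
  | zero => exact ⟨1, fun x i => by simp [h.init], fun Φ => by simp [TH, EX]⟩
  | succ T ih =>
    obtain ⟨A, hA, hΦ⟩ := ih (by omega)
    have hAK : ∀ x (b : ZMod 2), A (x + b • K T) = A x + b • (Pi.single 0 1 : Cb d) := by
      intro x b; funext i
      rw [Pi.add_apply, hA, hA, map_add, map_smul]
      congr 1
      refine Fin.cases ?_ (fun i => ?_) i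
      · simp [h.one T (by omega)]
      · rw [h.zero (T + (i.succ : ℕ)) (by have := i.2; simp; omega) T (by simp)
          (by have := i.2; simp)]
        simp
    have hb := h.back T (by omega)
    have ho := h.one T (by omega)
    let g0 : Cb d → ZMod 2 := fun x => (φ (T + (d + 1)) x + φ T x) * φ T x
    have hg0 : ∀ x, g0 x + g0 (x + K T) = φ (T + (d + 1)) x + φ T x := by
      intro x
      simp only [g0, map_add, hb, ho]
      generalize φ (T + (d + 1)) x = a
      generalize φ T x = b
      revert a b; decide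
    let e : (Cb d → ZMod 2) ≃ (Cb d → ZMod 2) :=
      (Equiv.addRight g0).trans (Equiv.arrowCongr A (Equiv.refl _))
    have he : ∀ c x, e c (A x) = c x + g0 x := by intro c x; simp [e]
    have key : ∀ c x (i : Fin (d + 1)), th (e c) (A x) i = φ (T + 1 + i) (sw (K T) c x) := by
      intro c x i
      rw [sw_apply, map_add, map_smul]
      refine Fin.lastCases ?_ (fun i => ?_) i
      · have h1 := hAK x 1
        rw [one_smul, one_smul] at h1
        rw [th_last, ← h1, he, he, Fin.val_last, show T + 1 + d = T + (d + 1) by ring, hb, hA,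
          add_add_add_comm, hg0]
        simp only [Fin.val_zero, add_zero, smul_eq_mul, mul_one]
        generalize φ (T + (d + 1)) x = a
        generalize φ T x = b
        generalize c x + c (x + K T) = u
        revert a b u; decide
      · rw [th_cast, hA, h.zero (T + 1 + (i.castSucc : ℕ)) (by have := i.2; simp; omega) T
          (by omega) (by have := i.2; simp; omega)]
        simp [add_assoc, add_comm 1]
    refine ⟨th (e 0) * A * (sw (K T) 0)⁻¹, fun x i => ?_, fun Φ => ?_⟩
    · rw [Perm.mul_apply, Perm.mul_apply, key, sw_inv, sw_sw]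
    · simp only [TH, EX]
      rw [hΦ]
      congr 1; funext g
      rw [← av_equiv e]
      congr 1; funext c
      congr 1
      ext x i
      simp only [Perm.mul_apply, key, sw_inv, sw_sw]

lemma window_indep {N : ℕ} {K : ℕ → Cb d} {φ : ℕ → Cb d →ₗ[ZMod 2] ZMod 2} (h : Adm N K φ) {t : ℕ}
    (ht : t + (d + 1) ≤ N) (γ : Cb d) (h0 : ∑ i, γ i • K (t + i) = 0) : γ = 0 := by
  have : ∀ n : ℕ, ∀ i : Fin (d + 1), d ≤ i + n → γ i = 0 := by
    have main : ∀ i : Fin (d + 1), (∀ j, i < j → γ j = 0) → γ i = 0 := by
      intro i hi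
      have h1 := congrArg (φ (t + i)) h0
      rw [map_sum, map_zero, Finset.sum_eq_single i] at h1
      · rw [map_smul, h.one _ (by have := i.2; omega)] at h1
        simpa using h1
      · intro j _ hji
        rcases lt_or_gt_of_ne hji with hj | hj
        · have hj' : (j : ℕ) < i := hj
          rw [map_smul, h.zero _ (by have := i.2; omega) _ (by omega) (by have := i.2; omega)]
          simp
        · rw [hi j hj]; simp
      · simp
    intro n
    induction n with
    | zero => exact fun i hi => main i fun j hj => by have := j.2; have : (i : ℕ) < j := hj; omega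
    | succ n ih => exact fun i hi => main i fun j hj => ih j (by have : (i : ℕ) < j := hj; omega)
  funext i
  exact this d i (by omega)

lemma exists_next {K : ℕ → Cb d} {φ : ℕ → Cb d →ₗ[ZMod 2] ZMod 2} {t : ℕ}
    (h : Adm (t + (d + 1)) K φ) : ∃ ψ : Cb d →ₗ[ZMod 2] ZMod 2, ψ (K t) = 1 ∧
      ∀ s, t < s → s ≤ t + d → ψ (K s) = 0 := by
  let W : Cb d →ₗ[ZMod 2] Cb d := Fintype.linearCombination (ZMod 2) fun i => K (t + i)
  have hW : Function.Injective W := by
    rw [← LinearMap.ker_eq_bot, eq_bot_iff]
    intro γ hγ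
    exact window_indep h le_rfl γ (by simpa [W, Fintype.linearCombination_apply] using hγ)
  let e := LinearEquiv.ofBijective W (Finite.injective_iff_bijective.1 hW)
  have he : ∀ i : Fin (d + 1), e.symm (K (t + i)) = Pi.single i 1 := by
    intro i
    rw [LinearEquiv.symm_apply_eq]
    simp [e, W]
  refine ⟨LinearMap.proj 0 ∘ₗ e.symm.toLinearMap, ?_, fun s h1 h2 => ?_⟩
  · have := he 0
    simp only [Fin.val_zero, add_zero] at this
    simp [this]
  · have := he ⟨s - t, by omega⟩
    simp only [show t + (s - t) = s by omega] at this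
    simp only [LinearMap.comp_apply, LinearEquiv.coe_coe, this, LinearMap.proj_apply]
    exact Pi.single_eq_of_ne (by intro h; have := congrArg Fin.val h; simp at this; omega) _

lemma greedy {S : Finset (Cb d)} {p : Cb d → ℝ} (hp : Good S (1, p)) {c : ℝ} (hc : 0 ≤ c)
    (hc1 : c ≤ 1) (hS : 4 * c * Fintype.card (Cb d) ≤ Fintype.card (Cb d) - S.card) (t0 : ℕ) :
    ∃ K φ, Adm (t0 + (d + 1)) K φ ∧ ∀ t ≤ t0, ES S K p (t + (d + 1)) (fun s => ∑ y, s.2 y ^ 2) ≤
      (1 - c) ^ t + 2 * Real.exp (-(2 * c ^ 2 * Fintype.card (Cb d))) := by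
  induction t0 with
  | zero =>
    refine ⟨fun t => if h : t < d + 1 then Pi.single ⟨t, h⟩ 1 else 0,
      fun t => if h : t < d + 1 then LinearMap.proj ⟨t, h⟩ else 0, ⟨?_, ?_, ?_, ?_⟩, ?_⟩
    · intro t ht
      have : t < d + 1 := by omega
      simp [this]
    · intro t ht s hs _
      have h1 : t < d + 1 := by omega
      have h2 : s < d + 1 := by omega
      simp only [h1, h2, dif_pos, LinearMap.proj_apply]
      exact Pi.single_eq_of_ne (by intro h; have := congrArg Fin.val h; simp at this; omega) _
    · intro t ht; omega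
    · intro i x; simp [i.2]
    · intro t ht
      obtain rfl : t = 0 := by omega
      refine ((ES_mono hp _ fun s hs => hs.2.2).trans (ES_const _ _).le).trans ?_
      simp; positivity
  | succ t0 ih =>
    obtain ⟨K, φ, hA, hm⟩ := ih
    obtain ⟨ψ, hψ1, hψ0⟩ := exists_next hA
    set T := t0 + (d + 1) with hT
    have hG := EX_Gs_le S hψ1 c d hψ0
    have hsum := ES_mono (K := K) hp T fun s hs => contract hs ψ hc hS
    rw [ES_sum, ES_sum] at hsum
    obtain ⟨k, hk, hk'⟩ := Finset.exists_le_of_sum_le ⟨K t0, by simpa using hψ1⟩ hsum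
    have hk1 : ψ k = 1 := (Finset.mem_filter.1 hk).2
    rw [ES_add, ES_mul, ES_mul, ES_fst] at hk'
    have hKe : ∀ s < T, Function.update K T k s = K s := fun s hs =>
      Function.update_of_ne hs.ne _ _
    have hφe : ∀ s < T, Function.update φ T ψ s = φ s := fun s hs =>
      Function.update_of_ne hs.ne _ _
    refine ⟨Function.update K T k, Function.update φ T ψ, ⟨?_, ?_, ?_, ?_⟩, ?_⟩
    · intro t ht
      rcases (show t < T ∨ t = T by omega) with h | rfl
      · rw [hKe t h, hφe t h, hA.one t h]
      · simp [hk1]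
    · intro t ht s hs hs'
      rcases (show t < T ∨ t = T by omega) with h | rfl
      · rw [hKe s (by omega), hφe t h, hA.zero t h s hs hs']
      · rw [hKe s hs, Function.update_self, hψ0 s (by omega) (by omega)]
    · intro t ht
      rw [hKe t (by omega)]
      rcases (show t + (d + 1) < T ∨ t = t0 by omega) with h | rfl
      · rw [hφe _ h, hA.back t h]
      · rw [Function.update_self, hψ1]
    · intro i x
      rw [hφe i (by have := i.2; omega), hA.init]
    · intro t ht
      rcases (show t ≤ t0 ∨ t = t0 + 1 by omega) with h | rfl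
      · rw [ES_congr _ fun s hs => hKe s (by omega)]
        exact hm t h
      · rw [show t0 + 1 + (d + 1) = T + 1 by omega, ES, ES_congr _ hKe, Function.update_self]
        refine hk'.trans ?_
        have h1 := mul_le_mul_of_nonneg_left (hm t0 le_rfl) (sub_nonneg.2 hc1)
        have h2 := mul_le_mul_of_nonneg_left hG hc
        rw [show t0 + d + 1 = T from rfl] at h2
        rw [pow_succ]
        linarith

end Vale.Agent.P162
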