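import Vale.Agent.P162.Level

/-! Small representations of symmetric groups have vectors fixed by a large alternating group. -/

namespace Vale.Agent.P162

open Module Equiv Equiv.Perm
open scoped InnerProductSpace

variable {E : Type*} [NormedAddCommGroup E] [InnerProductSpace ℂ E] [FiniteDimensional ℂ E]
variable {α : Type*} [Fintype α] [DecidableEq α]

/-- ordered triples of distinct points -/
def triples (α : Type*) [Fintype α] [DecidableEq α] : Finset (α × α × α) :=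
  Finset.univ.filter fun t => t.1 ≠ t.2.1 ∧ t.1 ≠ t.2.2 ∧ t.2.1 ≠ t.2.2

lemma avg_ineq {ρ : Perm α →* End ℂ E} (hρ : IsU ρ) {r : ℕ} (j : Fin r × Fin 3 ↪ α)
    {U : Submodule ℂ E} (hU : Inv ρ U) (L : ℕ)
    (hL : ∀ s ≤ r, 2 ^ s ≤ finrank ℂ U → r.choose s ≤ finrank ℂ U → s ≤ L) {v : E} (hv : v ∈ U) :
    r * ∑ t ∈ triples α, ‖v - ρ (cyc t.1 t.2.1 t.2.2) v‖ ^ 2 ≤
      (Fintype.card α : ℝ) ^ 3 * (4 * L * ‖v‖ ^ 2) := by
  set F : Perm α → ℝ := fun c => ‖v - ρ c v‖ ^ 2 with hF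
  set S : Perm α → ℝ := fun c => ∑ g : Perm α, F (g * c * g⁻¹) with hS
  have hN : (0 : ℝ) < Fintype.card (Perm α) := by exact_mod_cast Fintype.card_pos
  have hconj : ∀ c c', IsConj c c' → S c = S c' := by
    intro c c' h
    obtain ⟨a, rfl⟩ := isConj_iff.1 h
    simp only [hS]
    rw [← Equiv.sum_comp (Equiv.mulRight a)]
    refine Finset.sum_congr rfl fun g _ => ?_
    simp [mul_assoc]
  have h1 : ∑ i, S (tc j i) ≤ Fintype.card (Perm α) * (4 * L * ‖v‖ ^ 2) := by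
    simp only [hS]
    rw [Finset.sum_comm]
    calc ∑ g : Perm α, ∑ i, F (g * tc j i * g⁻¹) ≤ ∑ g : Perm α, 4 * L * ‖v‖ ^ 2 := by
          refine Finset.sum_le_sum fun g _ => ?_
          have := level_ineq hρ j hU L hL _ (hU g⁻¹ v hv)
          rw [hρ.norm] at this
          refine le_trans (le_of_eq (Finset.sum_congr rfl fun i _ => ?_)) this
          simp only [hF]
          rw [← hρ.norm g (ρ g⁻¹ v - _), map_sub, rho_apply_inv, rho_mul, rho_mul]
      _ = _ := by simp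
  have h2 : ∑ t ∈ triples α, S (cyc t.1 t.2.1 t.2.2) =
      Fintype.card (Perm α) * ∑ t ∈ triples α, F (cyc t.1 t.2.1 t.2.2) := by
    simp only [hS]
    rw [Finset.sum_comm]
    have : ∀ g : Perm α, ∑ t ∈ triples α, F (g * cyc t.1 t.2.1 t.2.2 * g⁻¹) =
        ∑ t ∈ triples α, F (cyc t.1 t.2.1 t.2.2) := by
      intro g
      refine Finset.sum_equiv (g.prodCongr (g.prodCongr g)) ?_ ?_
      · rintro ⟨a, b, c⟩; simp [triples]
      · rintro ⟨a, b, c⟩ _; simp [cyc_conj]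
    simp [this]
  have h3 : ∀ t ∈ triples α, r * S (cyc t.1 t.2.1 t.2.2) ≤
      Fintype.card (Perm α) * (4 * L * ‖v‖ ^ 2) := by
    intro t ht
    obtain ⟨a, b, c⟩ := (Finset.mem_filter.1 ht).2
    refine le_trans (le_of_eq ?_) h1
    rw [Finset.sum_congr rfl fun i _ => hconj _ _ (three_conj (tc_three j i) (cyc_three a b c))]
    simp
  have h4 := Finset.sum_le_sum h3
  rw [← Finset.mul_sum, h2, Finset.sum_const, nsmul_eq_mul] at h4
  have h5 : ((triples α).card : ℝ) ≤ (Fintype.card α : ℝ) ^ 3 := by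
    have := Finset.card_le_univ (triples α)
    simp only [Fintype.card_prod] at this
    have h6 : ((triples α).card : ℝ) ≤ (Fintype.card α * (Fintype.card α * Fintype.card α) : ℕ) := by
      exact_mod_cast this
    push_cast at h6
    nlinarith
  refine le_of_mul_le_mul_left ?_ hN
  have h7 := mul_le_mul_of_nonneg_right h5
    (by positivity : 0 ≤ Fintype.card (Perm α) * (4 * L * ‖v‖ ^ 2))
  nlinarith

omit [FiniteDimensional ℂ E] in
lemma max_ineq {ρ : Perm α →* End ℂ E} (hρ : IsU ρ) {U : Submodule ℂ E} (hU : Inv ρ U)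
    {K : Finset α} {v : E} (hv : v ∈ U ⊓ Fix ρ K) {x : α} (hx : x ∉ K)
    (hmax : U ⊓ Fix ρ (insert x K) = ⊥) :
    2 * (K.card * (K.card - 1 : ℕ) * ‖v‖ ^ 2) ≤
      ∑ p ∈ K.offDiag, ‖v - ρ (cyc x p.1 p.2) v‖ ^ 2 := by
  rcases Nat.lt_or_ge K.card 2 with hK | hK
  · have : (K.card : ℝ) * (K.card - 1 : ℕ) = 0 := by
      have : K.card * (K.card - 1) = 0 := by
        rcases Nat.lt_succ_iff.1 hK |>.eq_or_lt with h | h
        · rw [h]
        · have : K.card = 0 := by omega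
          rw [this]
      exact_mod_cast this
    rw [this]; simp only [zero_mul, mul_zero]
    exact Finset.sum_nonneg fun _ _ => sq_nonneg _
  have hb : ∀ a : α, ∃ b ∈ K, b ≠ a := fun a => Finset.exists_mem_ne hK a
  choose β hβK hβ using hb
  set c : α → Perm α := fun a => if a = x then 1 else cyc x a (β a) with hc
  have hgood : ∀ a ∈ K, ∀ b ∈ K, b ≠ a → sign (cyc x a b) = 1 ∧ cyc x a b x = a ∧
      ∀ y ∉ insert x K, cyc x a b y = y := by
    intro a ha b hb hab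
    have xa : x ≠ a := fun h => hx (h ▸ ha)
    have xb : x ≠ b := fun h => hx (h ▸ hb)
    refine ⟨(cyc_three xa xb hab.symm).sign, cyc_apply xa hab.symm, fun y hy => ?_⟩
    simp only [Finset.mem_insert, not_or] at hy
    exact cyc_other hy.1 (fun h => hy.2 (h ▸ ha)) (fun h => hy.2 (h ▸ hb))
  have hc' : ∀ a ∈ insert x K, sign (c a) = 1 ∧ c a x = a ∧ ∀ y ∉ insert x K, c a y = y := by
    intro a ha
    by_cases h : a = x
    · simp [hc, h]
    · simp only [hc, h, if_false]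
      exact hgood a ((Finset.mem_insert.1 ha).resolve_left h) _ (hβK a) (hβ a)
  have hA : ∀ g h : Perm α, sign g = 1 → sign h = 1 → (∀ y ∉ insert x K, g y = y) →
      (∀ y ∉ insert x K, h y = y) → g x = h x → ρ g v = ρ h v := by
    intro g h sg sh hg hh e
    have := hv.2 (h⁻¹ * g) (by simp [sg, sh]) (by
      intro y hy
      rw [Perm.mul_apply, Perm.inv_eq_iff_eq]
      by_cases hyx : y = x
      · rw [hyx, e]
      · rw [hg y (by simp [hy, hyx]), hh y (by simp [hy, hyx])])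
    rw [rho_mul] at this
    rw [← rho_apply_inv ρ h (ρ g v), this]
  have hu : ∑ a ∈ insert x K, ρ (c a) v = 0 := by
    have : ∑ a ∈ insert x K, ρ (c a) v ∈ U ⊓ Fix ρ (insert x K) := by
      refine ⟨U.sum_mem fun a _ => hU _ _ hv.1, fun g sg hg => ?_⟩
      have hmem : ∀ a, a ∈ insert x K ↔ g a ∈ insert x K := by
        intro a
        constructor
        · intro ha
          by_contra h
          have := g.injective (hg _ h)
          exact h (this.symm ▸ ha)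
        · intro ha
          by_contra h
          exact h (hg a h ▸ ha)
      rw [map_sum]
      refine Finset.sum_equiv g hmem fun a ha => ?_
      obtain ⟨a1, a2, a3⟩ := hc' a ha
      obtain ⟨b1, b2, b3⟩ := hc' _ ((hmem a).1 ha)
      rw [← rho_mul]
      refine hA _ _ (by simp [sg, a1]) b1 (fun y hy => ?_) b3 ?_
      · rw [Perm.mul_apply, a3 y hy, hg y hy]
      · rw [Perm.mul_apply, a2, b2]
    rw [hmax] at this
    exact this
  have hre : ∑ a ∈ K, (⟪v, ρ (c a) v⟫_ℂ).re ≤ 0 := by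
    have h1 := congrArg (fun z => (⟪v, z⟫_ℂ).re) hu
    simp only [inner_sum, Complex.re_sum, inner_zero_right, Complex.zero_re] at h1
    rw [Finset.sum_insert hx] at h1
    have h2 : 0 ≤ (⟪v, ρ (c x) v⟫_ℂ).re := by
      simp only [hc, if_true, map_one, End.one_apply]
      exact inner_self_nonneg (𝕜 := ℂ)
    linarith
  have hterm : ∀ p ∈ K.offDiag, ‖v - ρ (cyc x p.1 p.2) v‖ ^ 2 =
      2 * ‖v‖ ^ 2 - 2 * (⟪v, ρ (c p.1) v⟫_ℂ).re := by
    intro p hp
    obtain ⟨h1, h2, h3⟩ := Finset.mem_offDiag.1 hp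
    obtain ⟨a1, a2, a3⟩ := hgood _ h1 _ h2 (Ne.symm h3)
    obtain ⟨b1, b2, b3⟩ := hc' _ (Finset.mem_insert_of_mem h1)
    rw [hA _ _ a1 b1 a3 b3 (a2.trans b2.symm), @norm_sub_sq ℂ, hρ.norm]
    simp only [RCLike.re_to_complex]; ring
  rw [Finset.sum_congr rfl hterm, Finset.sum_sub_distrib, Finset.sum_const, Finset.offDiag_card,
    ← Finset.mul_sum]
  have h4 : ∑ p ∈ K.offDiag, (⟪v, ρ (c p.1) v⟫_ℂ).re =
      (K.card - 1 : ℕ) * ∑ a ∈ K, (⟪v, ρ (c a) v⟫_ℂ).re := by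
    have : K.offDiag = (K ×ˢ K).filter fun p => p.1 ≠ p.2 := by
      ext p; simp [Finset.mem_offDiag, and_assoc]
    rw [this, Finset.sum_filter, Finset.sum_product, Finset.mul_sum]
    refine Finset.sum_congr rfl fun a ha => ?_
    rw [← Finset.sum_filter]
    simp only [Finset.filter_ne, Finset.sum_const, Finset.card_erase_of_mem ha, nsmul_eq_mul]
  rw [h4, nsmul_eq_mul, ← Nat.mul_sub_one]
  push_cast
  have := mul_nonpos_of_nonneg_of_nonpos (Nat.cast_nonneg (α := ℝ) (K.card - 1)) hre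
  linarith

lemma grow {ρ : Perm α →* End ℂ E} (hρ : IsU ρ) {r : ℕ} (j : Fin r × Fin 3 ↪ α)
    {U : Submodule ℂ E} (hU : Inv ρ U) (L : ℕ)
    (hL : ∀ s ≤ r, 2 ^ s ≤ finrank ℂ U → r.choose s ≤ finrank ℂ U → s ≤ L) {K0 : Finset α}
    (h0 : U ⊓ Fix ρ K0 ≠ ⊥) : ∃ K : Finset α, K0.card ≤ K.card ∧ U ⊓ Fix ρ K ≠ ⊥ ∧
      r * ((Fintype.card α - K.card) * (K.card * (K.card - 1))) ≤ 2 * L * Fintype.card α ^ 3 := by
  classical
  obtain ⟨K, hK, hmax⟩ := Finset.exists_max_image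
    (Finset.univ.filter fun K : Finset α => U ⊓ Fix ρ K ≠ ⊥) Finset.card ⟨K0, by simpa using h0⟩
  have hK' := (Finset.mem_filter.1 hK).2
  refine ⟨K, hmax K0 (by simpa using h0), hK', ?_⟩
  obtain ⟨v, hv, hv0⟩ := Submodule.exists_mem_ne_zero_of_ne_bot hK'
  have h1 := avg_ineq hρ j hU L hL hv.1
  have h2 : ∑ x ∈ Kᶜ, 2 * (K.card * (K.card - 1 : ℕ) * ‖v‖ ^ 2) ≤
      ∑ t ∈ triples α, ‖v - ρ (cyc t.1 t.2.1 t.2.2) v‖ ^ 2 := by
    calc _ ≤ ∑ x ∈ Kᶜ, ∑ p ∈ K.offDiag, ‖v - ρ (cyc x p.1 p.2) v‖ ^ 2 := by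
          refine Finset.sum_le_sum fun x hx => max_ineq hρ hU hv (Finset.mem_compl.1 hx) ?_
          by_contra hne
          have := hmax (insert x K) (by simpa using hne)
          rw [Finset.card_insert_of_notMem (Finset.mem_compl.1 hx)] at this
          omega
      _ = ∑ t ∈ Kᶜ ×ˢ K.offDiag, ‖v - ρ (cyc t.1 t.2.1 t.2.2) v‖ ^ 2 :=
          (Finset.sum_product (f := fun t : α × α × α => ‖v - ρ (cyc t.1 t.2.1 t.2.2) v‖ ^ 2) _ _).symm
      _ ≤ _ := by
          refine Finset.sum_le_sum_of_subset_of_nonneg ?_ fun _ _ _ => sq_nonneg _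
          rintro ⟨a, b, c⟩ h
          simp only [Finset.mem_product, Finset.mem_compl, Finset.mem_offDiag] at h
          simp only [triples, Finset.mem_filter, Finset.mem_univ, true_and]
          exact ⟨fun e => h.1 (e ▸ h.2.1), fun e => h.1 (e ▸ h.2.2.1), h.2.2.2⟩
  rw [Finset.sum_const, Finset.card_compl, nsmul_eq_mul] at h2
  have hpos : 0 < ‖v‖ ^ 2 := by positivity
  have h3 : (r : ℝ) * (((Fintype.card α - K.card : ℕ) : ℝ) * (K.card * (K.card - 1 : ℕ))) ≤
      2 * L * (Fintype.card α : ℝ) ^ 3 := by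
    refine le_of_mul_le_mul_right ?_ hpos
    have := mul_le_mul_of_nonneg_left h2 (Nat.cast_nonneg (α := ℝ) r)
    nlinarith
  exact_mod_cast h3

/-- the level parameter -/
def lev (n x : ℕ) : ℕ := Nat.findGreatest (fun s => 2 ^ s ≤ x ∧ (n / 3).choose s ≤ x) (n / 3)

lemma lev_spec (n : ℕ) {x : ℕ} (hx : 1 ≤ x) : 2 ^ lev n x ≤ x ∧ (n / 3).choose (lev n x) ≤ x :=
  Nat.findGreatest_spec (P := fun s => 2 ^ s ≤ x ∧ (n / 3).choose s ≤ x) (Nat.zero_le _)
    (by simpa using hx)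

lemma lev_le {n x : ℕ} (hx : 1 ≤ x) (h : x ^ 500 ≤ 2 ^ (n + 1)) : 500 * lev n x ≤ n + 1 := by
  have h1 := Nat.pow_le_pow_left (lev_spec n hx).1 500
  rw [← pow_mul] at h1
  rw [mul_comm]
  exact (Nat.pow_le_pow_iff_right (by norm_num)).1 (h1.trans h)

lemma exists_grid (α : Type*) [Fintype α] (r b : ℕ) (h : r * b ≤ Fintype.card α) :
    Nonempty (Fin r × Fin b ↪ α) :=
  Function.Embedding.nonempty_of_card_le (by simpa using h)

theorem level_thm : ∀ (n : ℕ) (α : Type) [Fintype α] [DecidableEq α], Fintype.card α = n →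
    ∀ (ρ : Perm α →* End ℂ E), IsU ρ → ∀ (U : Submodule ℂ E), Inv ρ U → U ≠ ⊥ → ∀ x : ℕ,
      finrank ℂ U ≤ x → x ^ 500 ≤ 2 ^ (n + 1) →
      ∃ K : Finset α, U ⊓ Fix ρ K ≠ ⊥ ∧ 3 * n ≤ 4 * K.card ∧ n ≤ K.card + 96 * lev n x := by
  intro n
  induction n using Nat.strong_induction_on with
  | _ n ih =>
  intro α _ _ hn ρ hρ U hU h0 x hx hxn
  have hx1 : 1 ≤ x := (Submodule.one_le_finrank_iff.2 h0).trans hx
  rcases Nat.lt_or_ge x 2 with hx2 | hx2
  · refine ⟨Finset.univ, ?_, by simp [hn]; omega, by simp [hn]⟩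
    rwa [inf_eq_left.2 (le_fix_univ fun c hc v hv =>
      one_dim hU (by omega) (three_conj hc hc.isThreeCycle_sq) hv)]
  have hn500 : 500 ≤ n + 1 :=
    (Nat.pow_le_pow_iff_right (by norm_num)).1 ((Nat.pow_le_pow_left hx2 500).trans hxn)
  obtain ⟨j2⟩ := exists_grid α 2 (n / 2) (by omega)
  obtain ⟨j⟩ := exists_grid α (n / 3) 3 (by omega)
  have hsmall : ∃ i, ∃ W ≤ U, Inv (ρ.comp (emb (blk j2 i))) W ∧ W ≠ ⊥ ∧
      finrank ℂ W < x.sqrt + 1 := by
    by_contra hcon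
    push Not at hcon
    have := pow_le_finrank (fun i => ρ.comp (emb (blk j2 i))) (fun i => hρ.comp _) (by
      intro i i' hii g h v
      simp only [MonoidHom.comp_apply, ← rho_mul, (blk_commute j2 i i' hii g h).eq])
      (x.sqrt + 1) Finset.univ U h0 (fun i _ => hU.comp _) (fun i _ => hcon i)
    have h2 := Nat.lt_succ_sqrt' x
    simp only [Finset.card_univ, Fintype.card_fin] at this
    simp only [Nat.succ_eq_add_one] at h2
    omega
  obtain ⟨i, W, hWU, hW, hW0, hWx⟩ := hsmall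
  obtain ⟨K', hK1, hK2, -⟩ := ih (n / 2) (by omega) (Fin (n / 2)) (by simp) _ (hρ.comp _) W hW hW0
    x.sqrt (by omega) (by
      have h1 : (x.sqrt ^ 500) ^ 2 ≤ (2 ^ (n / 2 + 1)) ^ 2 := by
        calc (x.sqrt ^ 500) ^ 2 = (x.sqrt ^ 2) ^ 500 := by rw [← pow_mul, ← pow_mul]
          _ ≤ x ^ 500 := Nat.pow_le_pow_left (Nat.sqrt_le' x) 500
          _ ≤ 2 ^ (n + 1) := hxn
          _ ≤ _ := by rw [← pow_mul]; exact Nat.pow_le_pow_right (by norm_num) (by omega)
      exact (Nat.pow_le_pow_iff_left (by norm_num)).1 h1)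
  have hK0 : U ⊓ Fix ρ (K'.map (blk j2 i)) ≠ ⊥ := by
    obtain ⟨v, hv, hv0⟩ := Submodule.exists_mem_ne_zero_of_ne_bot hK1
    intro hbot
    apply hv0
    have : v ∈ U ⊓ Fix ρ (K'.map (blk j2 i)) := by
      refine ⟨hWU hv.1, fun g sg hg => ?_⟩
      obtain ⟨h, rfl⟩ := exists_emb (blk j2 i) g fun y hy => hg y fun hm => hy (by
        obtain ⟨b, _, rfl⟩ := Finset.mem_map.1 hm; exact ⟨b, rfl⟩)
      refine hv.2 h (by rwa [sign_emb] at sg) fun b hb => ?_
      have := hg (blk j2 i b) (by simpa using hb)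
      rw [emb_apply] at this
      exact (blk j2 i).injective this
    rw [hbot] at this
    exact this
  obtain ⟨K, hK3, hK4, hK5⟩ := grow hρ j hU (lev n x) (fun s hs h1 h2 =>
    Nat.le_findGreatest (P := fun s => 2 ^ s ≤ x ∧ (n / 3).choose s ≤ x) hs
      ⟨h1.trans hx, h2.trans hx⟩) hK0
  rw [Finset.card_map] at hK3
  rw [hn] at hK5
  have hL := lev_le hx1 hxn
  have hkey : n - K.card ≤ 96 * lev n x := by
    have a1 : n ≤ 4 * (n / 3) := by omega
    have a2 : n ≤ 3 * K.card := by omega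
    have a3 : n ≤ 4 * (K.card - 1) := by omega
    have a4 : n ^ 3 * (n - K.card) ≤ n ^ 3 * (96 * lev n x) := by
      calc n ^ 3 * (n - K.card) = n * (n * n) * (n - K.card) := by ring
        _ ≤ 4 * (n / 3) * (3 * K.card * (4 * (K.card - 1))) * (n - K.card) :=
            Nat.mul_le_mul_right _ (Nat.mul_le_mul a1 (Nat.mul_le_mul a2 a3))
        _ = 48 * (n / 3 * ((n - K.card) * (K.card * (K.card - 1)))) := by ring
        _ ≤ 48 * (2 * lev n x * n ^ 3) := Nat.mul_le_mul_left _ hK5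
        _ = _ := by ring
    exact Nat.le_of_mul_le_mul_left a4 (pow_pos (by omega) 3)
  exact ⟨K, hK4, by omega, by omega⟩

end Vale.Agent.P162
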