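import Mathlib

/-! Utilities on permutations: embeddings of symmetric groups and three-cycles. -/

namespace Vale.Agent.P162

open Equiv Equiv.Perm

variable {α β κ : Type*}

/-- embedding of symmetric groups -/
noncomputable def emb (e : β ↪ α) : Perm β →* Perm α := viaEmbeddingHom e

lemma emb_apply (e : β ↪ α) (h : Perm β) (b : β) : emb e h (e b) = e (h b) :=
  viaEmbedding_apply h e b

lemma emb_not (e : β ↪ α) (h : Perm β) {x : α} (hx : x ∉ Set.range e) : emb e h x = x :=
  viaEmbedding_apply_of_notMem h e x hx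

lemma emb_swap [DecidableEq α] [DecidableEq β] (e : β ↪ α) (a b : β) :
    emb e (swap a b) = swap (e a) (e b) := by
  ext x
  by_cases hx : x ∈ Set.range e
  · obtain ⟨y, rfl⟩ := hx
    rw [emb_apply, e.injective.swap_apply]
  · rw [emb_not e _ hx, swap_apply_of_ne_of_ne]
    · rintro rfl; exact hx ⟨a, rfl⟩
    · rintro rfl; exact hx ⟨b, rfl⟩

lemma sign_emb [Fintype α] [Fintype β] [DecidableEq α] [DecidableEq β] (e : β ↪ α) (h : Perm β) :
    sign (emb e h) = sign h := by
  unfold emb viaEmbeddingHom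
  exact @sign_extendDomain _ _ _ _ _ _ h _ (fun _ => Classical.propDecidable _) _

lemma emb_commute {β' : Type*} (e : β ↪ α) (e' : β' ↪ α) (hd : ∀ b b', e b ≠ e' b') (g : Perm β)
    (h : Perm β') : Commute (emb e g) (emb e' h) := by
  apply Equiv.Perm.Disjoint.commute
  intro x
  by_cases hx : x ∈ Set.range e
  · right
    obtain ⟨y, rfl⟩ := hx
    exact emb_not _ _ fun ⟨b', hb⟩ => hd y b' hb.symm
  · left; exact emb_not _ _ hx

lemma exists_agree [Finite β] (e : β ↪ α) (γ : Perm α) (hγ : ∀ b, γ (e b) ∈ Set.range e) :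
    ∃ h : Perm β, ∀ b, γ (e b) = e (h b) := by
  choose f hf using hγ
  have hinj : Function.Injective f := by
    intro a b hab
    apply e.injective; apply γ.injective
    rw [← hf, ← hf, hab]
  exact ⟨Equiv.ofBijective f (Finite.injective_iff_bijective.1 hinj), fun b => (hf b).symm⟩

lemma exists_emb [Finite β] (e : β ↪ α) (γ : Perm α) (hγ : ∀ x ∉ Set.range e, γ x = x) :
    ∃ h : Perm β, emb e h = γ := by
  obtain ⟨h, hh⟩ := exists_agree e γ (by
    intro b
    by_contra hb
    have := γ.injective (hγ _ hb)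
    exact hb ⟨b, this.symm⟩)
  refine ⟨h, Equiv.ext fun x => ?_⟩
  by_cases hx : x ∈ Set.range e
  · obtain ⟨y, rfl⟩ := hx
    rw [emb_apply, hh]
  · rw [emb_not _ _ hx, hγ x hx]

/-- the `i`-th block of a grid embedding -/
def blk (j : κ × β ↪ α) (i : κ) : β ↪ α :=
  ⟨fun b => j (i, b), fun _ _ h => (Prod.ext_iff.1 (j.injective h)).2⟩

@[simp] lemma blk_apply (j : κ × β ↪ α) (i : κ) (b : β) : blk j i b = j (i, b) := rfl

lemma blk_commute (j : κ × β ↪ α) (i i' : κ) (h : i ≠ i') (g g' : Perm β) :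
    Commute (emb (blk j i) g) (emb (blk j i') g') :=
  emb_commute _ _ (fun b b' e => h (congrArg Prod.fst (j.injective (show j (i, b) = j (i', b') from e)))) _ _

variable [DecidableEq α]

/-- a three-cycle sending `a` to `b` -/
def cyc (a b c : α) : Perm α := swap a c * swap a b

lemma cyc_conj (g : Perm α) (a b c : α) : g * cyc a b c * g⁻¹ = cyc (g a) (g b) (g c) := by
  simp only [cyc, swap_apply_apply]; group

lemma cyc_three [Fintype α] {a b c : α} (ab : a ≠ b) (ac : a ≠ c) (bc : b ≠ c) :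
    IsThreeCycle (cyc a b c) := isThreeCycle_swap_mul_swap_same ac ab bc.symm

lemma cyc_apply {a b c : α} (ab : a ≠ b) (bc : b ≠ c) : cyc a b c a = b := by
  simp [cyc, swap_apply_of_ne_of_ne ab.symm bc]

lemma cyc_other {a b c x : α} (ha : x ≠ a) (hb : x ≠ b) (hc : x ≠ c) : cyc a b c x = x := by
  simp [cyc, swap_apply_of_ne_of_ne ha hb, swap_apply_of_ne_of_ne ha hc]

lemma emb_cyc [DecidableEq β] (e : β ↪ α) (a b c : β) :
    emb e (cyc a b c) = cyc (e a) (e b) (e c) := by
  simp only [cyc, map_mul, emb_swap]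

lemma three_conj [Fintype α] {c c' : Perm α} (h : IsThreeCycle c) (h' : IsThreeCycle c') :
    IsConj c c' := isConj_iff_cycleType_eq.2 (h.trans h'.symm)

lemma c3_normal : ∀ h : Perm (Fin 3), h⁻¹ * cyc 0 1 2 * h = cyc 0 1 2 ∨
    h⁻¹ * cyc 0 1 2 * h = cyc 0 1 2 * cyc 0 1 2 := by decide

omit [DecidableEq α] in
lemma card_classes [Fintype α] : Fintype.card (Fintype.card α).Partition ≤ 2 ^ Fintype.card α := by
  refine (Fintype.card_le_of_surjective _ Nat.Partition.ofComposition_surj).trans ?_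
  rw [composition_card]
  exact Nat.pow_le_pow_right (by norm_num) (Nat.sub_le _ _)

lemma factorial_pow_le (a L : ℕ) : L.factorial ^ a ≤ (a * L).factorial := by
  induction a with
  | zero => simp
  | succ a ih =>
    rw [pow_succ, Nat.succ_mul]
    exact (Nat.mul_le_mul_right _ ih).trans
      (Nat.le_of_dvd (Nat.factorial_pos _) (Nat.factorial_mul_factorial_dvd_factorial_add _ _))

lemma choose_bound (n r L a : ℕ) (h : n ≤ 4 * (r + 1 - L)) :
    n.choose (a * L) ≤ (4 ^ L * r.choose L) ^ a := by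
  have h1 : n.choose (a * L) * L.factorial ^ a ≤ (n ^ L) ^ a := by
    calc n.choose (a * L) * L.factorial ^ a ≤ (a * L).factorial * n.choose (a * L) := by
          rw [mul_comm]; exact Nat.mul_le_mul_right _ (factorial_pow_le a L)
      _ = n.descFactorial (a * L) := (Nat.descFactorial_eq_factorial_mul_choose _ _).symm
      _ ≤ n ^ (a * L) := Nat.descFactorial_le_pow _ _
      _ = _ := by rw [← pow_mul, mul_comm]
  have h2 : n ^ L ≤ 4 ^ L * r.choose L * L.factorial := by
    calc n ^ L ≤ (4 * (r + 1 - L)) ^ L := Nat.pow_le_pow_left h L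
      _ = 4 ^ L * (r + 1 - L) ^ L := mul_pow _ _ _
      _ ≤ 4 ^ L * r.descFactorial L := Nat.mul_le_mul_left _ (Nat.pow_sub_le_descFactorial _ _)
      _ = _ := by rw [Nat.descFactorial_eq_factorial_mul_choose]; ring
  have h3 := h1.trans (Nat.pow_le_pow_left h2 a)
  rw [mul_pow _ L.factorial] at h3
  exact Nat.le_of_mul_le_mul_right h3 (by positivity)

lemma le_choose_add (s t : ℕ) : t + 1 ≤ (s + 1 + t).choose (s + 1) := by
  induction s with
  | zero => simp [add_comm]
  | succ s ih =>
    rw [show s + 1 + 1 + t = (s + 1 + t) + 1 by ring, Nat.choose_succ_succ]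
    exact ih.trans (Nat.le_add_right _ _)

end Vale.Agent.P162
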