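import Vale.Agent.P162.Reg
import Vale.Agent.P162.PermU

/-! Small representations of symmetric groups: three-cycles act almost trivially. -/

namespace Vale.Agent.P162

open Module Equiv Equiv.Perm
open scoped InnerProductSpace

variable {E : Type*} [NormedAddCommGroup E] [InnerProductSpace ℂ E] [FiniteDimensional ℂ E]

lemma proj_symm_comm {F : Submodule ℂ E} (T : E →ₗ[ℂ] E) (hs : ∀ v w, ⟪T v, w⟫_ℂ = ⟪v, T w⟫_ℂ)
    (h : ∀ v ∈ F, T v ∈ F) (v : E) : F.starProjection (T v) = T (F.starProjection v) := by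
  apply Submodule.eq_starProjection_of_mem_orthogonal (h _ (F.starProjection_apply_mem v))
  rw [← map_sub, Submodule.mem_orthogonal]
  intro u hu
  rw [← hs]
  exact (Submodule.mem_orthogonal _ _).1 (F.sub_starProjection_mem_orthogonal v) _ (h u hu)

lemma proj_proj_comm {F F' : Submodule ℂ E} (h : ∀ v ∈ F, F'.starProjection v ∈ F) (v : E) :
    F.starProjection (F'.starProjection v) = F'.starProjection (F.starProjection v) :=
  proj_symm_comm (F'.starProjection : E →ₗ[ℂ] E) F'.inner_starProjection_left_eq_right h v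

lemma pattern_sum {κ : Type*} [Fintype κ] [DecidableEq κ] (F : κ → Submodule ℂ E)
    (hF : ∀ i j, ∀ v ∈ F i, (F j).starProjection v ∈ F i) (U : Submodule ℂ E)
    (hU : ∀ i, ∀ v ∈ U, (F i).starProjection v ∈ U) (L : ℕ)
    (hL : ∀ v ∈ U, v ≠ 0 → ∀ Z : Finset κ, (∀ i ∈ Z, v ∈ (F i)ᗮ) → (∀ i ∉ Z, v ∈ F i) →
      Z.card ≤ L) : ∀ v ∈ U, ∑ i, ‖v - (F i).starProjection v‖ ^ 2 ≤ L * ‖v‖ ^ 2 := by
  classical
  have key : ∀ s : Finset κ, ∀ v ∈ U, (∀ i ∉ s, v ∈ F i ∨ v ∈ (F i)ᗮ) →
      ∑ i, ‖v - (F i).starProjection v‖ ^ 2 ≤ L * ‖v‖ ^ 2 := by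
    intro s
    induction s using Finset.induction_on with
    | empty =>
      intro v hv h
      by_cases h0 : v = 0
      · subst h0; simp
      set Z := Finset.univ.filter fun i => v ∈ (F i)ᗮ with hZ
      have h1 : ∀ i ∉ Z, v ∈ F i := fun i hi =>
        (h i (Finset.notMem_empty i)).resolve_right (by simpa [hZ] using hi)
      have h2 := hL v hv h0 Z (fun i hi => (Finset.mem_filter.1 hi).2) h1
      have h3 : ∀ i, ‖v - (F i).starProjection v‖ ^ 2 = if v ∈ (F i)ᗮ then ‖v‖ ^ 2 else 0 := by
        intro i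
        split_ifs with hi
        · rw [(Submodule.starProjection_apply_eq_zero_iff _).2 hi, sub_zero]
        · rw [Submodule.starProjection_eq_self_iff.2 (h1 i (by simpa [hZ] using hi))]; simp
      simp_rw [h3]
      rw [← Finset.sum_filter, Finset.sum_const, nsmul_eq_mul]
      exact mul_le_mul_of_nonneg_right (by exact_mod_cast h2) (sq_nonneg _)
    | insert j s hjs ih =>
      intro v hv h
      have hc := fun i x => proj_proj_comm (hF i j) x
      have h1 := ih ((F j).starProjection v) (hU j v hv) (by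
        intro i hi
        by_cases hij : i = j
        · subst hij; exact Or.inl ((F i).starProjection_apply_mem v)
        · rcases h i (by simp [hij, hi]) with h' | h'
          · exact Or.inl (hF i j v h')
          · right
            rw [← Submodule.starProjection_apply_eq_zero_iff] at h' ⊢
            rw [hc, h', map_zero])
      have h2 := ih (v - (F j).starProjection v) (U.sub_mem hv (hU j v hv)) (by
        intro i hi
        by_cases hij : i = j
        · subst hij; exact Or.inr ((F i).sub_starProjection_mem_orthogonal v)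
        · rcases h i (by simp [hij, hi]) with h' | h'
          · exact Or.inl ((F i).sub_mem h' (hF i j v h'))
          · right
            rw [← Submodule.starProjection_apply_eq_zero_iff] at h' ⊢
            rw [map_sub, hc, h', map_zero, sub_zero])
      have py : ∀ x : E, ‖x‖ ^ 2 = ‖(F j).starProjection x‖ ^ 2 +
          ‖x - (F j).starProjection x‖ ^ 2 := by
        intro x
        rw [← (F j).starProjection_orthogonal_val]
        exact Submodule.norm_sq_eq_add_norm_sq_starProjection x (F j)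
      rw [py v, mul_add]
      refine le_trans (le_of_eq ?_) (add_le_add h1 h2)
      rw [← Finset.sum_add_distrib]
      refine Finset.sum_congr rfl fun i _ => ?_
      rw [py (v - (F i).starProjection v), map_sub, map_sub, hc]
      congr 3; abel
  exact fun v hv => key Finset.univ v hv fun i hi => absurd (Finset.mem_univ i) hi

/-- vectors fixed by one group element -/
def Fx {G : Type*} [Group G] (ρ : G →* End ℂ E) (c : G) : Submodule ℂ E where
  carrier := {v | ρ c v = v}
  add_mem' := fun {a b} ha hb => by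
    simp only [Set.mem_ofPred_eq] at *; rw [map_add, ha, hb]
  zero_mem' := by simp
  smul_mem' := fun c a ha => by
    simp only [Set.mem_ofPred_eq] at *; rw [map_smul, ha]

omit [FiniteDimensional ℂ E] in
lemma mem_Fx {G : Type*} [Group G] {ρ : G →* End ℂ E} {c : G} {v : E} :
    v ∈ Fx ρ c ↔ ρ c v = v := Iff.rfl

lemma one_dim {G : Type*} [Group G] {ρ : G →* End ℂ E} {W : Submodule ℂ E} (hW : Inv ρ W)
    (h1 : finrank ℂ W ≤ 1) {c : G} (hc : IsConj c (c * c)) {w : E} (hw : w ∈ W) : ρ c w = w := by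
  obtain ⟨x, hx⟩ := finrank_le_one_iff.1 h1
  have hx' : ∀ z ∈ W, ∃ s : ℂ, s • (x : E) = z := fun z hz => by
    obtain ⟨s, hs⟩ := hx ⟨z, hz⟩
    exact ⟨s, congrArg Subtype.val hs⟩
  have hcomm : ∀ a b, ρ (a * b) w = ρ (b * a) w := by
    intro a b
    obtain ⟨s, hs⟩ := hx' _ (hW a x x.2)
    obtain ⟨t, ht⟩ := hx' _ (hW b x x.2)
    obtain ⟨u, rfl⟩ := hx' w hw
    simp only [rho_mul, map_smul, ← hs, ← ht, smul_smul]
    congr 1; ring
  obtain ⟨g, hg⟩ := isConj_iff.1 hc
  have h2 : ρ c (ρ c w) = ρ c w := by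
    rw [← rho_mul, ← hg, mul_assoc, hcomm]; simp
  have := congrArg (ρ c⁻¹) h2
  rwa [rho_inv_apply, rho_inv_apply] at this

variable {α : Type*} [Fintype α] [DecidableEq α]

/-- vectors fixed by all even permutations supported in `K` -/
def Fix (ρ : Perm α →* End ℂ E) (K : Finset α) : Submodule ℂ E where
  carrier := {v | ∀ g : Perm α, sign g = 1 → (∀ x ∉ K, g x = x) → ρ g v = v}
  add_mem' := fun {a b} ha hb g h1 h2 => by rw [map_add, ha g h1 h2, hb g h1 h2]
  zero_mem' := fun g _ _ => by simp
  smul_mem' := fun c a ha g h1 h2 => by rw [map_smul, ha g h1 h2]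

omit [FiniteDimensional ℂ E] in
lemma le_fix_univ {ρ : Perm α →* End ℂ E} {U : Submodule ℂ E}
    (h : ∀ c : Perm α, IsThreeCycle c → ∀ v ∈ U, ρ c v = v) : U ≤ Fix ρ Finset.univ := by
  intro v hv g hg _
  have hg' : g ∈ Subgroup.closure {σ : Perm α | IsThreeCycle σ} := by
    rw [closure_three_cycles_eq_alternating]; exact mem_alternatingGroup.2 hg
  clear hg
  rename_i h0
  clear h0
  induction hg' using Subgroup.closure_induction with
  | mem c hc => exact h c hc v hv
  | one => simp
  | mul a b _ _ ha hb => rw [rho_mul, hb, ha]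
  | inv a _ ha => nth_rewrite 1 [← ha]; rw [rho_inv_apply]

/-- the `i`-th of `r` disjoint three-cycles -/
def tc {r : ℕ} (j : Fin r × Fin 3 ↪ α) (i : Fin r) : Perm α := cyc (j (i, 0)) (j (i, 1)) (j (i, 2))

lemma tc_three {r : ℕ} (j : Fin r × Fin 3 ↪ α) (i : Fin r) : IsThreeCycle (tc j i) :=
  cyc_three (j.injective.ne (by simp)) (j.injective.ne (by simp)) (j.injective.ne (by simp))

omit [Fintype α] in
lemma tc_eq {r : ℕ} (j : Fin r × Fin 3 ↪ α) (i : Fin r) : tc j i = emb (blk j i) (cyc 0 1 2) := by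
  rw [emb_cyc]; rfl

omit [Fintype α] in
lemma level_ineq {ρ : Perm α →* End ℂ E} (hρ : IsU ρ) {r : ℕ} (j : Fin r × Fin 3 ↪ α)
    {U : Submodule ℂ E} (hU : Inv ρ U) (L : ℕ)
    (hL : ∀ s ≤ r, 2 ^ s ≤ finrank ℂ U → r.choose s ≤ finrank ℂ U → s ≤ L) :
    ∀ v ∈ U, ∑ i, ‖v - ρ (tc j i) v‖ ^ 2 ≤ 4 * L * ‖v‖ ^ 2 := by
  classical
  set F : Fin r → Submodule ℂ E := fun i => Fx ρ (tc j i) with hFdef
  have hFinv : ∀ i i', Inv (ρ.comp (emb (blk j i'))) (F i) := by
    intro i i' h v hv
    simp only [hFdef, mem_Fx, MonoidHom.comp_apply] at hv ⊢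
    by_cases hii : i = i'
    · subst hii
      have h1 : ρ (emb (blk j i) (h⁻¹ * cyc 0 1 2 * h)) v = v := by
        rcases c3_normal h with h2 | h2 <;> rw [h2]
        · rw [← tc_eq, hv]
        · rw [map_mul, ← tc_eq, rho_mul, hv, hv]
      nth_rewrite 2 [← h1]
      rw [← rho_mul, ← rho_mul, tc_eq, ← map_mul, ← map_mul]
      congr 3; group
    · rw [← rho_mul, tc_eq, (blk_commute j i i' hii _ _).eq, ← tc_eq, rho_mul, hv]
  have hP : ∀ (W : Submodule ℂ E) i, Inv (ρ.comp (emb (blk j i))) W →
      ∀ v ∈ F i, W.starProjection v ∈ F i := by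
    intro W i hW v hv
    have := proj_comm (hρ.comp _) hW (cyc 0 1 2) v
    simp only [MonoidHom.comp_apply, ← tc_eq] at this
    simp only [hFdef, mem_Fx] at hv ⊢
    rw [← this, hv]
  have hmain := pattern_sum F (fun i i' => hP (F i') i (hFinv i' i)) U (by
    intro i v hv
    have := proj_proj_comm (hP U i (hU.comp _)) v
    rw [Submodule.starProjection_eq_self_iff.2 hv] at this
    rw [this]; exact U.starProjection_apply_mem _) L (by
    intro v hv h0 Z hZ hZ'
    refine hL _ ((Finset.card_le_univ Z).trans (by simp)) ?_ ?_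
    · let U' : Submodule ℂ E := U ⊓ ⨅ i ∈ Z, (F i)ᗮ
      have hU' : ∀ x, x ∈ U' ↔ x ∈ U ∧ ∀ i ∈ Z, x ∈ (F i)ᗮ := by
        intro x; simp [U']
      refine (pow_le_finrank (fun i => ρ.comp (emb (blk j i))) (fun i => hρ.comp _) ?_ 2 Z U' ?_
        ?_ ?_).trans (Submodule.finrank_mono inf_le_left)
      · intro i i' hii g h v
        simp only [MonoidHom.comp_apply, ← rho_mul, (blk_commute j i i' hii g h).eq]
      · intro h
        have : v ∈ U' := (hU' v).2 ⟨hv, hZ⟩
        rw [h] at this; exact h0 this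
      · intro i _ g x hx
        rw [hU'] at hx ⊢
        exact ⟨hU _ _ hx.1, fun i' hi' => (hFinv i' i).orth (hρ.comp _) g x (hx.2 i' hi')⟩
      · intro i hi W hW hWi hW0
        by_contra hlt
        apply hW0
        rw [eq_bot_iff]
        intro w hw
        have h3 : IsThreeCycle (cyc (0 : Fin 3) 1 2) := cyc_three (by simp) (by simp) (by simp)
        have := one_dim hWi (by omega) (three_conj h3 h3.isThreeCycle_sq) hw
        rw [MonoidHom.comp_apply, ← tc_eq] at this
        exact inf_orth_eq_zero (U := F i) this (((hU' w).1 (hW hw)).2 i hi)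
    · have hex : ∀ Z' : Finset.powersetCard Z.card (Finset.univ : Finset (Fin r)), ∃ x ∈ U, x ≠ 0 ∧
          (∀ i ∈ Z'.1, x ∈ (F i)ᗮ) ∧ ∀ i ∉ Z'.1, x ∈ F i := by
        rintro ⟨Z', hZ1⟩
        obtain ⟨π, hπ⟩ := Perm.exists_map_finset_eq Z Z' (Finset.mem_powersetCard.1 hZ1).2.symm
        set g := emb j (Equiv.prodCongr π (Equiv.refl _)) with hg
        have hconj : ∀ i, g * tc j i * g⁻¹ = tc j (π i) := by
          intro i; simp only [tc, cyc_conj, hg, emb_apply]; rfl
        have hmem : ∀ i, π i ∈ Z' ↔ i ∈ Z := by intro i; rw [← hπ]; simp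
        refine ⟨ρ g v, hU g v hv, fun h => h0 ?_, fun i hi => ?_, fun i hi => ?_⟩
        · rw [← rho_inv_apply ρ g v, h, map_zero]
        · obtain ⟨i, rfl⟩ := π.surjective i
          rw [Submodule.mem_orthogonal]
          intro u hu
          rw [hρ.right]
          refine (Submodule.mem_orthogonal _ _).1 (hZ i ((hmem i).1 hi)) _ ?_
          simp only [hFdef, mem_Fx, ← hconj, rho_mul] at hu ⊢
          nth_rewrite 2 [← hu]
          rw [rho_inv_apply]
        · obtain ⟨i, rfl⟩ := π.surjective i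
          have := hZ' i fun h => hi ((hmem i).2 h)
          simp only [hFdef, mem_Fx, ← hconj, rho_mul] at this ⊢
          rw [rho_inv_apply, this]
      choose x hxU hx0 hx1 hx2 using hex
      have hli : LinearIndependent ℂ fun Z' => (⟨x Z', hxU Z'⟩ : U) := by
        refine linearIndependent_of_ne_zero_of_inner_eq_zero (fun Z' h => hx0 Z' ?_) ?_
        · exact congrArg Subtype.val h
        · intro A B hAB
          have : ∃ i ∈ B.1, i ∉ A.1 := by
            by_contra hcon
            push Not at hcon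
            apply hAB
            refine Subtype.ext (Finset.eq_of_subset_of_card_le hcon ?_).symm
            rw [(Finset.mem_powersetCard.1 A.2).2, (Finset.mem_powersetCard.1 B.2).2]
          obtain ⟨i, hiB, hiA⟩ := this
          exact (Submodule.mem_orthogonal _ _).1 (hx1 B i hiB) _ (hx2 A i hiA)
      have := hli.fintype_card_le_finrank
      simpa using this)
  intro v hv
  rw [mul_assoc]
  refine le_trans ?_ (mul_le_mul_of_nonneg_left (hmain v hv) (by norm_num))
  rw [Finset.mul_sum]
  refine Finset.sum_le_sum fun i _ => ?_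
  have h1 : ρ (tc j i) ((F i).starProjection v) = (F i).starProjection v :=
    (F i).starProjection_apply_mem v
  have h2 : v - ρ (tc j i) v = (v - (F i).starProjection v) -
      ρ (tc j i) (v - (F i).starProjection v) := by rw [map_sub, h1]; abel
  have h3 := norm_sub_le (v - (F i).starProjection v) (ρ (tc j i) (v - (F i).starProjection v))
  rw [hρ.norm, ← h2] at h3
  have := norm_nonneg (v - ρ (tc j i) v)
  nlinarith

end Vale.Agent.P162
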