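import Vale.Agent.P162.Grow

/-! Uniform polynomial representation growth for symmetric groups. -/

namespace Vale.Agent.P162

open Module Equiv Equiv.Perm
open scoped InnerProductSpace

variable {α : Type} [Fintype α] [DecidableEq α]

lemma R_le_two_pow (x : ℕ) : R (Perm α) x ≤ x * x * 2 ^ Fintype.card α :=
  (R_le_classes (fun g : Perm α => g.partition) (fun _ _ h => partition_eq_of_isConj.2 h) x).trans
    (Nat.mul_le_mul_left _ card_classes)

lemma exists_reps {m : ℕ} (e : Fin m ↪ α) :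
    ∃ t : Finset.powersetCard m (Finset.univ : Finset α) × Bool → Perm α, ∀ g : Perm α,
      ∃ p, ∃ h : Perm (Fin m), ∃ a : Perm α, sign a = 1 ∧ (∀ y ∈ Set.range e, a y = y) ∧
        g = a * emb e h * t p := by
  classical
  have h1 : ∀ M : Finset.powersetCard m (Finset.univ : Finset α), ∃ g : Perm α,
      M.1.map g.toEmbedding = Finset.univ.map e := fun M =>
    Perm.exists_map_finset_eq _ _ (by simp [(Finset.mem_powersetCard.1 M.2).2])
  choose gM hgM using h1
  have h2 : ∃ τ : Perm α, (∀ y ∈ Set.range e, τ y = y) ∧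
      ∀ s : Perm α, (∀ y ∈ Set.range e, s y = y) → sign s = 1 ∨ sign s = sign τ := by
    by_cases h : ∃ τ : Perm α, (∀ y ∈ Set.range e, τ y = y) ∧ sign τ = -1
    · obtain ⟨τ, h1, h2⟩ := h
      exact ⟨τ, h1, fun s _ => by rw [h2]; exact Int.units_eq_one_or _⟩
    · push Not at h
      exact ⟨1, fun _ _ => rfl, fun s hs => Or.inl ((Int.units_eq_one_or _).resolve_right (h s hs))⟩
  obtain ⟨τ, hτ, hτ'⟩ := h2
  refine ⟨fun p => (if p.2 then τ else 1) * gM p.1, fun g => ?_⟩
  let M : Finset.powersetCard m (Finset.univ : Finset α) :=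
    ⟨(Finset.univ.map e).map g⁻¹.toEmbedding, by simp⟩
  obtain ⟨h, hh⟩ := exists_agree e (g * (gM M)⁻¹) (by
    intro b
    have : e b ∈ M.1.map (gM M).toEmbedding := by rw [hgM]; simp
    obtain ⟨z, hz, hz'⟩ := Finset.mem_map.1 this
    obtain ⟨w, hw, rfl⟩ := Finset.mem_map.1 hz
    obtain ⟨c, -, rfl⟩ := Finset.mem_map.1 hw
    refine ⟨c, ?_⟩
    rw [← hz']; simp)
  set s := g * (gM M)⁻¹ * (emb e h)⁻¹ with hs
  have hsf : ∀ y ∈ Set.range e, s y = y := by
    rintro _ ⟨b, rfl⟩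
    rw [hs, Perm.mul_apply, ← map_inv, emb_apply, hh]; simp
  rcases hτ' s hsf with h3 | h3
  · exact ⟨(M, false), h, s, h3, hsf, by simp [hs]⟩
  · have hcomm : Commute τ (emb e h) := by
      apply Equiv.Perm.Disjoint.commute
      intro y
      by_cases hy : y ∈ Set.range e
      · exact Or.inl (hτ y hy)
      · exact Or.inr (emb_not _ _ hy)
    refine ⟨(M, true), h, s * τ⁻¹, by simp [h3], fun y hy => ?_, ?_⟩
    · rw [Perm.mul_apply, Perm.inv_eq_iff_eq.2 (hτ y hy).symm, hsf y hy]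
    · simp only [if_true]
      rw [← mul_assoc, mul_assoc (s * τ⁻¹), ← hcomm.eq, hs]; group

lemma finrank_fix_le {m : ℕ} (e : Fin m ↪ α) (x : ℕ) :
    finrank ℂ (low (reg (Perm α)) x ⊓ Fix (reg (Perm α)) (Finset.univ.map e)ᶜ :
      Submodule ℂ (EuclideanSpace ℂ (Perm α))) ≤
      (Fintype.card α).choose m * 2 * R (Perm (Fin m)) x := by
  classical
  obtain ⟨t, ht⟩ := exists_reps e
  let res : Perm α → EuclideanSpace ℂ (Perm α) →ₗ[ℂ] EuclideanSpace ℂ (Perm (Fin m)) := fun g =>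
    { toFun := fun ψ => WithLp.toLp 2 fun h => ψ (emb e h * g)
      map_add' := fun _ _ => rfl
      map_smul' := fun _ _ => rfl }
  have hres : ∀ g ψ h, res g ψ h = ψ (emb e h * g) := fun _ _ _ => rfl
  set Y : Submodule ℂ (EuclideanSpace ℂ (Perm α)) :=
    low (reg (Perm α)) x ⊓ Fix (reg (Perm α)) (Finset.univ.map e)ᶜ with hY
  have hmem : ∀ g, ∀ ψ ∈ Y, res g ψ ∈ low (reg (Perm (Fin m))) x := by
    intro g ψ hψ
    have h1 : low (reg (Perm α)) x ≤ low ((reg (Perm α)).comp (emb e)) x :=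
      low_le fun U hU hx => le_low (hU.comp _) hx
    refine low_map (ρ := (reg (Perm α)).comp (emb e)) (res g) (fun k v => ?_) x (h1 hψ.1)
    ext h
    simp [hres, mul_assoc]
  let Θ : Y →ₗ[ℂ] (Finset.powersetCard m (Finset.univ : Finset α) × Bool →
      low (reg (Perm (Fin m))) x) :=
    LinearMap.pi fun p => ((res (t p)).domRestrict Y).codRestrict _ fun ψ => hmem _ _ ψ.2
  have hinj : Function.Injective Θ := by
    rw [← LinearMap.ker_eq_bot, eq_bot_iff]
    intro ψ hψ
    refine Subtype.ext ?_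
    ext g
    obtain ⟨p, h, a, sa, ha, rfl⟩ := ht g
    have h1 : res (t p) ψ h = 0 := by
      have := congrArg (fun z => (z p).1 h) (LinearMap.mem_ker.1 hψ)
      exact this
    have h2 := ψ.2.2 a⁻¹ (by simp [sa]) (by
      intro y hy
      rw [Perm.inv_eq_iff_eq, ha]
      simpa using hy)
    have h3 := congrArg (fun z : EuclideanSpace ℂ (Perm α) => z (emb e h * t p)) h2
    simp only [reg_apply, inv_inv] at h3
    rw [hres, ← h3, ← mul_assoc] at h1
    exact h1
  refine (LinearMap.finrank_le_finrank_of_injective hinj).trans (le_of_eq ?_)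
  rw [finrank_pi_fintype]
  simp [R]

theorem R_bound {x : ℕ} (hx : 2 ≤ x) : R (Perm α) x ≤ x ^ 502 := by
  classical
  set n := Fintype.card α with hn
  rcases le_or_gt (x ^ 500) (2 ^ (n + 1)) with h | h
  swap
  · calc R (Perm α) x ≤ x * x * 2 ^ n := R_le_two_pow x
      _ ≤ x * x * x ^ 500 := Nat.mul_le_mul_left _
          ((Nat.pow_le_pow_right (by norm_num) (Nat.le_succ n)).trans h.le)
      _ = _ := by rw [show 502 = 2 + 500 from rfl, pow_add, sq]
  have hL := lev_le (by omega) h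
  obtain ⟨hL1, hL2⟩ := lev_spec n (x := x) (by omega)
  set L := lev n x with hLdef
  obtain ⟨e⟩ : Nonempty (Fin (96 * L) ↪ α) :=
    Function.Embedding.nonempty_of_card_le (by simp; omega)
  have h1 := finrank_low_le (isU_reg (G := Perm α)) (y := x)
    (Fix (reg (Perm α)) (Finset.univ.map e)ᶜ) (by
    intro U hU h0 hUx
    obtain ⟨K, hK1, -, hK2⟩ := level_thm n α rfl _ isU_reg U hU h0 x hUx h
    obtain ⟨K1, hK3, hK4⟩ := Finset.exists_subset_card_eq (s := K) (n := n - 96 * L) (by omega)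
    obtain ⟨σ, hσ⟩ := Perm.exists_map_finset_eq K1 (Finset.univ.map e)ᶜ
      (by rw [hK4, Finset.card_compl]; simp [hn])
    obtain ⟨v, hv, hv0⟩ := Submodule.exists_mem_ne_zero_of_ne_bot hK1
    intro hbot
    apply hv0
    have : reg (Perm α) σ v ∈ U ⊓ Fix (reg (Perm α)) (Finset.univ.map e)ᶜ := by
      refine ⟨hU _ _ hv.1, fun g sg hg => ?_⟩
      have := hv.2 (σ⁻¹ * g * σ) (by simp [sg]) (by
        intro y hy
        rw [Perm.mul_apply, Perm.mul_apply, Perm.inv_eq_iff_eq, hg]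
        rw [← hσ]
        simpa using fun h => hy (hK3 h))
      nth_rewrite 2 [← this]
      rw [← rho_mul, ← rho_mul]; congr 2; group
    rw [hbot] at this
    rw [← rho_inv_apply (reg (Perm α)) σ v, (Submodule.mem_bot ℂ).1 this, map_zero])
  have h2 := finrank_fix_le e x
  have h3 : R (Perm (Fin (96 * L))) x ≤ x * x * x ^ 96 := by
    refine (R_le_two_pow x).trans (Nat.mul_le_mul_left _ ?_)
    rw [Fintype.card_fin, mul_comm, pow_mul]
    exact Nat.pow_le_pow_left hL1 96
  have h4 : n.choose (96 * L) ≤ (x * x * x) ^ 96 := by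
    refine (choose_bound n (n / 3) L 96 (by omega)).trans (Nat.pow_le_pow_left ?_ 96)
    refine Nat.mul_le_mul ?_ hL2
    rw [show 4 = 2 * 2 from rfl, mul_pow]
    exact Nat.mul_le_mul hL1 hL1
  calc R (Perm α) x ≤ x * (n.choose (96 * L) * 2 * R (Perm (Fin (96 * L))) x) :=
        h1.trans (Nat.mul_le_mul_left _ h2)
    _ ≤ x * ((x * x * x) ^ 96 * x * (x * x * x ^ 96)) :=
        Nat.mul_le_mul_left _ (Nat.mul_le_mul (Nat.mul_le_mul h4 hx) h3)
    _ = x ^ 388 := by
        rw [show x * x * x = x ^ 3 by ring, ← pow_mul, show 388 = 1 + (3 * 96 + 1 + (2 + 96)) from rfl]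
        simp only [pow_add, pow_one, sq]
    _ ≤ _ := Nat.pow_le_pow_right (by omega) (by norm_num)

variable {E : Type*} [NormedAddCommGroup E] [InnerProductSpace ℂ E] [FiniteDimensional ℂ E]

theorem low_le_fix {ρ : Perm α →* End ℂ E} (hρ : IsU ρ) {x : ℕ} (hx : 1 ≤ x)
    (h : 6 * x ≤ Fintype.card α) : low ρ x ≤ Fix ρ Finset.univ := by
  refine low_le fun U hU hUx => le_fix_univ fun c hc v hv => ?_
  obtain ⟨j⟩ := exists_grid α (2 * x) 3 (by omega)
  have h1 := fun w hw => level_ineq hρ j hU 0 (by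
    intro s hs h1 h2
    rcases s with _ | s
    · exact le_rfl
    exfalso
    have h3 : s + 1 < 2 ^ (s + 1) := Nat.lt_two_pow_self
    have h4 := le_choose_add s (2 * x - (s + 1))
    rw [Nat.add_sub_cancel' hs] at h4
    omega) w hw
  obtain ⟨g, hg⟩ := isConj_iff.1 (three_conj (tc_three j ⟨0, by omega⟩) hc)
  have h2 := h1 _ (hU g⁻¹ v hv)
  simp only [Nat.cast_zero, mul_zero, zero_mul] at h2
  have h3 := (Finset.sum_eq_zero_iff_of_nonneg fun i _ => sq_nonneg _).1
    (le_antisymm h2 (Finset.sum_nonneg fun i _ => sq_nonneg _)) ⟨0, by omega⟩ (Finset.mem_univ _)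
  have h4 := sub_eq_zero.1 (norm_eq_zero.1 (pow_eq_zero_iff (two_ne_zero)|>.1 h3))
  rw [← hg, rho_mul, rho_mul, ← h4, rho_apply_inv]

end Vale.Agent.P162
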