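import Mathlib

/-! The swap process with prescribed directions and the conditional law of one more card. -/

namespace Vale.Agent.P162

open Equiv

/-- uniform average -/
noncomputable def av {C : Type*} [Fintype C] (f : C → ℝ) : ℝ := (∑ c, f c) / Fintype.card C

section av
variable {C : Type*} [Fintype C]

lemma av_mono {f g : C → ℝ} (h : ∀ c, f c ≤ g c) : av f ≤ av g :=
  div_le_div_of_nonneg_right (Finset.sum_le_sum fun c _ => h c) (Nat.cast_nonneg _)

lemma av_add (f g : C → ℝ) : av (fun c => f c + g c) = av f + av g := by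
  simp [av, Finset.sum_add_distrib, add_div]

lemma av_mul (a : ℝ) (f : C → ℝ) : av (fun c => a * f c) = a * av f := by
  simp [av, ← Finset.mul_sum, mul_div_assoc]

lemma av_const [Nonempty C] (a : ℝ) : av (fun _ : C => a) = a := by
  have : (Fintype.card C : ℝ) ≠ 0 := by exact_mod_cast Fintype.card_ne_zero
  simp [av]

lemma av_equiv (e : C ≃ C) (f : C → ℝ) : av (fun c => f (e c)) = av f := by
  simp [av, Equiv.sum_comp e f]

lemma av_sum {ι : Type*} (s : Finset ι) (f : ι → C → ℝ) :
    av (fun c => ∑ i ∈ s, f i c) = ∑ i ∈ s, av (f i) := by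
  simp only [av]; rw [Finset.sum_comm, Finset.sum_div]

end av

variable {V : Type} [AddCommGroup V] [Module (ZMod 2) V]

lemma z2 (a : ZMod 2) : a + a = 0 := by revert a; decide

lemma z2cases (a : ZMod 2) : a = 0 ∨ a = 1 := by revert a; decide

lemma vv (x : V) : x + x = 0 := by
  rw [← one_smul (ZMod 2) x, ← add_smul, z2, zero_smul]

lemma vKK (x K : V) : x + K + K = x := by rw [add_assoc, vv, add_zero]

/-- translation as a permutation -/
def tr (K : V) : Perm V := Equiv.addRight K

/-- one layer of switches in direction `K` -/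
def sw (K : V) (c : V → ZMod 2) : Perm V :=
  Function.Involutive.toPerm (fun x => x + (c x + c (x + K)) • K) (by
    intro x
    rcases z2cases (c x + c (x + K)) with h | h
    · simp [h]
    · simp only [h, one_smul, vKK]
      rw [add_comm (c (x + K)), h, one_smul, vKK])

lemma sw_apply (K : V) (c : V → ZMod 2) (x : V) : sw K c x = x + (c x + c (x + K)) • K := rfl

lemma sw_sw (K : V) (c : V → ZMod 2) (x : V) : sw K c (sw K c x) = x :=
  (sw K c).left_inv x

lemma sw_inv (K : V) (c : V → ZMod 2) (x : V) : (sw K c)⁻¹ x = sw K c x := rfl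

lemma sw_cases (K : V) (c : V → ZMod 2) (x : V) : sw K c x = x ∨ sw K c x = x + K := by
  rw [sw_apply]
  rcases z2cases (c x + c (x + K)) with h | h <;> simp [h]

variable [DecidableEq V]

/-- both sites of the pair are free -/
def FF (S : Finset V) (K : V) (h : Perm V) (y : V) : Prop := h⁻¹ y ∉ S ∧ h⁻¹ (y + K) ∉ S

instance (S : Finset V) (K : V) (h : Perm V) (y : V) : Decidable (FF S K h y) := by
  unfold FF; infer_instance

omit [DecidableEq V] in
lemma FF_add (S : Finset V) (K : V) (h : Perm V) (y : V) : FF S K h (y + K) ↔ FF S K h y := by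
  simp [FF, vKK, and_comm]

omit [DecidableEq V] in
lemma FF_sw (S : Finset V) (K : V) (h : Perm V) (c : V → ZMod 2) (y : V) :
    FF S K h (sw K c y) ↔ FF S K h y := by
  rcases sw_cases K c y with e | e <;> rw [e]
  exact FF_add S K h y

/-- update of the state -/
noncomputable def upd (S : Finset V) (K : V) (c : V → ZMod 2) (s : Perm V × (V → ℝ)) :
    Perm V × (V → ℝ) :=
  (sw K c * s.1, fun y => if FF S K s.1 y then (s.2 y + s.2 (y + K)) / 2 else s.2 (sw K c y))

variable [Fintype V]

/-- expectation of a function of the state -/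
noncomputable def ES (S : Finset V) (K : ℕ → V) (p : V → ℝ) :
    ℕ → (Perm V × (V → ℝ) → ℝ) → ℝ
  | 0, Φ => Φ (1, p)
  | T + 1, Φ => ES S K p T fun s => av fun c => Φ (upd S (K T) c s)

/-- expectation of a function of the permutation -/
noncomputable def EX (K : ℕ → V) : ℕ → (Perm V → ℝ) → ℝ
  | 0, Φ => Φ 1
  | T + 1, Φ => EX K T fun h => av fun c => Φ (sw (K T) c * h)

variable {S : Finset V} {K : ℕ → V} {p : V → ℝ}

lemma ES_fst (T : ℕ) (Φ : Perm V → ℝ) : ES S K p T (fun s => Φ s.1) = EX K T Φ := by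
  induction T generalizing Φ with
  | zero => rfl
  | succ T ih => exact ih fun h => av fun c => Φ (sw (K T) c * h)

lemma ES_add (T : ℕ) (Φ Ψ : Perm V × (V → ℝ) → ℝ) :
    ES S K p T (fun s => Φ s + Ψ s) = ES S K p T Φ + ES S K p T Ψ := by
  induction T generalizing Φ Ψ with
  | zero => rfl
  | succ T ih => simp only [ES, av_add, ih]

lemma ES_mul (T : ℕ) (a : ℝ) (Φ : Perm V × (V → ℝ) → ℝ) :
    ES S K p T (fun s => a * Φ s) = a * ES S K p T Φ := by
  induction T generalizing Φ with
  | zero => rfl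
  | succ T ih => simp only [ES, av_mul, ih]

lemma ES_const (T : ℕ) (a : ℝ) : ES S K p T (fun _ => a) = a := by
  induction T with
  | zero => rfl
  | succ T ih => simp only [ES, av_const, ih]

lemma ES_sum {ι : Type*} (s : Finset ι) (T : ℕ) (Φ : ι → Perm V × (V → ℝ) → ℝ) :
    ES S K p T (fun x => ∑ i ∈ s, Φ i x) = ∑ i ∈ s, ES S K p T (Φ i) := by
  induction T generalizing Φ with
  | zero => rfl
  | succ T ih => simp only [ES, av_sum, ih]

lemma ES_congr {K' : ℕ → V} (T : ℕ) (h : ∀ t < T, K t = K' t) (Φ : Perm V × (V → ℝ) → ℝ) :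
    ES S K p T Φ = ES S K' p T Φ := by
  induction T generalizing Φ with
  | zero => rfl
  | succ T ih =>
    simp only [ES]
    rw [h T (Nat.lt_succ_self T), ih fun t ht => h t (Nat.lt_succ_of_lt ht)]

lemma EX_mono (T : ℕ) {Φ Ψ : Perm V → ℝ} (h : ∀ g, Φ g ≤ Ψ g) : EX K T Φ ≤ EX K T Ψ := by
  induction T generalizing Φ Ψ with
  | zero => exact h 1
  | succ T ih => exact ih fun g => av_mono fun c => h _

lemma EX_const (T : ℕ) (a : ℝ) : EX K T (fun _ => a) = a := by
  rw [← ES_fst (S := ∅) (p := 0)]; exact ES_const T a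

/-- invariants of the centred conditional law -/
def Good (S : Finset V) (s : Perm V × (V → ℝ)) : Prop :=
  (∀ y, s.1⁻¹ y ∈ S → s.2 y = 0) ∧ ∑ y, s.2 y = 0 ∧ ∑ y, s.2 y ^ 2 ≤ 1

lemma sum_FF_add (K : V) (h : Perm V) (f : V → ℝ) :
    ∑ y, (if FF S K h y then f (y + K) else 0) = ∑ y, if FF S K h y then f y else 0 := by
  rw [← Equiv.sum_comp (Equiv.addRight K)]
  simp [FF_add, vKK]

lemma sum_nFF_sw (K : V) (h : Perm V) (c : V → ZMod 2) (f : V → ℝ) :
    ∑ y, (if FF S K h y then 0 else f (sw K c y)) = ∑ y, if FF S K h y then 0 else f y := by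
  rw [← Equiv.sum_comp (sw K c)]
  simp [FF_sw, sw_sw]

omit [Module (ZMod 2) V] in
lemma sum_split (K : V) (h : Perm V) (f : V → ℝ) :
    ∑ y, f y = ∑ y, (if FF S K h y then f y else 0) + ∑ y, if FF S K h y then 0 else f y := by
  rw [← Finset.sum_add_distrib]
  refine Finset.sum_congr rfl fun y _ => ?_
  split_ifs <;> simp

lemma sum_upd (K : V) (c : V → ZMod 2) (s : Perm V × (V → ℝ)) :
    ∑ y, (upd S K c s).2 y = ∑ y, s.2 y := by
  have h1 := sum_FF_add (S := S) K s.1 s.2
  have h2 := sum_nFF_sw (S := S) K s.1 c s.2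
  have h3 := sum_split (S := S) K s.1 s.2
  have : ∑ y, (upd S K c s).2 y = (∑ y, (if FF S K s.1 y then s.2 y else 0) +
      ∑ y, (if FF S K s.1 y then s.2 (y + K) else 0)) / 2 +
      ∑ y, (if FF S K s.1 y then 0 else s.2 (sw K c y)) := by
    rw [← Finset.sum_add_distrib, Finset.sum_div, ← Finset.sum_add_distrib]
    refine Finset.sum_congr rfl fun y _ => ?_
    simp only [upd]
    split_ifs <;> simp
  linarith

lemma sq_upd (K : V) (c : V → ZMod 2) (s : Perm V × (V → ℝ)) :
    ∑ y, (upd S K c s).2 y ^ 2 = ∑ y, s.2 y ^ 2 -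
      (∑ y, if FF S K s.1 y then s.2 y ^ 2 else 0) / 2 +
      (∑ y, if FF S K s.1 y then s.2 y * s.2 (y + K) else 0) / 2 := by
  have h1 := sum_FF_add (S := S) K s.1 fun y => s.2 y ^ 2
  have h2 := sum_nFF_sw (S := S) K s.1 c fun y => s.2 y ^ 2
  have h3 := sum_split (S := S) K s.1 fun y => s.2 y ^ 2
  have : ∑ y, (upd S K c s).2 y ^ 2 = (∑ y, (if FF S K s.1 y then s.2 y ^ 2 else 0) +
      ∑ y, (if FF S K s.1 y then s.2 (y + K) ^ 2 else 0)) / 4 +
      (∑ y, if FF S K s.1 y then s.2 y * s.2 (y + K) else 0) / 2 +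
      ∑ y, (if FF S K s.1 y then 0 else s.2 (sw K c y) ^ 2) := by
    rw [← Finset.sum_add_distrib, Finset.sum_div, Finset.sum_div, ← Finset.sum_add_distrib,
      ← Finset.sum_add_distrib]
    refine Finset.sum_congr rfl fun y _ => ?_
    simp only [upd]
    split_ifs <;> ring
  linarith

lemma sq_upd_le (K : V) (c : V → ZMod 2) (s : Perm V × (V → ℝ)) :
    ∑ y, (upd S K c s).2 y ^ 2 ≤ ∑ y, s.2 y ^ 2 := by
  rw [sq_upd]
  have h1 := sum_FF_add (S := S) K s.1 fun y => s.2 y ^ 2
  have : 2 * (∑ y, if FF S K s.1 y then s.2 y * s.2 (y + K) else 0) ≤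
      ∑ y, (if FF S K s.1 y then s.2 y ^ 2 else 0) +
      ∑ y, (if FF S K s.1 y then s.2 (y + K) ^ 2 else 0) := by
    rw [← Finset.sum_add_distrib, Finset.mul_sum]
    refine Finset.sum_le_sum fun y _ => ?_
    split_ifs
    · nlinarith [sq_nonneg (s.2 y - s.2 (y + K))]
    · simp
  linarith

lemma Good.upd {s : Perm V × (V → ℝ)} (hs : Good S s) (K : V) (c : V → ZMod 2) :
    Good S (upd S K c s) := by
  refine ⟨fun y hy => ?_, by rw [sum_upd, hs.2.1], (sq_upd_le K c s).trans hs.2.2⟩
  have h1 : s.1⁻¹ (sw K c y) ∈ S := hy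
  have h2 : ¬ FF S K s.1 y := fun h => ((FF_sw S K s.1 c y).2 h).1 h1
  simp only [P162.upd, h2, if_false]
  exact hs.1 _ h1

lemma ES_mono (hp : Good S (1, p)) (T : ℕ) {Φ Ψ : Perm V × (V → ℝ) → ℝ}
    (h : ∀ s, Good S s → Φ s ≤ Ψ s) : ES S K p T Φ ≤ ES S K p T Ψ := by
  induction T generalizing Φ Ψ with
  | zero => exact h _ hp
  | succ T ih => exact ih fun s hs => av_mono fun c => h _ (hs.upd _ c)

/-- the key identity: `p` is the conditional law of one more card -/
lemma cond_law (T : ℕ) (hK : ∀ t < T, K t ≠ 0) (Φ : Perm V → V → ℝ)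
    (hΦ : ∀ g g' : Perm V, (∀ s ∈ S, g s = g' s) → Φ g = Φ g') :
    EX K T (fun h => ∑ y, p y * Φ h (h y)) = ES S K p T fun s => ∑ y, s.2 y * Φ s.1 y := by
  induction T generalizing Φ with
  | zero => rfl
  | succ T ih =>
    have hk := hK T (Nat.lt_succ_self T)
    have := ih (fun t ht => hK t (Nat.lt_succ_of_lt ht))
      (fun g y => av fun c => Φ (sw (K T) c * g) (sw (K T) c y)) (by
        intro g g' h
        funext y
        congr 1; funext c
        rw [hΦ (sw (K T) c * g) (sw (K T) c * g') fun s hs => by simp [h s hs]])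
    simp only [EX, ES, av_sum, av_mul, Perm.mul_apply]
    rw [this]
    congr 1; funext s
    simp only [← av_mul, ← av_sum]
    have e1 : ∀ c, ∑ y, s.2 y * Φ (sw (K T) c * s.1) (sw (K T) c y) =
        ∑ y, s.2 (sw (K T) c y) * Φ (sw (K T) c * s.1) y := by
      intro c
      rw [← Equiv.sum_comp (sw (K T) c)]
      simp [sw_sw]
    simp only [e1, av_sum]
    refine Finset.sum_congr rfl fun y _ => ?_
    by_cases hF : FF S (K T) s.1 y
    swap
    · simp only [upd, hF, if_false]
    simp only [upd, hF, if_true]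
    set k := K T
    have hyk : y + k ≠ y := by simpa using hk
    have e2 : ∀ c : V → ZMod 2, Φ (sw k (c + Pi.single y 1) * s.1) = Φ (sw k c * s.1) := by
      intro c
      refine hΦ _ _ fun z hz => ?_
      have a1 : s.1 z ≠ y := by rintro rfl; exact hF.1 (by simpa using hz)
      have a2 : s.1 z + k ≠ y := by rintro rfl; exact hF.2 (by simpa [vKK] using hz)
      simp [sw_apply, a1, a2]
    have e3 : ∀ c : V → ZMod 2, s.2 (sw k (c + Pi.single y 1) y) + s.2 (sw k c y) =
        s.2 y + s.2 (y + k) := by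
      intro c
      simp only [sw_apply, Pi.add_apply, Pi.single_eq_same, Pi.single_eq_of_ne hyk, add_zero]
      rw [add_right_comm]
      rcases z2cases (c y + c (y + k)) with h | h
      · simp [h, add_comm]
      · simp [h, z2]
    have e4 := av_equiv (Equiv.addRight (Pi.single y (1 : ZMod 2) : V → ZMod 2))
      fun c => s.2 (sw k c y) * Φ (sw k c * s.1) y
    simp only [Equiv.coe_addRight, e2] at e4
    have e5 : av (fun c => (s.2 y + s.2 (y + k)) / 2 * Φ (sw k c * s.1) y) =
        av fun c => 1 / 2 * (s.2 (sw k (c + Pi.single y 1) y) * Φ (sw k c * s.1) y) +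
          1 / 2 * (s.2 (sw k c y) * Φ (sw k c * s.1) y) := by
      congr 1; funext c; rw [← e3 c]; ring
    rw [e5, av_add, av_mul, av_mul, e4]; ring

end Vale.Agent.P162
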