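import Vale.Agent.P162.Conv
import Vale.Agent.P162.RBound
import Vale.Agent.P162.Swap

/-! From mixing of long lists to mixing of the whole permutation. -/

namespace Vale.Agent.P162

open Module Equiv Equiv.Perm
open scoped InnerProductSpace

variable {α : Type} [Fintype α] [DecidableEq α]

lemma truncate {κ β : Type} [Fintype κ] [Fintype β] [DecidableEq β] (e : κ → β ↪ α)
    {μ : Perm α → ℝ} (h0 : ∀ g, 0 ≤ μ g) {δ : ℝ}
    (hl : ∀ i, ∀ Φ : Perm α → ℝ, (∀ g, |Φ g| ≤ 1) →
      (∀ g g' : Perm α, (∀ s ∉ Set.range (e i), g s = g' s) → Φ g = Φ g') →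
      ∑ g, μ g * Φ g ≤ av Φ + δ) :
    ∃ μ' : Perm α → ℝ, (∀ g, 0 ≤ μ' g) ∧ (∀ g, μ' g ≤ μ g) ∧
      ∑ g, (μ g - μ' g) ≤ Fintype.card κ * (2 * δ) ∧
      ∀ i g, Fintype.card (Perm α) * ∑ h, μ' (g * emb (e i) h) ≤ 2 * Fintype.card (Perm β) := by
  classical
  have hN : (0 : ℝ) < Fintype.card (Perm α) := by exact_mod_cast Fintype.card_pos
  have hH : (0 : ℝ) < Fintype.card (Perm β) := by exact_mod_cast Fintype.card_pos
  let bad : κ → Perm α → Prop := fun i g =>
    2 * (Fintype.card (Perm β) : ℝ) < Fintype.card (Perm α) * ∑ h, μ (g * emb (e i) h)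
  have hbad : ∀ i g h, bad i (g * emb (e i) h) ↔ bad i g := by
    intro i g h
    have : ∑ h', μ (g * emb (e i) h * emb (e i) h') = ∑ h', μ (g * emb (e i) h') := by
      rw [← Equiv.sum_comp (Equiv.mulLeft h) fun h' => μ (g * emb (e i) h')]
      simp [mul_assoc]
    simp only [bad, this]
  have hmass : ∀ i, ∑ g, μ g * (if bad i g then 1 else 0) ≤ 2 * δ := by
    intro i
    have h1 := hl i (fun g => if bad i g then 1 else 0) (fun g => by split_ifs <;> simp) (by
      intro g g' h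
      obtain ⟨k, hk⟩ := exists_emb (e i) (g⁻¹ * g') fun x hx => by
        rw [Perm.mul_apply, ← h x hx]; simp
      have : g' = g * emb (e i) k := by rw [hk]; group
      simp only [this, hbad])
    have h2 : Fintype.card (Perm β) * ∑ g, μ g * (if bad i g then 1 else 0) =
        ∑ g, (∑ h, μ (g * emb (e i) h)) * (if bad i g then 1 else 0) := by
      simp only [Finset.sum_mul]
      rw [Finset.sum_comm]
      have : ∀ h : Perm β, ∑ g, μ (g * emb (e i) h) * (if bad i g then 1 else 0) =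
          ∑ g, μ g * (if bad i g then 1 else 0) := by
        intro h
        rw [← Equiv.sum_comp (Equiv.mulRight (emb (e i) h)) fun g => μ g * _]
        simp only [Equiv.coe_mulRight, hbad]
      simp [-mul_ite, this]
    have h3 : 2 * Fintype.card (Perm β) * ∑ g, (if bad i g then (1 : ℝ) else 0) ≤
        Fintype.card (Perm α) * ∑ g, (∑ h, μ (g * emb (e i) h)) * (if bad i g then 1 else 0) := by
      rw [Finset.mul_sum, Finset.mul_sum]
      refine Finset.sum_le_sum fun g _ => ?_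
      split_ifs with hb
      · simpa using le_of_lt hb
      · simp
    rw [← h2] at h3
    have h4 : 2 * av (fun g => if bad i g then (1 : ℝ) else 0) ≤
        ∑ g, μ g * (if bad i g then 1 else 0) := by
      rw [av, ← mul_div_assoc, div_le_iff₀ hN]
      refine le_of_mul_le_mul_left ?_ hH
      linarith
    linarith
  refine ⟨fun g => if ∃ i, bad i g then 0 else μ g, fun g => ?_, fun g => ?_, ?_, fun i g => ?_⟩
  · beta_reduce
    split_ifs
    · exact le_rfl
    · exact h0 g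
  · beta_reduce
    split_ifs
    · exact h0 g
    · exact le_rfl
  · calc _ ≤ ∑ g, ∑ i, μ g * (if bad i g then 1 else 0) := by
          refine Finset.sum_le_sum fun g _ => ?_
          have hn : ∀ i, 0 ≤ μ g * (if bad i g then 1 else 0) := fun i =>
            mul_nonneg (h0 g) (by split_ifs <;> simp)
          beta_reduce
          split_ifs with hb
          · obtain ⟨i, hi⟩ := hb
            refine le_trans ?_ (Finset.single_le_sum (fun i _ => hn i) (Finset.mem_univ i))
            simp [hi]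
          · simpa [-mul_ite] using Finset.sum_nonneg fun i _ => hn i
      _ ≤ ∑ i : κ, 2 * δ := by rw [Finset.sum_comm]; exact Finset.sum_le_sum fun i _ => hmass i
      _ = _ := by simp
  · by_cases hb : bad i g
    · rw [Finset.sum_eq_zero fun h _ => if_pos ⟨i, (hbad i g h).2 hb⟩, mul_zero]; positivity
    · refine le_trans (mul_le_mul_of_nonneg_left (Finset.sum_le_sum fun h _ => ?_) hN.le)
        (not_lt.1 hb)
      beta_reduce
      split_ifs
      · exact h0 _
      · exact le_rfl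

lemma orth_fix {τ : Perm α} (hτ : sign τ = -1) {f : Perm α → ℝ} (h1 : ∑ g, f g = 0)
    (h2 : ∑ g, f g * ((sign g : ℤ) : ℝ) = 0) : toV f ∈ (Fix (reg (Perm α)) Finset.univ)ᗮ := by
  rw [Submodule.mem_orthogonal']
  intro u hu
  have ha : ∀ a g : Perm α, sign a = 1 → u (a * g) = u g := by
    intro a g sa
    have := congrArg (fun z : EuclideanSpace ℂ (Perm α) => z g) (hu a⁻¹ (by simp [sa]) (by simp))
    simpa using this
  have hu' : ∀ g, u g = (u 1 + u τ) / 2 + (((sign g : ℤ) : ℝ) : ℂ) * ((u 1 - u τ) / 2) := by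
    intro g
    rcases Int.units_eq_one_or (sign g) with h | h
    · have := ha g 1 h
      rw [mul_one] at this
      rw [this, h]; simp; ring
    · have := ha (g * τ⁻¹) τ (by simp [h, hτ])
      rw [inv_mul_cancel_right] at this
      rw [this, h]; simp; ring
  have h1' : ∑ g, (f g : ℂ) = 0 := by exact_mod_cast h1
  have h2' : ∑ g, (f g : ℂ) * (((sign g : ℤ) : ℝ) : ℂ) = 0 := by exact_mod_cast h2
  have : ⟪toV f, u⟫_ℂ = (∑ g, (f g : ℂ)) * ((u 1 + u τ) / 2) +
      (∑ g, (f g : ℂ) * (((sign g : ℤ) : ℝ) : ℂ)) * ((u 1 - u τ) / 2) := by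
    rw [PiLp.inner_apply, Finset.sum_mul, Finset.sum_mul, ← Finset.sum_add_distrib]
    refine Finset.sum_congr rfl fun g _ => ?_
    rw [hu' g]
    simp [toV]; ring
  rw [this, h1', h2']; simp

lemma half_pow {a b c : ℕ} (h : a + c ≤ b) : (2 : ℝ) ^ a * (1 / 2) ^ b ≤ (1 / 2) ^ c := by
  obtain ⟨r, rfl⟩ := Nat.exists_eq_add_of_le h
  rw [pow_add, pow_add, ← mul_assoc, ← mul_assoc, ← mul_pow, show (2 : ℝ) * (1 / 2) = 1 by norm_num,
    one_pow, one_mul]
  exact mul_le_of_le_one_right (by positivity) (pow_le_one₀ (by norm_num) (by norm_num))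

theorem l2_part {b : ℕ} (j : Fin 2008 × Fin b ↪ α) {w : ℕ} (hw : w = 2)
    (hn : 6 * 2 ^ (2008 * (0 + w)) ≤ Fintype.card α) {μ : Perm α → ℝ} (h0 : ∀ g, 0 ≤ μ g) (h1 : ∑ g, μ g ≤ 1)
    (hD : ∀ i g, Fintype.card (Perm α) * ∑ h, μ (g * emb (blk j i) h) ≤
      2 * Fintype.card (Perm (Fin b)))
    {f : Perm α → ℝ} (hf : toV f ∈ (Fix (reg (Perm α)) Finset.univ)ᗮ) (hf1 : ∑ g, |f g| ≤ 2)
    {k : ℕ} (hk : k = 1507) : ∑ g, |(conv μ)^[k] f g| ≤ 1 / 4 := by
  set ρ := reg (Perm α) with hρ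
  let W : ℕ → Submodule ℂ (EuclideanSpace ℂ (Perm α)) := fun i => low ρ (2 ^ (2008 * (i + w)))
  have hW : ∀ i, W i ≤ W (i + 1) := fun i =>
    low_mono _ (Nat.pow_le_pow_right (by norm_num) (by omega))
  let θ : ℕ → ℝ := fun i => (1 / 2) ^ (502 * (i + 2))
  have hθ : ∀ i, 0 ≤ θ i := fun i => by positivity
  have hop : ∀ i, ∀ v ∈ W (i + 1) ⊓ (W i)ᗮ, ‖op ρ μ v‖ ≤ θ i * ‖v‖ := by
    intro i v hv
    have := tp_bound isU_reg (fun i => emb (blk j i)) (blk_commute j) (op ρ μ) (θ i / 2008)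
      (by positivity) (2 ^ (2008 * (i + w))) (2 ^ (i + 3)) (2 ^ (2008 * (i + 1 + w))) (by
        rw [Fintype.card_fin, show 2008 * (i + 1 + w) = (i + 3) * 2008 by omega, pow_mul]
        exact Nat.pow_lt_pow_left (Nat.lt_succ_self _) (by norm_num)) (by
        intro i' v hv hv'
        have h2 := fourier_block isU_reg (emb (blk j i')) μ h0 h1 2 (hD i') _ _ hv hv'
        have h3 : (R (Perm (Fin b)) (2 ^ (i + 3)) : ℝ) ≤ 2 ^ (502 * (i + 3)) := by
          have := R_bound (α := Fin b) (x := 2 ^ (i + 3))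
            (Nat.le_self_pow (by omega) 2)
          rw [← pow_mul, mul_comm] at this
          exact_mod_cast this
        refine le_of_sq_le_sq ?_ (mul_nonneg (div_nonneg (hθ i) (by norm_num)) (norm_nonneg _))
        have h4 : (0 : ℝ) < 2 ^ (2008 * (i + 2)) := by positivity
        refine le_of_mul_le_mul_left ?_ h4
        push_cast at h2
        rw [hw] at h2
        have h5 : (2 : ℝ) ^ (23 + 502 * (i + 3)) * (1 / 2) ^ (2008 * (i + 2)) ≤ θ i ^ 2 := by
          simp only [θ, ← pow_mul]; exact half_pow (by omega)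
        have h6 : (2 : ℝ) * 2 ^ (502 * (i + 3)) ≤ 2 ^ (2008 * (i + 2)) * (θ i / 2008) ^ 2 := by
          have a1 := mul_le_mul_of_nonneg_left h5 h4.le
          rw [mul_left_comm, ← mul_pow, pow_add] at a1
          norm_num at a1
          rw [div_pow, ← mul_div_assoc, le_div_iff₀ (by norm_num)]
          have : (0 : ℝ) < 2 ^ (502 * (i + 3)) := by positivity
          nlinarith
        have h7 := sq_nonneg ‖op ρ μ v‖
        have h8 := mul_le_mul_of_nonneg_right h6 (sq_nonneg ‖v‖)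
        have h9 := mul_le_mul_of_nonneg_right h3 (sq_nonneg ‖v‖)
        rw [mul_pow]
        nlinarith) hv.1 hv.2
    rw [Fintype.card_fin] at this
    refine this.trans (le_of_eq ?_)
    push_cast; ring
  have hpow := fun i => pow_bound (op ρ μ) (fun v hv =>
    ((low_inv ρ _).inf ((low_inv ρ _).orth isU_reg)).op_mem μ hv) (hθ i) (hop i) k
  have hψ : toV f ∈ (W 0)ᗮ :=
    Submodule.orthogonal_le (low_le_fix isU_reg Nat.one_le_two_pow hn) hf
  have hband := band_sum W hW (op ρ μ ^ k) (fun i => θ i ^ k) (fun i => by positivity)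
    (fun i v hv hv' => hpow i v ⟨hv, hv'⟩) hψ (Fintype.card (Perm α))
  have htop : W (Fintype.card (Perm α)) = ⊤ := by
    refine eq_top_iff.2 (le_low (inv_top ρ) ?_)
    rw [finrank_top, finrank_euclideanSpace]
    exact Nat.lt_two_pow_self.le.trans (Nat.pow_le_pow_right (by norm_num) (by omega))
  have hself : (W (Fintype.card (Perm α))).starProjection (toV f) = toV f :=
    Submodule.starProjection_eq_self_iff.2 (by rw [htop]; trivial)
  rw [hself, op_pow_toV] at hband
  refine (l1_le_l2 _).trans ((mul_le_mul_of_nonneg_left hband (Real.sqrt_nonneg _)).trans ?_)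
  rw [Finset.mul_sum]
  calc _ ≤ ∑ i ∈ Finset.range (Fintype.card (Perm α)), 1 / 8 * (1 / 2 : ℝ) ^ i := by
        refine Finset.sum_le_sum fun i _ => ?_
        have h2 := proj_toV_le (low_inv ρ (2 ^ (2008 * (i + 1 + w))))
          (B := 2 ^ (504008 * (i + 3))) (by positivity) (by
            have := R_bound (α := α) (x := 2 ^ (2008 * (i + 1 + w))) (Nat.le_self_pow (by omega) 2)
            rw [← pow_mul] at this ⊢
            rw [show 504008 * (i + 3) * 2 = 2008 * (i + 1 + w) * 502 by omega]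
            exact_mod_cast this) f
        have h3 : (2 : ℝ) ^ (504008 * (i + 3) + 1) * θ i ^ k ≤ 1 / 8 * (1 / 2 : ℝ) ^ i := by
          simp only [θ, ← pow_mul]
          refine (half_pow (c := 3 + i) (by rw [hk]; omega)).trans (le_of_eq ?_)
          rw [pow_add]; norm_num
        refine le_trans ?_ h3
        rw [mul_left_comm, mul_comm]
        refine mul_le_mul_of_nonneg_right (h2.trans ?_) (by positivity)
        rw [pow_succ]
        exact mul_le_mul_of_nonneg_left hf1 (by positivity)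
    _ ≤ 1 / 4 := by
        rw [← Finset.mul_sum]
        have := sum_geometric_two_le (Fintype.card (Perm α))
        linarith

theorem mix_of_lists {b : ℕ} (j : Fin 2008 × Fin b ↪ α) {w : ℕ} (hw : w = 2)
    (hn : 6 * 2 ^ (2008 * (0 + w)) ≤ Fintype.card α) {ξ : Perm α → ℝ} (h0 : ∀ g, 0 ≤ ξ g) (h1 : ∑ g, ξ g = 1)
    (hs : ∑ g, ξ g * ((sign g : ℤ) : ℝ) = 0) (T : ℕ) {δ : ℝ} (hδ : δ ≤ 1 / 10 ^ 8)
    (hl : ∀ i, ∀ Φ : Perm α → ℝ, (∀ g, |Φ g| ≤ 1) →
      (∀ g g' : Perm α, (∀ s ∉ Set.range (blk j i), g s = g' s) → Φ g = Φ g') →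
      ∑ g, cpow ξ T g * Φ g ≤ av Φ + δ) {k : ℕ} (hk : k = 1507) :
    tvUnif (cpow ξ (k * T + 1)) ≤ 1 / 4 := by
  obtain ⟨μ', a0, a1, a2, a3⟩ := truncate (blk j) (cpow_nonneg h0 T) hl
  have hN : (0 : ℝ) < Fintype.card (Perm α) := by exact_mod_cast Fintype.card_pos
  set u : ℝ := 1 / Fintype.card (Perm α) with hu
  have hu0 : 0 ≤ u := by positivity
  have hu1 : ∑ _g : Perm α, u = 1 := by simp [hu]
  have hf1 : ∑ g, |ξ g - u| ≤ 2 := by
    calc _ ≤ ∑ g, (ξ g + u) := Finset.sum_le_sum fun g _ => by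
          refine (abs_sub _ _).trans ?_
          rw [abs_of_nonneg (h0 g), abs_of_nonneg hu0]
      _ = 2 := by rw [Finset.sum_add_distrib, h1, hu1]; norm_num
  obtain ⟨x, y, hxy⟩ := Fintype.exists_pair_of_one_lt_card (α := α)
    (lt_of_lt_of_le (by have : 0 < 2 ^ (2008 * (0 + w)) := Nat.two_pow_pos _; omega) hn)
  have hsum : ∑ g : Perm α, ((sign g : ℤ) : ℝ) = 0 := by
    have := Equiv.sum_comp (Equiv.mulLeft (swap x y)) fun g : Perm α => ((sign g : ℤ) : ℝ)
    simp [hxy] at this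
    linarith
  have hf := orth_fix (sign_swap hxy) (f := fun g => ξ g - u)
    (by rw [Finset.sum_sub_distrib, h1, hu1, sub_self])
    (by simp only [sub_mul, Finset.sum_sub_distrib, hs, ← Finset.mul_sum, hsum]; simp)
  have b1 := l2_part j hw hn a0 ((Finset.sum_le_sum fun g _ => a1 g).trans (cpow_sum h1 T).le) a3 hf hf1 hk
  have b2 := l1_iter_sub a0 a1 (cpow_sum h1 T).le a2 (fun g => ξ g - u) k
  rw [iter_cpow h1] at b2
  have b3 : ∑ g, |cpow ξ (k * T + 1) g - u| ≤ ∑ g, (|cpow ξ (k * T + 1) g - u -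
      (conv μ')^[k] (fun g => ξ g - u) g| + |(conv μ')^[k] (fun g => ξ g - u) g|) := by
    refine Finset.sum_le_sum fun g _ => le_trans (le_of_eq ?_) (abs_add_le _ _)
    rw [sub_add_cancel]
  rw [Finset.sum_add_distrib] at b3
  have b4 : 0 ≤ ∑ g, |ξ g - u| := Finset.sum_nonneg fun g _ => abs_nonneg _
  simp only [Fintype.card_fin] at b2
  have hk' : (k : ℝ) = 1507 := by rw [hk]; norm_num
  rw [hk'] at b2
  push_cast at b2
  unfold tvUnif
  rw [← hu]
  nlinarith

end Vale.Agent.P162
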