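import Vale.Agent.P162.Schur

/-! The regular representation, reproducing kernels, and counting small subrepresentations. -/

namespace Vale.Agent.P162

open Module
open scoped InnerProductSpace

variable (G : Type*) [Group G] [Fintype G]

/-- two-sided regular representation -/
def reg2 : G × G →* End ℂ (EuclideanSpace ℂ G) where
  toFun a :=
    { toFun := fun ψ => WithLp.toLp 2 fun g => ψ (a.1⁻¹ * g * a.2)
      map_add' := fun _ _ => rfl
      map_smul' := fun _ _ => rfl }
  map_one' := by ext ψ g; simp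
  map_mul' a b := by ext ψ g; simp [mul_assoc]

/-- left regular representation -/
def reg : G →* End ℂ (EuclideanSpace ℂ G) := (reg2 G).comp (MonoidHom.inl G G)

/-- dimension of the span of small subrepresentations of the regular representation -/
noncomputable def R (y : ℕ) : ℕ := finrank ℂ (low (reg G) y)

variable {G}

omit [Fintype G] in
@[simp] lemma reg2_apply (a : G × G) (ψ : EuclideanSpace ℂ G) (g : G) :
    reg2 G a ψ g = ψ (a.1⁻¹ * g * a.2) := rfl

omit [Fintype G] in
@[simp] lemma reg_apply (a : G) (ψ : EuclideanSpace ℂ G) (g : G) :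
    reg G a ψ g = ψ (a⁻¹ * g) := by simp [reg]

lemma isU_reg2 : IsU (reg2 G) := by
  intro a v w
  simp only [PiLp.inner_apply, reg2_apply]
  exact Equiv.sum_comp ((Equiv.mulLeft a.1⁻¹).trans (Equiv.mulRight a.2))
    fun g => ⟪v g, w g⟫_ℂ

lemma isU_reg : IsU (reg G) := isU_reg2.comp _

variable [DecidableEq G]

/-- point mass -/
noncomputable def dl (g : G) : EuclideanSpace ℂ G := EuclideanSpace.single g 1

omit [Group G] in
lemma inner_dl (g : G) (ψ : EuclideanSpace ℂ G) : ⟪dl g, ψ⟫_ℂ = ψ g := by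
  simp [dl, EuclideanSpace.inner_single_left]

omit [Fintype G] in
lemma reg_dl (a g : G) : reg G a (dl g) = dl (a * g) := by
  ext x
  simp [dl, PiLp.single_apply, inv_mul_eq_iff_eq_mul]

omit [Fintype G] in
lemma reg2_dl (a : G) : reg2 G (a, a) (dl (1 : G)) = dl 1 := by
  ext x
  have : a⁻¹ * x * a = 1 ↔ x = 1 := by
    constructor
    · intro h
      have : x = a * (a⁻¹ * x * a) * a⁻¹ := by group
      rw [this, h]; group
    · rintro rfl; group
  simp [dl, PiLp.single_apply, this]

lemma norm_proj_dl {U : Submodule ℂ (EuclideanSpace ℂ G)} (hU : Inv (reg G) U) (g : G) :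
    (Fintype.card G : ℝ) * ‖U.starProjection (dl g)‖ ^ 2 = finrank ℂ U := by
  have h1 : ∀ g : G, ‖U.starProjection (dl g)‖ = ‖U.starProjection (dl 1)‖ := by
    intro g
    have : dl g = reg G g (dl 1) := by rw [reg_dl, mul_one]
    rw [this, proj_comm isU_reg hU, isU_reg.norm]
  obtain ⟨e, he, heU, hsum⟩ := exists_onb U
  have h2 : ∀ g : G, ‖U.starProjection (dl g)‖ ^ 2 = ∑ i, ‖e i g‖ ^ 2 := by
    intro g
    set p := U.starProjection (dl g) with hp
    have hc : ∀ i, ⟪e i, p⟫_ℂ = (starRingEnd ℂ) (e i g) := by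
      intro i
      rw [hp, ← U.inner_starProjection_left_eq_right, Submodule.starProjection_eq_self_iff.2 (heU i),
        ← inner_conj_symm, inner_dl]
    have h3 := hsum p (U.starProjection_apply_mem _)
    have h4 : ⟪p, p⟫_ℂ = ∑ i, ((‖e i g‖ ^ 2 : ℝ) : ℂ) := by
      nth_rewrite 2 [← h3]
      rw [inner_sum]
      refine Finset.sum_congr rfl fun i _ => ?_
      rw [inner_smul_right, ← inner_conj_symm p, hc, Complex.conj_conj,
        ← Complex.normSq_eq_conj_mul_self, Complex.normSq_eq_norm_sq]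
    rw [← Complex.ofReal_sum] at h4
    rw [@norm_sq_eq_re_inner ℂ, h4]
    exact Complex.ofReal_re _
  calc (Fintype.card G : ℝ) * ‖U.starProjection (dl g)‖ ^ 2
      = ∑ x : G, ‖U.starProjection (dl x)‖ ^ 2 := by simp [h1 g, h1]
    _ = ∑ i, ∑ x : G, ‖e i x‖ ^ 2 := by simp_rw [h2]; exact Finset.sum_comm
    _ = ∑ i : Fin (finrank ℂ U), (1 : ℝ) := Finset.sum_congr rfl fun i _ => by
        rw [← EuclideanSpace.norm_sq_eq, he.1 i]; simp
    _ = _ := by simp

lemma eval_le {U : Submodule ℂ (EuclideanSpace ℂ G)} (hU : Inv (reg G) U)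
    {ψ : EuclideanSpace ℂ G} (hψ : ψ ∈ U) (g : G) :
    (Fintype.card G : ℝ) * ‖ψ g‖ ^ 2 ≤ finrank ℂ U * ∑ h, ‖ψ h‖ ^ 2 := by
  rw [← EuclideanSpace.norm_sq_eq, ← norm_proj_dl hU g, mul_assoc]
  refine mul_le_mul_of_nonneg_left ?_ (by positivity)
  rw [← inner_dl, ← mul_pow]
  refine pow_le_pow_left₀ (norm_nonneg _) ?_ 2
  nth_rewrite 1 [← Submodule.starProjection_eq_self_iff.2 hψ]
  rw [← U.inner_starProjection_left_eq_right]
  exact norm_inner_le_norm _ _

omit [DecidableEq G] in
lemma low_reg_le (y : ℕ) : low (reg G) y ≤ low (reg2 G) (y * y) := by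
  refine low_le fun U hU hy => ?_
  obtain ⟨e, he, heU, hsum⟩ := exists_onb U
  let m : Fin (finrank ℂ U) × Fin (finrank ℂ U) → EuclideanSpace ℂ G :=
    fun p => WithLp.toLp 2 fun g => ⟪e p.1, reg G g⁻¹ (e p.2)⟫_ℂ
  let I : Submodule ℂ (EuclideanSpace ℂ G) := ⨆ b : G, U.map (reg2 G (1, b))
  have hUI : U ≤ I := by
    intro u hu
    refine Submodule.mem_iSup_of_mem (1 : G) ⟨u, hu, ?_⟩
    ext g; simp
  have hI : Inv (reg2 G) I := by
    intro a v hv
    have : I ≤ I.comap (reg2 G a) := by
      refine iSup_le fun b => ?_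
      rintro _ ⟨u, hu, rfl⟩
      refine Submodule.mem_iSup_of_mem (a.2 * b) ⟨reg G a.1 u, hU _ _ hu, ?_⟩
      ext g; simp [mul_assoc]
    exact this hv
  have hIm : I ≤ Submodule.span ℂ (Set.range m) := by
    refine iSup_le fun b => ?_
    rintro _ ⟨u, hu, rfl⟩
    have : reg2 G (1, b) u = ∑ p : Fin (finrank ℂ U) × Fin (finrank ℂ U),
        (⟪e p.2, u⟫_ℂ * e p.1 b) • m p := by
      ext g
      have h1 := congrArg (fun ψ : EuclideanSpace ℂ G => ψ b) (hsum _ (hU g⁻¹ u hu))
      simp only [reg_apply, inv_inv] at h1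
      simp only [reg2_apply, inv_one, one_mul]
      rw [← h1, Fintype.sum_prod_type]
      simp only [WithLp.ofLp_sum, Finset.sum_apply, PiLp.smul_apply, smul_eq_mul, m]
      refine Finset.sum_congr rfl fun i _ => ?_
      nth_rewrite 1 [← hsum u hu]
      rw [map_sum, inner_sum, Finset.sum_mul]
      refine Finset.sum_congr rfl fun j _ => ?_
      rw [map_smul, inner_smul_right]; ring
    rw [this]
    exact Submodule.sum_mem _ fun p _ =>
      Submodule.smul_mem _ _ (Submodule.subset_span ⟨p, rfl⟩)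
  refine hUI.trans (le_low hI ?_)
  calc finrank ℂ I ≤ finrank ℂ (Submodule.span ℂ (Set.range m)) := Submodule.finrank_mono hIm
    _ ≤ Fintype.card (Fin (finrank ℂ U) × Fin (finrank ℂ U)) := finrank_range_le_card m
    _ ≤ y * y := by simpa using Nat.mul_le_mul hy hy

/-- the number of small subrepresentations is bounded by the number of conjugacy classes -/
lemma R_le_classes {ι : Type*} [Fintype ι] (κ : G → ι) (hκ : ∀ g h, κ g = κ h → IsConj g h)
    (y : ℕ) : R G y ≤ y * y * Fintype.card ι := by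
  classical
  let T : (ι → ℂ) →ₗ[ℂ] EuclideanSpace ℂ G :=
    { toFun := fun f => WithLp.toLp 2 fun g => f (κ g)
      map_add' := fun _ _ => rfl
      map_smul' := fun _ _ => rfl }
  have h1 := finrank_low_le (isU_reg2 (G := G)) (y := y * y) (LinearMap.range T) (by
    intro U hU h0 _
    have hU' : Inv (reg G) U := hU.comp _
    set p := U.starProjection (dl (1 : G)) with hp
    have hp0 : p ≠ 0 := by
      intro h
      have := norm_proj_dl hU' 1
      rw [← hp, h] at this
      have h2 : (1 : ℝ) ≤ finrank ℂ U := by exact_mod_cast Submodule.one_le_finrank_iff.2 h0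
      rw [← this] at h2
      norm_num at h2
    have hcl : ∀ a g : G, p (a⁻¹ * g * a) = p g := by
      intro a g
      have := proj_comm isU_reg2 hU (a, a) (dl (1 : G))
      rw [reg2_dl, ← hp] at this
      conv_rhs => rw [this]
      simp
    have hpT : p ∈ LinearMap.range T := by
      refine ⟨fun i => if h : ∃ g, κ g = i then p h.choose else 0, ?_⟩
      ext g
      have h : ∃ g', κ g' = κ g := ⟨g, rfl⟩
      obtain ⟨c, hc⟩ := isConj_iff.1 (hκ _ _ h.choose_spec)
      change (if h : ∃ g', κ g' = κ g then p h.choose else 0) = p g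
      rw [dif_pos h, ← hcl c g]
      generalize h.choose = z at hc
      rw [← hc]; group
    intro h
    have : p ∈ U ⊓ LinearMap.range T := ⟨U.starProjection_apply_mem _, hpT⟩
    rw [h] at this
    exact hp0 this)
  calc R G y ≤ finrank ℂ (low (reg2 G) (y * y)) := Submodule.finrank_mono (low_reg_le y)
    _ ≤ _ := h1
    _ ≤ y * y * finrank ℂ (LinearMap.range T) :=
        Nat.mul_le_mul_left _ (Submodule.finrank_mono inf_le_right)
    _ ≤ y * y * Fintype.card ι := by
        refine Nat.mul_le_mul_left _ ((LinearMap.finrank_range_le T).trans ?_)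
        simp

end Vale.Agent.P162
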