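import Mathlib

/-! Unitary representations of finite groups: invariant subspaces of small dimension. -/

namespace Vale.Agent.P162

open Module
open scoped InnerProductSpace

variable {G : Type*} [Group G] {E : Type*} [NormedAddCommGroup E] [InnerProductSpace ℂ E]

/-- unitary representation -/
def IsU (ρ : G →* End ℂ E) : Prop := ∀ g v w, ⟪ρ g v, ρ g w⟫_ℂ = ⟪v, w⟫_ℂ

/-- invariant subspace -/
def Inv (ρ : G →* End ℂ E) (U : Submodule ℂ E) : Prop := ∀ g, ∀ v ∈ U, ρ g v ∈ U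

/-- sum of all invariant subspaces of dimension at most `y` -/
noncomputable def low (ρ : G →* End ℂ E) (y : ℕ) : Submodule ℂ E :=
  sSup {U | Inv ρ U ∧ finrank ℂ U ≤ y}

lemma rho_inv_apply (ρ : G →* End ℂ E) (g : G) (v : E) : ρ g⁻¹ (ρ g v) = v := by
  rw [← End.mul_apply, ← map_mul, inv_mul_cancel, map_one, End.one_apply]

lemma rho_apply_inv (ρ : G →* End ℂ E) (g : G) (v : E) : ρ g (ρ g⁻¹ v) = v := by
  rw [← End.mul_apply, ← map_mul, mul_inv_cancel, map_one, End.one_apply]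

lemma rho_mul (ρ : G →* End ℂ E) (g h : G) (v : E) : ρ (g * h) v = ρ g (ρ h v) := by
  rw [map_mul, End.mul_apply]

lemma IsU.left {ρ : G →* End ℂ E} (h : IsU ρ) (g : G) (v w : E) :
    ⟪ρ g v, w⟫_ℂ = ⟪v, ρ g⁻¹ w⟫_ℂ := by
  conv_lhs => rw [← rho_apply_inv ρ g w]
  exact h g _ _

lemma IsU.right {ρ : G →* End ℂ E} (h : IsU ρ) (g : G) (v w : E) :
    ⟪v, ρ g w⟫_ℂ = ⟪ρ g⁻¹ v, w⟫_ℂ := by
  rw [h.left, inv_inv]

lemma IsU.norm {ρ : G →* End ℂ E} (h : IsU ρ) (g : G) (v : E) : ‖ρ g v‖ = ‖v‖ := by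
  rw [@norm_eq_sqrt_re_inner ℂ, @norm_eq_sqrt_re_inner ℂ _ _ _ _ v, h g]

lemma IsU.comp {ρ : G →* End ℂ E} (h : IsU ρ) {H : Type*} [Group H] (ι : H →* G) :
    IsU (ρ.comp ι) := fun g v w => h (ι g) v w

lemma Inv.comp {ρ : G →* End ℂ E} {U : Submodule ℂ E} (h : Inv ρ U) {H : Type*} [Group H]
    (ι : H →* G) : Inv (ρ.comp ι) U := fun g v hv => h (ι g) v hv

lemma Inv.orth {ρ : G →* End ℂ E} (hρ : IsU ρ) {U : Submodule ℂ E} (h : Inv ρ U) : Inv ρ Uᗮ := by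
  intro g v hv
  rw [Submodule.mem_orthogonal] at hv ⊢
  intro u hu
  rw [hρ.right]
  exact hv _ (h _ _ hu)

lemma Inv.inf {ρ : G →* End ℂ E} {U W : Submodule ℂ E} (h : Inv ρ U) (h' : Inv ρ W) :
    Inv ρ (U ⊓ W) := fun g v hv => ⟨h g v hv.1, h' g v hv.2⟩

lemma inv_top (ρ : G →* End ℂ E) : Inv ρ ⊤ := fun _ _ _ => trivial

lemma le_low {ρ : G →* End ℂ E} {U : Submodule ℂ E} {y : ℕ} (h : Inv ρ U)
    (hy : finrank ℂ U ≤ y) : U ≤ low ρ y := le_sSup ⟨h, hy⟩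

lemma low_le {ρ : G →* End ℂ E} {W : Submodule ℂ E} {y : ℕ}
    (h : ∀ U, Inv ρ U → finrank ℂ U ≤ y → U ≤ W) : low ρ y ≤ W :=
  sSup_le fun U hU => h U hU.1 hU.2

lemma low_mono (ρ : G →* End ℂ E) {y z : ℕ} (h : y ≤ z) : low ρ y ≤ low ρ z :=
  low_le fun _ hU hy => le_low hU (hy.trans h)

variable [FiniteDimensional ℂ E]

/-- equivariant maps send `low` to `low` -/
lemma low_map {E' : Type*} [NormedAddCommGroup E'] [InnerProductSpace ℂ E']
    {ρ : G →* End ℂ E} {ρ' : G →* End ℂ E'} (T : E →ₗ[ℂ] E')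
    (hT : ∀ g v, T (ρ g v) = ρ' g (T v)) (y : ℕ) {v : E} (hv : v ∈ low ρ y) :
    T v ∈ low ρ' y := by
  have : low ρ y ≤ (low ρ' y).comap T := by
    refine low_le fun U hU hy => ?_
    rw [← Submodule.map_le_iff_le_comap]
    refine le_low ?_ ((Submodule.finrank_map_le T U).trans hy)
    rintro g _ ⟨u, hu, rfl⟩
    exact ⟨ρ g u, hU g u hu, hT g u⟩
  exact this hv

lemma low_inv' {H : Type*} [Group H] {ρ : G →* End ℂ E} {σ : H →* End ℂ E}
    (hc : ∀ g h v, σ h (ρ g v) = ρ g (σ h v)) (y : ℕ) : Inv σ (low ρ y) :=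
  fun h _ hv => low_map (σ h) (fun g v => hc g h v) y hv

omit [FiniteDimensional ℂ E] in
lemma low_inv (ρ : G →* End ℂ E) (y : ℕ) : Inv ρ (low ρ y) := by
  intro g v hv
  have : low ρ y ≤ (low ρ y).comap (ρ g) :=
    low_le fun U hU hy u hu => le_low hU hy (hU g u hu)
  exact this hv

lemma proj_comm {ρ : G →* End ℂ E} (hρ : IsU ρ) {U : Submodule ℂ E} (h : Inv ρ U) (g : G)
    (v : E) : U.starProjection (ρ g v) = ρ g (U.starProjection v) := by
  apply Submodule.eq_starProjection_of_mem_orthogonal (h g _ (U.starProjection_apply_mem v))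
  rw [← map_sub]
  exact h.orth hρ g _ (U.sub_starProjection_mem_orthogonal v)

omit [FiniteDimensional ℂ E] in
lemma inf_orth_eq_zero {U : Submodule ℂ E} {v : E} (h : v ∈ U) (h' : v ∈ Uᗮ) : v = 0 := by
  have := (Submodule.mem_orthogonal U v).1 h' v h
  exact inner_self_eq_zero.1 this

/-- A nonzero subspace of `low ρ y` sees some small invariant subspace. -/
lemma exists_gen {ρ : G →* End ℂ E} {y : ℕ} {W : Submodule ℂ E} (hW : W ≤ low ρ y)
    (h0 : W ≠ ⊥) : ∃ U, Inv ρ U ∧ finrank ℂ U ≤ y ∧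
      U.map (W.starProjection : E →ₗ[ℂ] E) ≠ ⊥ := by
  by_contra hcon
  push Not at hcon
  apply h0
  have : low ρ y ≤ Wᗮ := by
    refine low_le fun U hU hy u hu => ?_
    have h1 := hcon U hU hy
    rw [← Submodule.starProjection_apply_eq_zero_iff]
    have : (W.starProjection : E →ₗ[ℂ] E) u ∈ U.map (W.starProjection : E →ₗ[ℂ] E) :=
      Submodule.mem_map_of_mem hu
    rw [h1] at this
    exact this
  rw [eq_bot_iff]
  intro w hw
  exact inf_orth_eq_zero hw (this (hW hw))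

lemma map_proj_le (U W : Submodule ℂ E) : U.map (W.starProjection : E →ₗ[ℂ] E) ≤ W := by
  rintro _ ⟨u, _, rfl⟩
  exact W.starProjection_apply_mem u

lemma Inv.map_proj {ρ : G →* End ℂ E} (hρ : IsU ρ) {U W : Submodule ℂ E} (hU : Inv ρ U)
    (hW : Inv ρ W) : Inv ρ (U.map (W.starProjection : E →ₗ[ℂ] E)) := by
  rintro g _ ⟨u, hu, rfl⟩
  exact ⟨ρ g u, hU g u hu, proj_comm hρ hW g u⟩

/-- counting lemma -/
lemma finrank_le_mul {ρ : G →* End ℂ E} (hρ : IsU ρ) {y : ℕ} (F : Submodule ℂ E)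
    (hF : ∀ U, Inv ρ U → U ≠ ⊥ → finrank ℂ U ≤ y → U ⊓ F ≠ ⊥) :
    ∀ (N : ℕ) (W : Submodule ℂ E), finrank ℂ W = N → Inv ρ W → W ≤ low ρ y →
      finrank ℂ W ≤ y * finrank ℂ (W ⊓ F : Submodule ℂ E) := by
  intro N
  induction N using Nat.strong_induction_on with
  | _ N ih =>
  intro W hN hW hWl
  by_cases h0 : W = ⊥
  · subst h0; simp
  obtain ⟨U0, hU0, hy0, hne⟩ := exists_gen hWl h0
  set U := U0.map (W.starProjection : E →ₗ[ℂ] E) with hUdef
  have hUW : U ≤ W := map_proj_le _ _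
  have hU : Inv ρ U := hU0.map_proj hρ hW
  have hUy : finrank ℂ U ≤ y := (Submodule.finrank_map_le _ _).trans hy0
  have hsum := Submodule.finrank_add_inf_finrank_orthogonal hUW
  have hUpos : 0 < finrank ℂ U := Submodule.one_le_finrank_iff.2 hne
  set W' := Uᗮ ⊓ W with hW'
  have hW'inv : Inv ρ W' := (hU.orth hρ).inf hW
  have ih' := ih (finrank ℂ W') (by omega) W' rfl hW'inv (inf_le_right.trans hWl)
  obtain ⟨x, hx, hx0⟩ := Submodule.exists_mem_ne_zero_of_ne_bot (hF U hU hne hUy)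
  have hlt : (W' ⊓ F : Submodule ℂ E) < W ⊓ F := by
    refine lt_of_le_of_ne (inf_le_inf_right _ inf_le_right) fun heq => hx0 ?_
    have : x ∈ (W' ⊓ F : Submodule ℂ E) := by rw [heq]; exact ⟨hUW hx.1, hx.2⟩
    exact inf_orth_eq_zero hx.1 this.1.1
  have := Submodule.finrank_lt_finrank_of_lt hlt
  calc finrank ℂ W = finrank ℂ U + finrank ℂ W' := hsum.symm
    _ ≤ y + y * finrank ℂ (W' ⊓ F : Submodule ℂ E) := add_le_add hUy ih'
    _ = y * (finrank ℂ (W' ⊓ F : Submodule ℂ E) + 1) := by ring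
    _ ≤ _ := Nat.mul_le_mul_left _ this

lemma finrank_low_le {ρ : G →* End ℂ E} (hρ : IsU ρ) {y : ℕ} (F : Submodule ℂ E)
    (hF : ∀ U, Inv ρ U → U ≠ ⊥ → finrank ℂ U ≤ y → U ⊓ F ≠ ⊥) :
    finrank ℂ (low ρ y) ≤ y * finrank ℂ (low ρ y ⊓ F : Submodule ℂ E) :=
  finrank_le_mul hρ F hF _ _ rfl (low_inv ρ y) le_rfl

end Vale.Agent.P162
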