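import Vale.Agent.P162.Rep

/-! Schur-type bounds: averaged matrix coefficients and the dimension of joint modules. -/

namespace Vale.Agent.P162

open Module
open scoped InnerProductSpace

variable {G : Type*} [Group G] {E : Type*} [NormedAddCommGroup E] [InnerProductSpace ℂ E]
  [FiniteDimensional ℂ E]

/-- an orthonormal family in `E` spanning a subspace, indexed by `Fin (finrank)` -/
lemma exists_onb (U : Submodule ℂ E) : ∃ e : Fin (finrank ℂ U) → E, Orthonormal ℂ e ∧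
    (∀ i, e i ∈ U) ∧ ∀ v ∈ U, ∑ i, ⟪e i, v⟫_ℂ • e i = v := by
  let b := stdOrthonormalBasis ℂ U
  refine ⟨fun i => (b i : E), ?_, fun i => (b i).2, fun v hv => ?_⟩
  · exact b.orthonormal.comp_linearIsometry U.subtypeₗᵢ
  · have := congrArg Subtype.val (b.sum_repr' ⟨v, hv⟩)
    simpa using this

lemma avg_coeff_le [Fintype G] {ρ : G →* End ℂ E} (hρ : IsU ρ) (y : ℕ) {v : E}
    (hv : v ∈ (low ρ y)ᗮ) (w : E) :
    ((y : ℝ) + 1) * ∑ g, ‖⟪w, ρ g v⟫_ℂ‖ ^ 2 ≤ Fintype.card G * (‖v‖ ^ 2 * ‖w‖ ^ 2) := by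
  classical
  let T : E →ₗ[ℂ] E := ∑ g : G, (innerₛₗ ℂ (ρ g v)).smulRight (ρ g v)
  have hT : ∀ x, T x = ∑ g, ⟪ρ g v, x⟫_ℂ • ρ g v := by
    intro x; simp [T, LinearMap.sum_apply]
  have hq : ∀ x z, ⟪z, T x⟫_ℂ = ∑ g, ⟪ρ g v, x⟫_ℂ * ⟪z, ρ g v⟫_ℂ := by
    intro x z; rw [hT, inner_sum]; simp [inner_smul_right]
  have hsym : T.IsSymmetric := by
    intro x z
    rw [← inner_conj_symm, hq, hq, map_sum]
    refine Finset.sum_congr rfl fun g _ => ?_
    rw [map_mul, inner_conj_symm, inner_conj_symm, mul_comm]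
  have hre : ∀ x, (⟪x, T x⟫_ℂ).re = ∑ g, ‖⟪x, ρ g v⟫_ℂ‖ ^ 2 := by
    intro x
    rw [hq, Complex.re_sum]
    refine Finset.sum_congr rfl fun g _ => ?_
    rw [← inner_conj_symm (ρ g v) x, ← Complex.normSq_eq_conj_mul_self, Complex.ofReal_re,
      Complex.normSq_eq_norm_sq]
  have hcomm : ∀ h x, T (ρ h x) = ρ h (T x) := by
    intro h x
    rw [hT, hT, map_sum, ← Equiv.sum_comp (Equiv.mulLeft h)]
    refine Finset.sum_congr rfl fun g _ => ?_
    simp only [Equiv.coe_mulLeft, rho_mul, map_smul]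
    rw [hρ h]
  have hrange : ∀ x, T x ∈ (low ρ y)ᗮ := by
    intro x; rw [hT]
    exact Submodule.sum_mem _ fun g _ => Submodule.smul_mem _ _ ((low_inv ρ y).orth hρ g v hv)
  -- eigenvalue bound
  have heig : ∀ (θ : ℝ) (x : E), x ≠ 0 → T x = (θ : ℂ) • x →
      ((y : ℝ) + 1) * θ ≤ Fintype.card G * ‖v‖ ^ 2 := by
    intro θ x hx0 hx
    rcases le_or_gt θ 0 with hθ | hθ
    · have : ((y : ℝ) + 1) * θ ≤ 0 := mul_nonpos_of_nonneg_of_nonpos (by positivity) hθ
      exact this.trans (by positivity)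
    set A := End.eigenspace T (θ : ℂ) with hA
    have hmem : ∀ z, z ∈ A ↔ T z = (θ : ℂ) • z := fun z => End.mem_eigenspace_iff
    have hAinv : Inv ρ A := by
      intro g z hz
      rw [hmem] at hz ⊢
      rw [hcomm, hz, map_smul]
    have hAle : A ≤ (low ρ y)ᗮ := by
      intro z hz
      rw [hmem] at hz
      have hθ' : (θ : ℂ) ≠ 0 := by exact_mod_cast hθ.ne'
      have : z = (θ : ℂ)⁻¹ • T z := by rw [hz, smul_smul, inv_mul_cancel₀ hθ', one_smul]
      rw [this]; exact Submodule.smul_mem _ _ (hrange z)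
    have hdim : y + 1 ≤ finrank ℂ A := by
      by_contra hlt
      exact hx0 (inf_orth_eq_zero (le_low hAinv (by omega) ((hmem x).2 hx)) (hAle ((hmem x).2 hx)))
    obtain ⟨e, he, heA, -⟩ := exists_onb A
    have h1 : ∀ i, θ = ∑ g, ‖⟪e i, ρ g v⟫_ℂ‖ ^ 2 := by
      intro i
      rw [← hre, (hmem _).1 (heA i), inner_smul_right, inner_self_eq_norm_sq_to_K, he.1 i]
      simp
    have h2 : (finrank ℂ A : ℝ) * θ ≤ Fintype.card G * ‖v‖ ^ 2 := by
      calc (finrank ℂ A : ℝ) * θ = ∑ i : Fin (finrank ℂ A), θ := by simp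
        _ = ∑ g, ∑ i, ‖⟪e i, ρ g v⟫_ℂ‖ ^ 2 := by
            rw [Finset.sum_comm]; exact Finset.sum_congr rfl fun i _ => h1 i
        _ ≤ ∑ g : G, ‖v‖ ^ 2 := Finset.sum_le_sum fun g _ => by
            rw [← hρ.norm g v]; exact he.sum_inner_products_le _
        _ = _ := by simp
    have : ((y : ℝ) + 1) ≤ finrank ℂ A := by exact_mod_cast hdim
    nlinarith
  let b := hsym.eigenvectorBasis rfl
  have hb : ∀ i, T (b i) = ((hsym.eigenvalues rfl i : ℝ) : ℂ) • b i :=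
    fun i => hsym.apply_eigenvectorBasis rfl i
  rw [← hre]
  have h3 : (⟪w, T w⟫_ℂ).re = ∑ i, hsym.eigenvalues rfl i * ‖⟪b i, w⟫_ℂ‖ ^ 2 := by
    rw [← b.sum_inner_mul_inner w (T w), Complex.re_sum]
    refine Finset.sum_congr rfl fun i _ => ?_
    rw [← hsym, hb, inner_smul_left, Complex.conj_ofReal, ← inner_conj_symm w (b i), mul_left_comm,
      ← Complex.normSq_eq_conj_mul_self, ← Complex.ofReal_mul, Complex.ofReal_re,
      Complex.normSq_eq_norm_sq]
  rw [h3, Finset.mul_sum, ← b.sum_sq_norm_inner_right w, ← mul_assoc, Finset.mul_sum]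
  refine Finset.sum_le_sum fun i _ => ?_
  rw [← mul_assoc]
  exact mul_le_mul_of_nonneg_right (heig _ _ (b.orthonormal.ne_zero i) (hb i)) (by positivity)

/-- Schur's lemma in bilinear form on a minimal invariant subspace. -/
lemma schur_form {ρ : G →* End ℂ E} (hρ : IsU ρ) {U : Submodule ℂ E} (hU : Inv ρ U) (h0 : U ≠ ⊥)
    (hmin : ∀ W ≤ U, Inv ρ W → W ≠ ⊥ → finrank ℂ U ≤ finrank ℂ W) (S T : End ℂ E)
    (hS : ∀ g v, S (ρ g v) = ρ g (S v)) (hT : ∀ g v, T (ρ g v) = ρ g (T v)) :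
    ∃ c : ℂ, ∀ x ∈ U, ∀ z ∈ U, ⟪S x, T z⟫_ℂ = c * ⟪x, z⟫_ℂ := by
  let X : End ℂ E := (U.starProjection : E →ₗ[ℂ] E) ∘ₗ (LinearMap.adjoint S) ∘ₗ T
  have hX : ∀ z, X z = U.starProjection (LinearMap.adjoint S (T z)) := fun z => rfl
  have hXU : ∀ z ∈ U, X z ∈ U := fun z _ => U.starProjection_apply_mem _
  have hadj : ∀ g v, LinearMap.adjoint S (ρ g v) = ρ g (LinearMap.adjoint S v) := by
    intro g v
    apply ext_inner_left ℂ
    intro x
    rw [LinearMap.adjoint_inner_right, hρ.right, hρ.right, ← hS, LinearMap.adjoint_inner_right]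
  have hXc : ∀ g v, X (ρ g v) = ρ g (X v) := by
    intro g v; rw [hX, hX, hT, hadj, proj_comm hρ hU]
  have : Nontrivial U := Submodule.nontrivial_iff_ne_bot.2 h0
  obtain ⟨c, hc⟩ := End.exists_eigenvalue (X.restrict hXU)
  obtain ⟨x, hx⟩ := hc.exists_hasEigenvector
  have hx1 : X (x : E) = c • (x : E) := by
    have := congrArg Subtype.val hx.apply_eq_smul
    simpa using this
  set W := U ⊓ End.eigenspace X c with hW
  have hWinv : Inv ρ W := by
    intro g z hz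
    refine ⟨hU g z hz.1, ?_⟩
    have h2 := End.mem_eigenspace_iff.1 hz.2
    exact End.mem_eigenspace_iff.2 (by rw [hXc, h2, map_smul])
  have hW0 : W ≠ ⊥ := by
    intro h
    have : (x : E) ∈ W := ⟨x.2, End.mem_eigenspace_iff.2 hx1⟩
    rw [h] at this
    exact hx.2 (Subtype.ext this)
  have hWU : W = U := Submodule.eq_of_le_of_finrank_le inf_le_left (hmin W inf_le_left hWinv hW0)
  refine ⟨c, fun a ha z hz => ?_⟩
  have hz' : X z = c • z := End.mem_eigenspace_iff.1 ((hWU.ge hz).2)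
  rw [← LinearMap.adjoint_inner_right, ← inner_smul_right, ← hz', hX,
    ← U.inner_starProjection_left_eq_right, Submodule.starProjection_eq_self_iff.2 ha]

/-- dimension lemma for commuting representations -/
lemma pow_le_finrank {ι : Type*} {H : Type*} [Group H] (ρ : ι → H →* End ℂ E)
    (hρ : ∀ i, IsU (ρ i)) (hc : ∀ i j, i ≠ j → ∀ g h v, ρ i g (ρ j h v) = ρ j h (ρ i g v))
    (a : ℕ) (s : Finset ι) : ∀ U : Submodule ℂ E, U ≠ ⊥ → (∀ i ∈ s, Inv (ρ i) U) →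
      (∀ i ∈ s, ∀ W ≤ U, Inv (ρ i) W → W ≠ ⊥ → a ≤ finrank ℂ W) → a ^ s.card ≤ finrank ℂ U := by
  classical
  induction s using Finset.induction_on with
  | empty => intro U h0 _ _; simpa using Submodule.one_le_finrank_iff.2 h0
  | insert i s his ih =>
  intro U h0 hU ha
  have hex : ∃ N, ∃ W ≤ U, Inv (ρ i) W ∧ W ≠ ⊥ ∧ finrank ℂ W = N :=
    ⟨_, U, le_rfl, hU i (Finset.mem_insert_self _ _), h0, rfl⟩
  obtain ⟨U1, hU1U, hU1, hU10, hN⟩ := Nat.find_spec hex
  have hmin : ∀ W ≤ U1, Inv (ρ i) W → W ≠ ⊥ → finrank ℂ U1 ≤ finrank ℂ W := by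
    intro W hW hWi hW0
    rw [hN]; exact Nat.find_min' hex ⟨W, hW.trans hU1U, hWi, hW0, rfl⟩
  obtain ⟨x, hx, hxU, -⟩ := exists_onb U1
  have hpos : 0 < finrank ℂ U1 := Submodule.one_le_finrank_iff.2 hU10
  set u := x ⟨0, hpos⟩ with hu
  have huU : u ∈ U1 := hxU _
  have hu1 : ⟪u, u⟫_ℂ = 1 := by rw [inner_self_eq_norm_sq_to_K, hx.1]; simp
  let M : Submodule ℂ E :=
    { carrier := {m | ∃ T : End ℂ E, (∀ g v, T (ρ i g v) = ρ i g (T v)) ∧ (∀ z ∈ U1, T z ∈ U) ∧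
        T u = m}
      add_mem' := by
        rintro _ _ ⟨S, hS1, hS2, rfl⟩ ⟨T, hT1, hT2, rfl⟩
        exact ⟨S + T, fun g v => by simp [hS1, hT1], fun z hz => U.add_mem (hS2 z hz) (hT2 z hz),
          rfl⟩
      zero_mem' := ⟨0, fun g v => by simp, fun z _ => U.zero_mem, rfl⟩
      smul_mem' := by
        rintro c _ ⟨T, hT1, hT2, rfl⟩
        exact ⟨c • T, fun g v => by simp [hT1], fun z hz => U.smul_mem c (hT2 z hz), rfl⟩ }
  have hMU : M ≤ U := by rintro _ ⟨T, _, hT2, rfl⟩; exact hT2 u huU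
  have hM0 : M ≠ ⊥ := by
    intro h
    have : u ∈ M := ⟨1, fun _ _ => rfl, fun z hz => hU1U hz, rfl⟩
    rw [h] at this
    exact hx.ne_zero _ this
  have hMinv : ∀ j ∈ s, Inv (ρ j) M := by
    rintro j hj h _ ⟨T, hT1, hT2, rfl⟩
    have hij : i ≠ j := fun e => his (e ▸ hj)
    refine ⟨ρ j h * T, fun g v => ?_, fun z hz => ?_, rfl⟩
    · simp only [End.mul_apply, hT1, hc i j hij]
    · exact hU j (Finset.mem_insert_of_mem hj) h _ (hT2 z hz)
  have ihM := ih M hM0 hMinv fun j hj W hW => ha j (Finset.mem_insert_of_mem hj) W (hW.trans hMU)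
  obtain ⟨m, hm, hmM, -⟩ := exists_onb M
  choose T hT1 hT2 hT3 using hmM
  have horth : Orthonormal ℂ fun p : Fin (finrank ℂ M) × Fin (finrank ℂ U1) =>
      (⟨T p.1 (x p.2), hT2 _ _ (hxU _)⟩ : U) := by
    rw [orthonormal_iff_ite]
    rintro ⟨p, q⟩ ⟨p', q'⟩
    obtain ⟨c, hcc⟩ := schur_form (hρ i) hU1 hU10 hmin (T p) (T p') (hT1 p) (hT1 p')
    have h1 := hcc u huU u huU
    rw [hT3, hT3, hu1, mul_one, orthonormal_iff_ite.1 hm] at h1
    have h2 := hcc _ (hxU q) _ (hxU q')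
    rw [orthonormal_iff_ite.1 hx, ← h1] at h2
    rw [Submodule.coe_inner, h2]
    by_cases hp : p = p' <;> by_cases hq : q = q' <;> simp [hp, hq]
  have hcard := horth.linearIndependent.fintype_card_le_finrank
  simp only [Fintype.card_prod, Fintype.card_fin] at hcard
  rw [Finset.card_insert_of_notMem his, pow_succ]
  exact (Nat.mul_le_mul ihM (ha i (Finset.mem_insert_self _ _) U1 hU1U hU1 hU10)).trans hcard

end Vale.Agent.P162
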